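import Vale.Agent.Lib.P335_helper14.Basic

namespace P335h14

open Finset

set_option linter.unusedSectionVars false

section Mat
variable {ι γ : Type*} [Fintype ι] [DecidableEq ι] [Fintype γ] [DecidableEq γ]

/-! ### Module RelApi : basic facts on `Rel`, `sw` -/

theorem Rel.equiv (T : Finset ι) : Equivalence (Rel (γ := γ) T) where
  refl := fun _ => ⟨fun _ _ => rfl, fun _ => rfl, fun _ => rfl⟩
  symm := fun h => ⟨fun a ha => (h.1 a ha).symm, fun a => (h.2.1 a).symm, fun c => (h.2.2 c).symm⟩
  trans := fun h h' => ⟨fun a ha => (h.1 a ha).trans (h'.1 a ha),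
    fun a => (h.2.1 a).trans (h'.2.1 a), fun c => (h.2.2 c).trans (h'.2.2 c)⟩

theorem Rel.mono {S T : Finset ι} (h : S ⊆ T) {M N : Mat ι γ} (hr : Rel S M N) : Rel T M N := by
  refine ⟨fun a ha => hr.1 a (fun hS => ha (h hS)), hr.2.1, fun c => ?_⟩
  rw [← Finset.sum_sdiff h, ← Finset.sum_sdiff (f := fun a => ind (N a) c) h, hr.2.2 c]
  congr 1
  apply Finset.sum_congr rfl
  intro a ha
  rw [hr.1 a (Finset.mem_sdiff.mp ha).2]

theorem ind_eq_iff {s t : Finset γ} {c : γ} : ind s c = ind t c ↔ (c ∈ s ↔ c ∈ t) := by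
  unfold ind
  by_cases h1 : c ∈ s <;> by_cases h2 : c ∈ t <;> simp [h1, h2]

theorem rel_singleton {i : ι} {M N : Mat ι γ} (h : Rel {i} M N) : M = N := by
  funext a
  by_cases ha : a = i
  · subst ha
    ext c
    have := h.2.2 c
    simp only [Finset.sum_singleton] at this
    exact ind_eq_iff.mp this
  · exact h.1 a (by simpa using ha)

theorem rel_pair_iff {i j : ι} (hij : i ≠ j) (M N : Mat ι γ) :
    Rel {i, j} M N ↔ (∀ a, a ≠ i → a ≠ j → M a = N a) ∧ (M i).card = (N i).card ∧
      (M j).card = (N j).card ∧ ∀ c, ind (M i) c + ind (M j) c = ind (N i) c + ind (N j) c := by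
  constructor
  · intro h
    refine ⟨fun a h1 h2 => h.1 a (by simp [h1, h2]), h.2.1 i, h.2.1 j, fun c => ?_⟩
    have := h.2.2 c
    rwa [Finset.sum_pair hij, Finset.sum_pair hij] at this
  · rintro ⟨h1, h2, h3, h4⟩
    refine ⟨fun a ha => ?_, fun a => ?_, fun c => ?_⟩
    · simp only [Finset.mem_insert, Finset.mem_singleton, not_or] at ha
      exact h1 a ha.1 ha.2
    · by_cases hai : a = i
      · subst hai; exact h2
      · by_cases haj : a = j
        · subst haj; exact h3
        · rw [h1 a hai haj]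
    · rw [Finset.sum_pair hij, Finset.sum_pair hij]; exact h4 c

theorem rel_triple_iff {i j k : ι} (hij : i ≠ j) (hik : i ≠ k) (hjk : j ≠ k) (M N : Mat ι γ) :
    Rel {i, j, k} M N ↔ (∀ a, a ≠ i → a ≠ j → a ≠ k → M a = N a) ∧ (M i).card = (N i).card ∧
      (M j).card = (N j).card ∧ (M k).card = (N k).card ∧
      ∀ c, ind (M i) c + ind (M j) c + ind (M k) c = ind (N i) c + ind (N j) c + ind (N k) c := by
  have hs : ∀ g : ι → ℕ, ∑ a ∈ ({i, j, k} : Finset ι), g a = g i + g j + g k := by
    intro g
    rw [Finset.sum_insert (by simp [hij, hik]), Finset.sum_pair hjk, add_assoc]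
  constructor
  · intro h
    refine ⟨fun a h1 h2 h3 => h.1 a (by simp [h1, h2, h3]), h.2.1 i, h.2.1 j, h.2.1 k, fun c => ?_⟩
    have := h.2.2 c
    rwa [hs, hs] at this
  · rintro ⟨h1, h2, h3, h3', h4⟩
    refine ⟨fun a ha => ?_, fun a => ?_, fun c => ?_⟩
    · simp only [Finset.mem_insert, Finset.mem_singleton, not_or] at ha
      exact h1 a ha.1 ha.2.1 ha.2.2
    · by_cases hai : a = i
      · subst hai; exact h2
      · by_cases haj : a = j
        · subst haj; exact h3
        · by_cases hak : a = k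
          · subst hak; exact h3'
          · rw [h1 a hai haj hak]
    · rw [hs, hs]; exact h4 c

theorem sw_apply_left {M : Mat ι γ} {i j : ι} (hij : i ≠ j) (c c' : γ) :
    sw M i j c c' i = insert c' ((M i).erase c) := by
  unfold sw
  rw [Function.update_of_ne hij, Function.update_self]

theorem sw_apply_right (M : Mat ι γ) (i j : ι) (c c' : γ) :
    sw M i j c c' j = insert c ((M j).erase c') := by
  unfold sw
  rw [Function.update_self]

theorem sw_apply_of_ne (M : Mat ι γ) {i j a : ι} (hi : a ≠ i) (hj : a ≠ j) (c c' : γ) :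
    sw M i j c c' a = M a := by
  unfold sw
  rw [Function.update_of_ne hj, Function.update_of_ne hi]

theorem rel_sw {M : Mat ι γ} {i j : ι} {c c' : γ} (h : SwOK M i j c c') :
    Rel {i, j} M (sw M i j c c') := by
  obtain ⟨hij, h1, h2, h3, h4⟩ := h
  have hcc : c ≠ c' := fun e => h4 (e ▸ h1)
  rw [rel_pair_iff hij]
  refine ⟨fun a ha hb => (sw_apply_of_ne M ha hb c c').symm, ?_, ?_, fun d => ?_⟩
  · rw [sw_apply_left hij, Finset.card_insert_of_notMem (by simp [h4]), Finset.card_erase_of_mem h1]
    have : 0 < (M i).card := Finset.card_pos.mpr ⟨c, h1⟩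
    omega
  · rw [sw_apply_right, Finset.card_insert_of_notMem (by simp [h2]), Finset.card_erase_of_mem h3]
    have : 0 < (M j).card := Finset.card_pos.mpr ⟨c', h3⟩
    omega
  · rw [sw_apply_left hij, sw_apply_right]
    unfold ind
    by_cases hd : d = c
    · subst hd
      simp [h1, h2, hcc]
    · by_cases hd' : d = c'
      · subst hd'
        simp [h3, h4, hd]
      · simp [hd, hd']

theorem swOK_rev {M : Mat ι γ} {i j : ι} {c c' : γ} (h : SwOK M i j c c') :
    SwOK (sw M i j c c') i j c' c ∧ sw (sw M i j c c') i j c' c = M := by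
  obtain ⟨hij, h1, h2, h3, h4⟩ := h
  have hcc : c ≠ c' := fun e => h4 (e ▸ h1)
  constructor
  · refine ⟨hij, ?_, ?_, ?_, ?_⟩
    · rw [sw_apply_left hij]; simp
    · rw [sw_apply_right]; simp [hcc.symm]
    · rw [sw_apply_right]; simp
    · rw [sw_apply_left hij]; simp [hcc]
  · funext a
    by_cases hai : a = i
    · subst hai
      rw [sw_apply_left hij, sw_apply_left hij]
      ext d
      simp only [Finset.mem_insert, Finset.mem_erase]
      by_cases hd : d = c
      · subst hd; simp [h1]
      · by_cases hd' : d = c'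
        · subst hd'; simp [h4, hd]
        · simp [hd, hd']
    · by_cases haj : a = j
      · subst haj
        rw [sw_apply_right, sw_apply_right]
        ext d
        simp only [Finset.mem_insert, Finset.mem_erase]
        by_cases hd : d = c
        · subst hd; simp [h2, hcc]
        · by_cases hd' : d = c'
          · subst hd'; simp [h3]
          · simp [hd, hd']
      · rw [sw_apply_of_ne _ hai haj, sw_apply_of_ne _ hai haj]

end Mat

end P335h14
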