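import Vale.Agent.Lib.P335_helper14.RelApi

namespace P335h14

open Finset

set_option linter.unusedSectionVars false

section Mat
variable {ι γ : Type*} [Fintype ι] [DecidableEq ι] [Fintype γ] [DecidableEq γ]

/-! ### Module Conn : connectivity of every fibre under switches (Ryser) -/

/-- one switch step inside the block `T` -/
def SwStep (T : Finset ι) (A B : Mat ι γ) : Prop :=
  ∃ i ∈ T, ∃ j ∈ T, ∃ c c', SwOK A i j c c' ∧ B = sw A i j c c'

theorem SwStep.symm {T : Finset ι} {A B : Mat ι γ} (h : SwStep T A B) : SwStep T B A := by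
  obtain ⟨i, hi, j, hj, c, c', hok, rfl⟩ := h
  exact ⟨i, hi, j, hj, c', c, (swOK_rev hok).1, (swOK_rev hok).2.symm⟩

theorem SwStep.rel {T : Finset ι} {A B : Mat ι γ} (h : SwStep T A B) : Rel T A B := by
  obtain ⟨i, hi, j, hj, c, c', hok, rfl⟩ := h
  refine Rel.mono ?_ (rel_sw hok)
  intro a ha
  simp only [Finset.mem_insert, Finset.mem_singleton] at ha
  rcases ha with rfl | rfl
  · exact hi
  · exact hj

/-- distance between two matrices -/
def mdist (M N : Mat ι γ) : ℕ := ∑ a, ((M a) \ (N a)).card

theorem conn_key (T : Finset ι) {M N : Mat ι γ} (h : Rel T M N) (hne : M ≠ N) :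
    (∃ M', SwStep T M M' ∧ mdist M' N < mdist M N) ∨
      (∃ N', SwStep T N N' ∧ mdist M N' < mdist M N) := by
  classical
  obtain ⟨a0, ha0⟩ : ∃ a, M a ≠ N a := by
    by_contra hcon
    push Not at hcon
    exact hne (funext hcon)
  have hpos0 : 0 < ((M a0) \ (N a0)).card := by
    rw [Finset.card_pos]
    by_contra hcon
    rw [Finset.not_nonempty_iff_eq_empty, Finset.sdiff_eq_empty_iff_subset] at hcon
    exact ha0 (Finset.eq_of_subset_of_card_le hcon (h.2.1 a0).symm.le)
  obtain ⟨i, -, hi⟩ := Finset.exists_max_image univ (fun a => ((M a) \ (N a)).card)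
    ⟨a0, Finset.mem_univ a0⟩
  have hposi : 0 < ((M i) \ (N i)).card := lt_of_lt_of_le hpos0 (hi a0 (Finset.mem_univ a0))
  have hposi' : 0 < ((N i) \ (M i)).card := by
    rw [Finset.card_sdiff_comm (h.2.1 i).symm]; exact hposi
  have hiT : i ∈ T := by
    by_contra hcon
    rw [h.1 i hcon] at hposi
    simp at hposi
  obtain ⟨c', hc'⟩ := Finset.card_pos.mp hposi'
  rw [Finset.mem_sdiff] at hc'
  obtain ⟨hc'N, hc'M⟩ := hc'
  obtain ⟨i', hi'T, hi'M, hi'N⟩ : ∃ i' ∈ T, c' ∈ M i' ∧ c' ∉ N i' := by
    by_contra hcon
    push Not at hcon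
    have hlt : ∑ a ∈ T, ind (M a) c' < ∑ a ∈ T, ind (N a) c' := by
      apply Finset.sum_lt_sum
      · intro a ha
        unfold ind
        by_cases h1 : c' ∈ M a
        · rw [if_pos h1, if_pos (hcon a ha h1)]
        · rw [if_neg h1]; exact Nat.zero_le _
      · refine ⟨i, hiT, ?_⟩
        unfold ind
        rw [if_neg hc'M, if_pos hc'N]
        exact Nat.zero_lt_one
    exact absurd (h.2.2 c') (ne_of_lt hlt)
  have hii' : i ≠ i' := by
    rintro rfl
    exact hc'M hi'M
  obtain ⟨c, hc, hcn⟩ : ∃ c ∈ (M i) \ (N i), c ∉ (M i') \ (N i') := by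
    by_contra hcon
    push Not at hcon
    have hsub : insert c' ((M i) \ (N i)) ⊆ (M i') \ (N i') := by
      intro x hx
      rw [Finset.mem_insert] at hx
      rcases hx with rfl | hx
      · exact Finset.mem_sdiff.mpr ⟨hi'M, hi'N⟩
      · exact hcon x hx
    have h1 := Finset.card_le_card hsub
    rw [Finset.card_insert_of_notMem (by simp [hc'M])] at h1
    have h2 := hi i' (Finset.mem_univ i')
    omega
  rw [Finset.mem_sdiff] at hc
  obtain ⟨hcM, hcN⟩ := hc
  have hcc : c ≠ c' := fun e => hc'M (e ▸ hcM)
  by_cases hcase : c ∈ M i'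
  · -- switch in `N`
    have hcN' : c ∈ N i' := by
      by_contra hcon
      exact hcn (Finset.mem_sdiff.mpr ⟨hcase, hcon⟩)
    right
    have hok : SwOK N i' i c c' := ⟨hii'.symm, hcN', hcN, hc'N, hi'N⟩
    refine ⟨sw N i' i c c', ⟨i', hi'T, i, hiT, c, c', hok, rfl⟩, ?_⟩
    unfold mdist
    apply Finset.sum_lt_sum
    · intro a _
      by_cases hai : a = i
      · subst hai
        apply Finset.card_le_card
        rw [sw_apply_right]
        intro x hx
        simp only [Finset.mem_sdiff, Finset.mem_insert, Finset.mem_erase, not_or, not_and] at hx ⊢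
        refine ⟨hx.1, fun hxN => ?_⟩
        have : x = c' := by
          by_contra hne'
          exact hx.2.2 hne' hxN
        exact hc'M (this ▸ hx.1)
      · by_cases hai' : a = i'
        · subst hai'
          rw [sw_apply_left hii'.symm]
          have hsub : (M a) \ insert c' ((N a).erase c) ⊆ insert c (((M a) \ (N a)).erase c') := by
            intro x hx
            simp only [Finset.mem_sdiff, Finset.mem_insert, Finset.mem_erase, not_or, not_and]
              at hx ⊢
            by_cases hxc : x = c
            · left; exact hxc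
            · right
              exact ⟨hx.2.1, hx.1, hx.2.2 hxc⟩
          calc ((M a) \ insert c' ((N a).erase c)).card
              ≤ (insert c (((M a) \ (N a)).erase c')).card := Finset.card_le_card hsub
            _ ≤ (((M a) \ (N a)).erase c').card + 1 := Finset.card_insert_le _ _
            _ = ((M a) \ (N a)).card := by
                have hmem : c' ∈ (M a) \ (N a) := Finset.mem_sdiff.mpr ⟨hi'M, hi'N⟩
                rw [Finset.card_erase_of_mem hmem]
                have := Finset.card_pos.mpr ⟨c', hmem⟩
                omega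
        · rw [sw_apply_of_ne N hai' hai]
    · refine ⟨i, Finset.mem_univ i, ?_⟩
      apply Finset.card_lt_card
      rw [sw_apply_right, Finset.ssubset_iff_of_subset]
      · refine ⟨c, Finset.mem_sdiff.mpr ⟨hcM, hcN⟩, ?_⟩
        simp
      · intro x hx
        simp only [Finset.mem_sdiff, Finset.mem_insert, Finset.mem_erase, not_or, not_and] at hx ⊢
        refine ⟨hx.1, fun hxN => ?_⟩
        have : x = c' := by
          by_contra hne'
          exact hx.2.2 hne' hxN
        exact hc'M (this ▸ hx.1)
  · -- switch in `M`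
    left
    have hok : SwOK M i i' c c' := ⟨hii', hcM, hcase, hi'M, hc'M⟩
    refine ⟨sw M i i' c c', ⟨i, hiT, i', hi'T, c, c', hok, rfl⟩, ?_⟩
    unfold mdist
    apply Finset.sum_lt_sum
    · intro a _
      by_cases hai : a = i
      · subst hai
        apply Finset.card_le_card
        rw [sw_apply_left hii']
        intro x hx
        simp only [Finset.mem_sdiff, Finset.mem_insert, Finset.mem_erase] at hx ⊢
        rcases hx.1 with rfl | hx1
        · exact absurd hc'N hx.2
        · exact ⟨hx1.2, hx.2⟩
      · by_cases hai' : a = i'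
        · subst hai'
          rw [sw_apply_right]
          have hsub : (insert c ((M a).erase c')) \ (N a) ⊆ insert c (((M a) \ (N a)).erase c') := by
            intro x hx
            simp only [Finset.mem_sdiff, Finset.mem_insert, Finset.mem_erase] at hx ⊢
            rcases hx.1 with rfl | hx1
            · left; rfl
            · right; exact ⟨hx1.1, hx1.2, hx.2⟩
          calc ((insert c ((M a).erase c')) \ (N a)).card
              ≤ (insert c (((M a) \ (N a)).erase c')).card := Finset.card_le_card hsub
            _ ≤ (((M a) \ (N a)).erase c').card + 1 := Finset.card_insert_le _ _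
            _ = ((M a) \ (N a)).card := by
                have hmem : c' ∈ (M a) \ (N a) := Finset.mem_sdiff.mpr ⟨hi'M, hi'N⟩
                rw [Finset.card_erase_of_mem hmem]
                have := Finset.card_pos.mpr ⟨c', hmem⟩
                omega
        · rw [sw_apply_of_ne M hai hai']
    · refine ⟨i, Finset.mem_univ i, ?_⟩
      apply Finset.card_lt_card
      rw [sw_apply_left hii', Finset.ssubset_iff_of_subset]
      · refine ⟨c, Finset.mem_sdiff.mpr ⟨hcM, hcN⟩, ?_⟩
        simp [hcc]
      · intro x hx
        simp only [Finset.mem_sdiff, Finset.mem_insert, Finset.mem_erase] at hx ⊢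
        rcases hx.1 with rfl | hx1
        · exact absurd hc'N hx.2
        · exact ⟨hx1.2, hx.2⟩

theorem conn_aux (T : Finset ι) : ∀ (n : ℕ) (M N : Mat ι γ), mdist M N ≤ n → Rel T M N →
    Relation.ReflTransGen (SwStep T) M N := by
  intro n
  induction n with
  | zero =>
    intro M N hd h
    by_cases hne : M = N
    · subst hne; exact Relation.ReflTransGen.refl
    · rcases conn_key T h hne with ⟨M', _, hlt⟩ | ⟨N', _, hlt⟩ <;> omega
  | succ n ih =>
    intro M N hd h
    by_cases hne : M = N
    · subst hne; exact Relation.ReflTransGen.refl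
    · rcases conn_key T h hne with ⟨M', hst, hlt⟩ | ⟨N', hst, hlt⟩
      · have hrel : Rel T M' N := (Rel.equiv T).trans ((Rel.equiv T).symm hst.rel) h
        exact Relation.ReflTransGen.head hst (ih M' N (by omega) hrel)
      · have hrel : Rel T M N' := (Rel.equiv T).trans h hst.rel
        exact Relation.ReflTransGen.tail (ih M N' (by omega) hrel) hst.symm

theorem conn (T : Finset ι) {M N : Mat ι γ} (h : Rel T M N) :
    Relation.ReflTransGen
      (fun A B : Mat ι γ => ∃ i ∈ T, ∃ j ∈ T, ∃ c c', SwOK A i j c c' ∧ B = sw A i j c c') M N :=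
  conn_aux T (mdist M N) M N le_rfl h

end Mat

end P335h14
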