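import Vale.Agent.Lib.P335_helper14.Basic

namespace P335h14

open Finset

set_option linter.unusedSectionVars false

/-! ### Module Spectral : two consequences of the spectral theorem, for plain function spaces -/
section Spectral
variable {X : Type*} [Fintype X] [DecidableEq X]

open scoped InnerProductSpace

/-- inner product of the Euclidean space in terms of `ip` -/
theorem inner_eq_ip (u v : EuclideanSpace ℝ X) : ⟪u, v⟫_ℝ = ip (WithLp.ofLp u) (WithLp.ofLp v) := by
  rw [EuclideanSpace.inner_eq_star_dotProduct]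
  unfold ip dotProduct
  exact Finset.sum_congr rfl (fun x _ => by simp [mul_comm])

/-- spectral decomposition in the form we need: there are finitely many eigenpairs `(lam i, e i)`
with `e i ≠ 0` and coefficient functionals such that the three quadratic forms are diagonal. -/
theorem spectral_data (T : (X → ℝ) →ₗ[ℝ] (X → ℝ)) (hT : ∀ f g, ip (T f) g = ip f (T g)) :
    ∃ (n : ℕ) (lam : Fin n → ℝ) (e : Fin n → X → ℝ),
      (∀ i, e i ≠ 0) ∧ (∀ i, T (e i) = lam i • e i) ∧
      ∀ f : X → ℝ, ip f f = ∑ i, (ip (e i) f) ^ 2 ∧ ip (T f) f = ∑ i, lam i * (ip (e i) f) ^ 2 ∧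
        ip (T f) (T f) = ∑ i, (lam i) ^ 2 * (ip (e i) f) ^ 2 := by
  classical
  let E := WithLp.linearEquiv 2 ℝ (X → ℝ)
  let T' : EuclideanSpace ℝ X →ₗ[ℝ] EuclideanSpace ℝ X := E.symm.toLinearMap ∘ₗ T ∘ₗ E.toLinearMap
  have hE : ∀ u : EuclideanSpace ℝ X, E u = WithLp.ofLp u := fun u => rfl
  have hT'app : ∀ u, WithLp.ofLp (T' u) = T (WithLp.ofLp u) := fun u => rfl
  have hsym : T'.IsSymmetric := by
    intro u v
    rw [inner_eq_ip, inner_eq_ip, hT'app, hT'app]
    exact hT _ _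
  obtain ⟨n, hn⟩ : ∃ n, Module.finrank ℝ (EuclideanSpace ℝ X) = n := ⟨_, rfl⟩
  let b := hsym.eigenvectorBasis hn
  let lam := hsym.eigenvalues hn
  have hb : ∀ i, T' (b i) = lam i • b i := fun i => by
    exact hsym.apply_eigenvectorBasis hn i
  refine ⟨n, lam, fun i => WithLp.ofLp (b i), ?_, ?_, ?_⟩
  · intro i h0
    have h1 : b i = 0 := by
      have : WithLp.ofLp (b i) = WithLp.ofLp (0 : EuclideanSpace ℝ X) := h0
      exact WithLp.ofLp_injective 2 this
    have h2 := b.orthonormal.ne_zero i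
    exact h2 h1
  · intro i
    have := congrArg WithLp.ofLp (hb i)
    rw [hT'app] at this
    rw [this]; rfl
  · intro f
    let u : EuclideanSpace ℝ X := WithLp.toLp 2 f
    have hu : WithLp.ofLp u = f := rfl
    have hcoef : ∀ i, ⟪b i, u⟫_ℝ = ip (WithLp.ofLp (b i)) f := fun i => by rw [inner_eq_ip]
    have hcoefT : ∀ i, ⟪b i, T' u⟫_ℝ = lam i * ip (WithLp.ofLp (b i)) f := fun i => by
      rw [← hsym (b i) u, hb i, inner_smul_left, hcoef]; simp
    refine ⟨?_, ?_, ?_⟩
    · have h := b.sum_inner_mul_inner u u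
      rw [inner_eq_ip u u, hu] at h
      rw [← h]
      refine Finset.sum_congr rfl (fun i _ => ?_)
      rw [real_inner_comm, hcoef]; ring
    · have h := b.sum_inner_mul_inner (T' u) u
      rw [inner_eq_ip (T' u) u, hT'app, hu] at h
      rw [← h]
      refine Finset.sum_congr rfl (fun i _ => ?_)
      rw [real_inner_comm, hcoefT, hcoef]; ring
    · have h := b.sum_inner_mul_inner (T' u) (T' u)
      rw [inner_eq_ip (T' u) (T' u), hT'app, hu] at h
      rw [← h]
      refine Finset.sum_congr rfl (fun i _ => ?_)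
      rw [real_inner_comm, hcoefT]; ring

theorem quad_nonneg_of_eigen (T : (X → ℝ) →ₗ[ℝ] (X → ℝ)) (hT : ∀ f g, ip (T f) g = ip f (T g))
    (a b c : ℝ) (h : ∀ (μ : ℝ) (f : X → ℝ), f ≠ 0 → T f = μ • f → 0 ≤ a * μ ^ 2 + b * μ + c)
    (f : X → ℝ) : 0 ≤ a * ip (T f) (T f) + b * ip (T f) f + c * ip f f := by
  obtain ⟨n, lam, e, he0, heT, hdec⟩ := spectral_data T hT
  obtain ⟨h1, h2, h3⟩ := hdec f
  rw [h1, h2, h3, Finset.mul_sum, Finset.mul_sum, Finset.mul_sum, ← Finset.sum_add_distrib,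
    ← Finset.sum_add_distrib]
  refine Finset.sum_nonneg (fun i _ => ?_)
  have := h (lam i) (e i) (he0 i) (heT i)
  have h4 : 0 ≤ (a * lam i ^ 2 + b * lam i + c) * (ip (e i) f) ^ 2 :=
    mul_nonneg this (sq_nonneg _)
  nlinarith [h4]

theorem gap_of_eigen (T : (X → ℝ) →ₗ[ℝ] (X → ℝ)) (hT : ∀ f g, ip (T f) g = ip f (T g))
    (c : ℝ) (h : ∀ (μ : ℝ) (f : X → ℝ), f ≠ 0 → T f = μ • f → μ = 0 ∨ c ≤ μ)
    (f : X → ℝ) (hf : ∀ g, T g = 0 → ip f g = 0) : c * ip f f ≤ ip (T f) f := by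
  obtain ⟨n, lam, e, he0, heT, hdec⟩ := spectral_data T hT
  obtain ⟨h1, h2, _⟩ := hdec f
  rw [h1, h2, Finset.mul_sum]
  refine Finset.sum_le_sum (fun i _ => ?_)
  rcases h (lam i) (e i) (he0 i) (heT i) with h0 | hc
  · have hz : T (e i) = 0 := by rw [heT i, h0, zero_smul]
    have h5 : ip (e i) f = 0 := by
      have := hf (e i) hz
      unfold ip at this ⊢
      rw [← this]
      exact Finset.sum_congr rfl (fun x _ => mul_comm _ _)
    rw [h5]; simp
  · exact mul_le_mul_of_nonneg_right hc (sq_nonneg _)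

end Spectral


end P335h14
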