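import Vale.Agent.Lib.P335_helper14.AvgApi
import Vale.Agent.Lib.P335_helper14.Spectral
import Vale.Agent.Lib.P335_helper14.RelApi
import Vale.Agent.Lib.P335_helper14.Conn

set_option linter.unusedSectionVars false

namespace P335h14

open Finset

section Mat
variable {ι γ : Type*} [Fintype ι] [DecidableEq ι] [Fintype γ] [DecidableEq γ]

/-! ### Module TwoRow : Johnson graph gap ≥ 2 -/

namespace TR

lemma sw_row_i (M : Mat ι γ) {i j : ι} (hij : i ≠ j) (c c' : γ) :
    sw M i j c c' i = insert c' ((M i).erase c) := by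
  simp [sw, Function.update_of_ne hij]

lemma sw_row_j (M : Mat ι γ) (i j : ι) (c c' : γ) :
    sw M i j c c' j = insert c ((M j).erase c') := by
  simp [sw]

lemma sw_row_other (M : Mat ι γ) {i j a : ι} (hi : a ≠ i) (hj : a ≠ j) (c c' : γ) :
    sw M i j c c' a = M a := by
  simp [sw, Function.update_of_ne hi, Function.update_of_ne hj]

/-- two matrices agreeing on rows `i`, `j` and elsewhere -/
lemma mat_ext {M N : Mat ι γ} (i j : ι) (hi : M i = N i) (hj : M j = N j)
    (ho : ∀ a, a ≠ i → a ≠ j → M a = N a) : M = N := by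
  funext a
  by_cases h1 : a = i
  · subst h1; exact hi
  by_cases h2 : a = j
  · subst h2; exact hj
  exact ho a h1 h2

/-- the switch on `(j,i)` is a switch on `(i,j)` -/
lemma sw_symm (M : Mat ι γ) {i j : ι} (hij : i ≠ j) (c c' : γ) :
    sw M j i c c' = sw M i j c' c := by
  apply mat_ext i j
  · rw [sw_row_j, sw_row_i _ hij]
  · rw [sw_row_i _ hij.symm, sw_row_j]
  · intro a h1 h2
    rw [sw_row_other _ h2 h1, sw_row_other _ h1 h2]

lemma swOK_symm {M : Mat ι γ} {i j : ι} {c c' : γ} (h : SwOK M j i c c') : SwOK M i j c' c := by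
  obtain ⟨h1, h2, h3, h4, h5⟩ := h
  exact ⟨h1.symm, h4, h5, h2, h3⟩

/-- image of a row under the transposition of the columns `c`, `c'` -/
def twS (c c' : γ) (s : Finset γ) : Finset γ := s.image (Equiv.swap c c')

lemma mem_twS (c c' u : γ) (s : Finset γ) : u ∈ twS c c' s ↔ Equiv.swap c c' u ∈ s := by
  unfold twS
  rw [Finset.mem_image]
  constructor
  · rintro ⟨v, hv, rfl⟩
    rwa [Equiv.swap_apply_self]
  · intro h
    exact ⟨_, h, Equiv.swap_apply_self _ _ _⟩

lemma swap_eq_iff (c c' u v : γ) : Equiv.swap c c' u = v ↔ u = Equiv.swap c c' v := by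
  constructor
  · rintro rfl; rw [Equiv.swap_apply_self]
  · rintro rfl; rw [Equiv.swap_apply_self]

/-- transposition of the columns `c`, `c'` in the rows `i`, `j` -/
def tw (i j : ι) (c c' : γ) (B : Mat ι γ) : Mat ι γ :=
  fun a => if a = i ∨ a = j then twS c c' (B a) else B a

lemma tw_i (i j : ι) (c c' : γ) (B : Mat ι γ) : tw i j c c' B i = twS c c' (B i) := by
  simp [tw]

lemma tw_j (i j : ι) (c c' : γ) (B : Mat ι γ) : tw i j c c' B j = twS c c' (B j) := by
  simp [tw]

lemma tw_other {i j a : ι} (hi : a ≠ i) (hj : a ≠ j) (c c' : γ) (B : Mat ι γ) :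
    tw i j c c' B a = B a := by
  simp [tw, hi, hj]

lemma twS_comm (c c' : γ) (s : Finset γ) : twS c c' s = twS c' c s := by
  unfold twS; rw [Equiv.swap_comm]

lemma tw_comm (i j : ι) (c c' : γ) (B : Mat ι γ) : tw i j c c' B = tw i j c' c B := by
  funext a; simp only [tw, twS_comm c c']

lemma twS_switch {c c' : γ} {s : Finset γ} (h1 : c ∈ s) (h2 : c' ∉ s) :
    insert c' (s.erase c) = twS c c' s := by
  ext u
  rw [mem_twS, Finset.mem_insert, Finset.mem_erase, Equiv.swap_apply_def]
  have hne : c ≠ c' := fun h => h2 (h ▸ h1)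
  by_cases hu : u = c
  · subst hu; simp [hne, h2]
  by_cases hu' : u = c'
  · subst hu'; simp [hu, h1]
  simp [hu, hu']

lemma twS_fix_in {c c' : γ} {s : Finset γ} (h1 : c ∈ s) (h2 : c' ∈ s) : twS c c' s = s := by
  ext u
  rw [mem_twS, Equiv.swap_apply_def]
  by_cases hu : u = c
  · subst hu; simp [h1, h2]
  by_cases hu' : u = c'
  · subst hu'; simp [hu, h1, h2]
  simp [hu, hu']

lemma twS_fix_out {c c' : γ} {s : Finset γ} (h1 : c ∉ s) (h2 : c' ∉ s) : twS c c' s = s := by
  ext u
  rw [mem_twS, Equiv.swap_apply_def]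
  by_cases hu : u = c
  · subst hu; simp [h1, h2]
  by_cases hu' : u = c'
  · subst hu'; simp [hu, h1, h2]
  simp [hu, hu']

lemma sw_eq_tw {A : Mat ι γ} {i j : ι} {c c' : γ} (h : SwOK A i j c c') :
    sw A i j c c' = tw i j c c' A := by
  obtain ⟨hij, h1, h2, h3, h4⟩ := h
  apply mat_ext i j
  · rw [sw_row_i _ hij, tw_i, twS_switch h1 h4]
  · rw [sw_row_j, tw_j, twS_comm, twS_switch h3 h2]
  · intro a ha hb
    rw [sw_row_other _ ha hb, tw_other ha hb]

lemma swOK_tw (A : Mat ι γ) (i j : ι) (c c' x y : γ) :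
    SwOK (tw i j c c' A) i j (Equiv.swap c c' x) (Equiv.swap c c' y) ↔ SwOK A i j x y := by
  unfold SwOK
  rw [tw_i, tw_j]
  simp only [mem_twS, Equiv.swap_apply_self]

lemma twS_insert_erase (c c' x y : γ) (s : Finset γ) :
    insert (Equiv.swap c c' y) ((twS c c' s).erase (Equiv.swap c c' x))
      = twS c c' (insert y (s.erase x)) := by
  ext u
  simp only [mem_twS, Finset.mem_insert, Finset.mem_erase, ne_eq, swap_eq_iff]

lemma sw_tw (A : Mat ι γ) {i j : ι} (hij : i ≠ j) (c c' x y : γ) :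
    sw (tw i j c c' A) i j (Equiv.swap c c' x) (Equiv.swap c c' y)
      = tw i j c c' (sw A i j x y) := by
  apply mat_ext i j
  · rw [sw_row_i _ hij, tw_i, tw_i, sw_row_i _ hij, twS_insert_erase]
  · rw [sw_row_j, tw_j, tw_j, sw_row_j, twS_insert_erase]
  · intro a ha hb
    rw [sw_row_other _ ha hb, tw_other ha hb, tw_other ha hb, sw_row_other _ ha hb]

/-- `u` lies in exactly one of the rows `i`, `j` -/
def Xor1 (B : Mat ι γ) (i j : ι) (u : γ) : Prop := (u ∈ B i ↔ u ∉ B j)

lemma xor1_sw {A : Mat ι γ} {i j : ι} {x y u : γ} (h : SwOK A i j x y) (hu : Xor1 A i j u) :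
    Xor1 (sw A i j x y) i j u := by
  obtain ⟨hij, h1, h2, h3, h4⟩ := h
  unfold Xor1 at *
  rw [sw_row_i _ hij, sw_row_j]
  have hxy : x ≠ y := fun h => h4 (h ▸ h1)
  simp only [Finset.mem_insert, Finset.mem_erase]
  by_cases hux : u = x
  · subst hux; simp [hxy]
  by_cases huy : u = y
  · subst huy; simp [hux]
  simp [hux, huy, hu]

lemma tw_cases {B : Mat ι γ} {i j : ι} (hij : i ≠ j) {c c' : γ} (h1 : Xor1 B i j c) (h2 : Xor1 B i j c') :
    tw i j c c' B = B ∨ (SwOK B i j c c' ∧ tw i j c c' B = sw B i j c c') ∨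
      (SwOK B i j c' c ∧ tw i j c c' B = sw B i j c' c) := by
  unfold Xor1 at h1 h2
  by_cases a1 : c ∈ B i <;> by_cases a2 : c' ∈ B i
  · left
    have b1 : c ∉ B j := h1.1 a1
    have b2 : c' ∉ B j := h2.1 a2
    apply mat_ext i j
    · rw [tw_i, twS_fix_in a1 a2]
    · rw [tw_j, twS_fix_out b1 b2]
    · intro a ha hb; rw [tw_other ha hb]
  · right; left
    have b1 : c ∉ B j := h1.1 a1
    have b2 : c' ∈ B j := by by_contra hh; exact a2 (h2.2 hh)
    have hok : SwOK B i j c c' := ⟨hij, a1, b1, b2, a2⟩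
    exact ⟨hok, (sw_eq_tw hok).symm⟩
  · right; right
    have b1 : c ∈ B j := by by_contra hh; exact a1 (h1.2 hh)
    have b2 : c' ∉ B j := h2.1 a2
    have hok : SwOK B i j c' c := ⟨hij, a2, b2, b1, a1⟩
    exact ⟨hok, by rw [tw_comm]; exact (sw_eq_tw hok).symm⟩
  · left
    have b1 : c ∈ B j := by by_contra hh; exact a1 (h1.2 hh)
    have b2 : c' ∈ B j := by by_contra hh; exact a2 (h2.2 hh)
    apply mat_ext i j
    · rw [tw_i, twS_fix_out a1 a2]
    · rw [tw_j, twS_fix_in b1 b2]
    · intro a ha hb; rw [tw_other ha hb]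

/-- one term of the two-row switch Laplacian -/
noncomputable def LT (i j : ι) (e : Mat ι γ → ℝ) (M : Mat ι γ) (x y : γ) : ℝ :=
  if SwOK M i j x y then e M - e (sw M i j x y) else 0

/-- the two-row switch Laplacian -/
noncomputable def Lop (i j : ι) : (Mat ι γ → ℝ) →ₗ[ℝ] (Mat ι γ → ℝ) where
  toFun e := fun M => ∑ x, ∑ y, LT i j e M x y
  map_add' := by
    intro e e'
    funext M
    simp only [Pi.add_apply, ← Finset.sum_add_distrib]
    refine Finset.sum_congr rfl fun x _ => Finset.sum_congr rfl fun y _ => ?_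
    unfold LT
    split_ifs
    · simp only [Pi.add_apply]; ring
    · simp
  map_smul' := by
    intro a e
    funext M
    simp only [Pi.smul_apply, smul_eq_mul, RingHom.id_apply, Finset.mul_sum]
    refine Finset.sum_congr rfl fun x _ => Finset.sum_congr rfl fun y _ => ?_
    unfold LT
    split_ifs
    · simp only [Pi.smul_apply, smul_eq_mul]; ring
    · simp

lemma Lop_apply (i j : ι) (e : Mat ι γ → ℝ) (M : Mat ι γ) :
    Lop i j e M = ∑ x, ∑ y, LT i j e M x y := rfl

/-- the reversal map on (matrix, switch) triples -/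
def revMap (i j : ι) (p : Mat ι γ × γ × γ) : Mat ι γ × γ × γ :=
  if SwOK p.1 i j p.2.1 p.2.2 then (sw p.1 i j p.2.1 p.2.2, p.2.2, p.2.1) else p

lemma revMap_invol (i j : ι) : Function.Involutive (revMap (γ := γ) i j) := by
  rintro ⟨M, x, y⟩
  by_cases h : SwOK M i j x y
  · have h' := swOK_rev h
    simp only [revMap, h, if_true, h'.1, h'.2]
  · simp only [revMap, h, if_false]

lemma sum_switch_symm (i j : ι) (h : Mat ι γ → Mat ι γ → ℝ) :
    ∑ M : Mat ι γ, ∑ x, ∑ y, (if SwOK M i j x y then h M (sw M i j x y) else 0)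
      = ∑ M : Mat ι γ, ∑ x, ∑ y, (if SwOK M i j x y then h (sw M i j x y) M else 0) := by
  have e1 : ∀ F : Mat ι γ → γ → γ → ℝ, ∑ M : Mat ι γ, ∑ x, ∑ y, F M x y
      = ∑ p : Mat ι γ × γ × γ, F p.1 p.2.1 p.2.2 := by
    intro F
    rw [Fintype.sum_prod_type]
    refine Finset.sum_congr rfl fun M _ => ?_
    rw [Fintype.sum_prod_type]
  rw [e1, e1]
  rw [← Equiv.sum_comp (revMap_invol (γ := γ) i j).toPerm]
  refine Finset.sum_congr rfl fun p _ => ?_
  obtain ⟨M, x, y⟩ := p
  by_cases hh : SwOK M i j x y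
  · have h' := swOK_rev hh
    simp only [Function.Involutive.coe_toPerm, revMap, hh, if_true, h'.1, h'.2]
  · simp only [Function.Involutive.coe_toPerm, revMap, hh, if_false]

lemma ip_Lop (i j : ι) (f g : Mat ι γ → ℝ) :
    ip (Lop i j f) g = (1 / 2) * ∑ M : Mat ι γ, ∑ x, ∑ y,
      (if SwOK M i j x y then (f M - f (sw M i j x y)) * (g M - g (sw M i j x y)) else 0) := by
  have h1 : ip (Lop i j f) g = ∑ M : Mat ι γ, ∑ x, ∑ y,
      (if SwOK M i j x y then (fun A B => (f A - f B) * g A) M (sw M i j x y) else 0) := by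
    unfold ip
    refine Finset.sum_congr rfl fun M _ => ?_
    rw [Lop_apply, Finset.sum_mul]
    refine Finset.sum_congr rfl fun x _ => ?_
    rw [Finset.sum_mul]
    refine Finset.sum_congr rfl fun y _ => ?_
    unfold LT
    split_ifs <;> simp
  have h2 := sum_switch_symm i j (fun A B => (f A - f B) * g A)
  have h3 : ip (Lop i j f) g + ip (Lop i j f) g = ∑ M : Mat ι γ, ∑ x, ∑ y,
      (if SwOK M i j x y then (f M - f (sw M i j x y)) * (g M - g (sw M i j x y)) else 0) := by
    nth_rewrite 2 [h1]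
    rw [h2, h1]
    simp only [← Finset.sum_add_distrib]
    refine Finset.sum_congr rfl fun M _ => Finset.sum_congr rfl fun x _ =>
      Finset.sum_congr rfl fun y _ => ?_
    split_ifs
    · ring
    · simp
  linarith

lemma Lop_symm (i j : ι) (f g : Mat ι γ → ℝ) : ip (Lop i j f) g = ip f (Lop i j g) := by
  have h : ip f (Lop i j g) = ip (Lop i j g) f := by
    unfold ip; exact Finset.sum_congr rfl fun M _ => mul_comm _ _
  rw [h, ip_Lop, ip_Lop]
  congr 1
  refine Finset.sum_congr rfl fun M _ => Finset.sum_congr rfl fun x _ =>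
      Finset.sum_congr rfl fun y _ => ?_
  split_ifs
  · ring
  · rfl

lemma ip_Lop_self (i j : ι) (f : Mat ι γ → ℝ) : ip (Lop i j f) f = (1 / 2) * dir2 i j f := by
  rw [ip_Lop]
  congr 1
  unfold dir2
  refine Finset.sum_congr rfl fun M _ => Finset.sum_congr rfl fun x _ =>
      Finset.sum_congr rfl fun y _ => ?_
  split_ifs
  · ring
  · rfl

lemma abs_tw_le {i j : ι} (hij : i ≠ j) (e : Mat ι γ → ℝ) (δ : ℝ) (hδ0 : 0 ≤ δ)
    (hδ : ∀ M x y, SwOK M i j x y → |e M - e (sw M i j x y)| ≤ δ)
    {B : Mat ι γ} {c c' : γ} (h1 : Xor1 B i j c) (h2 : Xor1 B i j c') :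
    |e B - e (tw i j c c' B)| ≤ δ := by
  rcases tw_cases hij h1 h2 with h | ⟨hok, h⟩ | ⟨hok, h⟩
  · rw [h]; simpa using hδ0
  · rw [h]; exact hδ _ _ _ hok
  · rw [h]; exact hδ _ _ _ hok

lemma key_ineq {i j : ι} (e : Mat ι γ → ℝ) (δ : ℝ)
    (hδ : ∀ M x y, SwOK M i j x y → |e M - e (sw M i j x y)| ≤ δ)
    {A : Mat ι γ} {c c' : γ} (h : SwOK A i j c c') (hA : e A - e (sw A i j c c') = δ) :
    2 * δ ≤ Lop i j e A - Lop i j e (sw A i j c c') := by
  have hij : i ≠ j := h.1
  have hδ0 : 0 ≤ δ := le_trans (abs_nonneg _) (hδ _ _ _ h)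
  have hA' : sw A i j c c' = tw i j c c' A := sw_eq_tw h
  have hx1 : Xor1 A i j c := by
    unfold Xor1; exact ⟨fun _ => h.2.2.1, fun _ => h.2.1⟩
  have hx2 : Xor1 A i j c' := by
    unfold Xor1
    exact ⟨fun hh => absurd hh h.2.2.2.2, fun hh => absurd h.2.2.2.1 hh⟩
  set τ := Equiv.swap c c' with hτ
  have e1 : Lop i j e (sw A i j c c') = ∑ x, ∑ y, LT i j e (sw A i j c c') (τ x) (τ y) := by
    rw [Lop_apply, ← Equiv.sum_comp τ]
    refine Finset.sum_congr rfl fun x _ => ?_
    rw [← Equiv.sum_comp τ]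
  have hD : ∀ x y, 0 ≤ LT i j e A x y - LT i j e (sw A i j c c') (τ x) (τ y) := by
    intro x y
    unfold LT
    by_cases hok : SwOK A i j x y
    · have hok' : SwOK (sw A i j c c') i j (τ x) (τ y) := by
        rw [hA']; exact (swOK_tw A i j c c' x y).2 hok
      rw [if_pos hok, if_pos hok']
      have e2 : sw (sw A i j c c') i j (τ x) (τ y) = tw i j c c' (sw A i j x y) := by
        rw [hA']; exact sw_tw A hij c c' x y
      rw [e2]
      have := abs_tw_le hij e δ hδ0 hδ (xor1_sw hok hx1) (xor1_sw hok hx2)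
      have := (abs_le.1 this).2
      linarith
    · have hok' : ¬ SwOK (sw A i j c c') i j (τ x) (τ y) := by
        rw [hA']; exact fun hh => hok ((swOK_tw A i j c c' x y).1 hh)
      rw [if_neg hok, if_neg hok']; simp
  have hcc : LT i j e A c c' - LT i j e (sw A i j c c') (τ c) (τ c') = 2 * δ := by
    have h' := swOK_rev h
    have t1 : τ c = c' := Equiv.swap_apply_left _ _
    have t2 : τ c' = c := Equiv.swap_apply_right _ _
    unfold LT
    rw [t1, t2, if_pos h, if_pos h'.1, h'.2]
    linarith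
  rw [e1, Lop_apply, ← Finset.sum_sub_distrib]
  have s1 : ∀ x, ∑ y, LT i j e A x y - ∑ y, LT i j e (sw A i j c c') (τ x) (τ y)
      = ∑ y, (LT i j e A x y - LT i j e (sw A i j c c') (τ x) (τ y)) := by
    intro x; rw [Finset.sum_sub_distrib]
  simp only [s1]
  calc 2 * δ = LT i j e A c c' - LT i j e (sw A i j c c') (τ c) (τ c') := hcc.symm
    _ ≤ ∑ y, (LT i j e A c y - LT i j e (sw A i j c c') (τ c) (τ y)) :=
        Finset.single_le_sum (f := fun y => LT i j e A c y - LT i j e (sw A i j c c') (τ c) (τ y))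
          (fun y _ => hD c y) (Finset.mem_univ c')
    _ ≤ ∑ x, ∑ y, (LT i j e A x y - LT i j e (sw A i j c c') (τ x) (τ y)) :=
        Finset.single_le_sum
          (f := fun x => ∑ y, (LT i j e A x y - LT i j e (sw A i j c c') (τ x) (τ y)))
          (fun x _ => Finset.sum_nonneg fun y _ => hD x y) (Finset.mem_univ c)

lemma inv_of_switch_inv {i j : ι} (hij : i ≠ j) (e : Mat ι γ → ℝ)
    (h0 : ∀ M x y, SwOK M i j x y → e M = e (sw M i j x y)) :
    ∀ M N, Rel {i, j} M N → e M = e N := by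
  intro M N hMN
  have hc := conn {i, j} hMN
  clear hMN
  induction hc with
  | refl => rfl
  | tail _ hstep ih =>
    obtain ⟨a, ha, b, hb, c, c', hok, rfl⟩ := hstep
    rw [ih]
    simp only [Finset.mem_insert, Finset.mem_singleton] at ha hb
    rcases ha with rfl | rfl <;> rcases hb with rfl | rfl
    · exact absurd rfl hok.1
    · exact h0 _ _ _ hok
    · rw [sw_symm _ hij]; exact h0 _ _ _ (swOK_symm hok)
    · exact absurd rfl hok.1

lemma eigen_two {i j : ι} (μ : ℝ) (e : Mat ι γ → ℝ) (he : e ≠ 0)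
    (hL : Lop i j e = μ • e) : μ = 0 ∨ 2 ≤ μ := by
  by_cases hex : ∃ M x y, SwOK M i j x y ∧ e M ≠ e (sw M i j x y)
  · right
    obtain ⟨M0, x0, y0, hok0, hne0⟩ := hex
    set φ : Mat ι γ × γ × γ → ℝ := fun p =>
      if SwOK p.1 i j p.2.1 p.2.2 then |e p.1 - e (sw p.1 i j p.2.1 p.2.2)| else 0 with hφ
    obtain ⟨p0, -, hmax⟩ := Finset.exists_max_image (Finset.univ : Finset (Mat ι γ × γ × γ)) φ
      ⟨(M0, x0, y0), Finset.mem_univ _⟩
    obtain ⟨A, c, c'⟩ := p0
    have hpos : 0 < φ (A, c, c') := by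
      have h1 := hmax (M0, x0, y0) (Finset.mem_univ _)
      have h2 : 0 < φ (M0, x0, y0) := by
        simp only [hφ, hok0, if_true]
        exact abs_pos.2 (sub_ne_zero.2 hne0)
      linarith
    have hok : SwOK A i j c c' := by
      by_contra hh
      simp only [hφ, hh, if_false] at hpos
      exact lt_irrefl _ hpos
    set δ := φ (A, c, c') with hδdef
    have hδA : |e A - e (sw A i j c c')| = δ := by
      simp only [hδdef, hφ, hok, if_true]
    have hδ : ∀ M x y, SwOK M i j x y → |e M - e (sw M i j x y)| ≤ δ := by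
      intro M x y hh
      have := hmax (M, x, y) (Finset.mem_univ _)
      simpa only [hφ, hh, if_true] using this
    have hLa : ∀ M, Lop i j e M = μ * e M := by
      intro M; rw [hL]; simp
    rcases abs_cases (e A - e (sw A i j c c')) with ⟨h1, _⟩ | ⟨h1, _⟩
    · have hk := key_ineq e δ hδ hok (by rw [← hδA, h1])
      rw [hLa, hLa] at hk
      have : μ * e A - μ * e (sw A i j c c') = μ * δ := by
        rw [← hδA, h1]; ring
      rw [this] at hk
      by_contra hlt
      have hlt' := not_le.1 hlt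
      nlinarith
    · have h' := swOK_rev hok
      have hk := key_ineq e δ hδ h'.1 (by rw [h'.2, ← hδA, h1]; ring)
      rw [h'.2, hLa, hLa] at hk
      have : μ * e (sw A i j c c') - μ * e A = μ * δ := by
        rw [← hδA, h1]; ring
      rw [this] at hk
      by_contra hlt
      have hlt' := not_le.1 hlt
      nlinarith
  · left
    have hex' : ∀ M x y, SwOK M i j x y → e M = e (sw M i j x y) := by
      intro M x y hh
      by_contra hne
      exact hex ⟨M, x, y, hh, hne⟩
    have hz : Lop i j e = 0 := by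
      funext M
      rw [Lop_apply]
      refine Finset.sum_eq_zero fun x _ => Finset.sum_eq_zero fun y _ => ?_
      unfold LT
      split_ifs with hh
      · rw [hex' M x y hh]; ring
      · rfl
    rw [hz] at hL
    rcases smul_eq_zero.1 hL.symm with h | h
    · exact h
    · exact absurd h he

end TR

open TR in
theorem two_row {i j : ι} (hij : i ≠ j) (f : Mat ι γ → ℝ) :
    4 * ip (f - avg (Rel {i, j}) f) (f - avg (Rel {i, j}) f) ≤ dir2 i j f := by
  have hr : Equivalence (Rel (γ := γ) ({i, j} : Finset ι)) := Rel.equiv _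
  set g := f - avg (Rel {i, j}) f with hg
  have hker : ∀ g', Lop i j g' = 0 → ip g g' = 0 := by
    intro g' hg'
    have h1 : dir2 i j g' = 0 := by
      have := ip_Lop_self i j g'
      rw [hg'] at this
      have h0 : ip (0 : Mat ι γ → ℝ) g' = 0 := by simp [ip]
      rw [h0] at this
      linarith
    have h2 : ∀ M x y, SwOK M i j x y → g' M = g' (sw M i j x y) := by
      intro M x y hok
      unfold dir2 at h1
      have n3 : ∀ M x y, 0 ≤ (if SwOK M i j x y then (g' (sw M i j x y) - g' M) ^ 2 else 0) := by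
        intro M x y; split_ifs
        · positivity
        · exact le_rfl
      have a1 := (Finset.sum_eq_zero_iff_of_nonneg (fun M _ =>
        Finset.sum_nonneg fun x _ => Finset.sum_nonneg fun y _ => n3 M x y)).1 h1 M
          (Finset.mem_univ _)
      have a2 := (Finset.sum_eq_zero_iff_of_nonneg (fun x _ =>
        Finset.sum_nonneg fun y _ => n3 M x y)).1 a1 x (Finset.mem_univ _)
      have a3 := (Finset.sum_eq_zero_iff_of_nonneg (fun y _ => n3 M x y)).1 a2 y
        (Finset.mem_univ _)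
      rw [if_pos hok] at a3
      have := pow_eq_zero_iff (two_ne_zero) |>.1 a3
      linarith
    have h3 : avg (Rel {i, j}) g' = g' := avg_of_inv hr (inv_of_switch_inv hij g' h2)
    rw [hg, ip_sub_left, ip_avg_left hr, h3]
    ring
  have hgap := gap_of_eigen (Lop i j) (Lop_symm i j) 2
    (fun μ e he hL => eigen_two μ e he hL) g hker
  rw [ip_Lop_self] at hgap
  have hdir : dir2 i j g = dir2 i j f := by
    unfold dir2
    refine Finset.sum_congr rfl fun M _ => Finset.sum_congr rfl fun x _ =>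
      Finset.sum_congr rfl fun y _ => ?_
    split_ifs with hok
    · have := avg_congr_class hr f (rel_sw hok)
      simp only [hg, Pi.sub_apply, this]
      ring
    · rfl
  rw [hdir] at hgap
  linarith

end Mat

end P335h14
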