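import Vale.Agent.Lib.P335_helper14.Basic

namespace P335h14

open Finset

set_option linter.unusedSectionVars false

/-! ### Module AvgApi : averaging operators of equivalence relations -/
section AvgApi
variable {X : Type*} [Fintype X] [DecidableEq X]

/-! basic facts on `ip` -/

theorem ip_comm (f g : X → ℝ) : ip f g = ip g f := by
  unfold ip; exact Finset.sum_congr rfl (fun x _ => mul_comm _ _)

theorem ip_add_left (f g h : X → ℝ) : ip (f + g) h = ip f h + ip g h := by
  unfold ip; rw [← Finset.sum_add_distrib]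
  exact Finset.sum_congr rfl (fun x _ => by simp only [Pi.add_apply]; ring)

theorem ip_add_right (f g h : X → ℝ) : ip f (g + h) = ip f g + ip f h := by
  rw [ip_comm, ip_add_left, ip_comm g, ip_comm h]

theorem ip_sub_left (f g h : X → ℝ) : ip (f - g) h = ip f h - ip g h := by
  unfold ip; rw [← Finset.sum_sub_distrib]
  exact Finset.sum_congr rfl (fun x _ => by simp only [Pi.sub_apply]; ring)

theorem ip_sub_right (f g h : X → ℝ) : ip f (g - h) = ip f g - ip f h := by
  rw [ip_comm, ip_sub_left, ip_comm g, ip_comm h]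

theorem ip_smul_left (a : ℝ) (f g : X → ℝ) : ip (a • f) g = a * ip f g := by
  unfold ip; rw [Finset.mul_sum]
  exact Finset.sum_congr rfl (fun x _ => by simp only [Pi.smul_apply, smul_eq_mul]; ring)

theorem ip_smul_right (a : ℝ) (f g : X → ℝ) : ip f (a • g) = a * ip f g := by
  rw [ip_comm, ip_smul_left, ip_comm]

theorem ip_self_nonneg (f : X → ℝ) : 0 ≤ ip f f := by
  unfold ip; exact Finset.sum_nonneg (fun x _ => mul_self_nonneg _)

theorem ip_self_eq_zero {f : X → ℝ} (h : ip f f = 0) : f = 0 := by
  unfold ip at h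
  have h2 := (Finset.sum_eq_zero_iff_of_nonneg (fun x _ => mul_self_nonneg (f x))).1 h
  funext x
  exact mul_self_eq_zero.1 (h2 x (Finset.mem_univ x))

@[simp] theorem ip_zero_left (f : X → ℝ) : ip 0 f = 0 := by
  unfold ip; simp

@[simp] theorem ip_zero_right (f : X → ℝ) : ip f 0 = 0 := by
  unfold ip; simp

theorem ip_sum_left {ι : Type*} (s : Finset ι) (v : ι → X → ℝ) (g : X → ℝ) :
    ip (∑ i ∈ s, v i) g = ∑ i ∈ s, ip (v i) g := by
  unfold ip
  rw [Finset.sum_comm]
  exact Finset.sum_congr rfl (fun x _ => by rw [Finset.sum_apply, Finset.sum_mul])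

theorem ip_sum_right {ι : Type*} (s : Finset ι) (v : ι → X → ℝ) (g : X → ℝ) :
    ip g (∑ i ∈ s, v i) = ∑ i ∈ s, ip g (v i) := by
  rw [ip_comm, ip_sum_left]; exact Finset.sum_congr rfl (fun i _ => ip_comm _ _)

/-- Cauchy-Schwarz -/
theorem ip_mul_self_le (f g : X → ℝ) : ip f g * ip f g ≤ ip f f * ip g g := by
  have h := Finset.sum_mul_sq_le_sq_mul_sq (Finset.univ : Finset X) f g
  unfold ip
  calc (∑ x, f x * g x) * (∑ x, f x * g x) = (∑ x, f x * g x) ^ 2 := by ring
    _ ≤ (∑ x, f x ^ 2) * (∑ x, g x ^ 2) := h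
    _ = (∑ x, f x * f x) * (∑ x, g x * g x) := by simp only [sq]

/-! the classes -/

theorem cls_eq {r : X → X → Prop} [DecidableRel r] (hr : Equivalence r) {x y : X} (h : r x y) :
    univ.filter (fun z => r x z) = univ.filter (fun z => r y z) := by
  ext z
  simp only [mem_filter, mem_univ, true_and]
  exact ⟨fun hz => hr.trans (hr.symm h) hz, fun hz => hr.trans h hz⟩

theorem cls_card_pos {r : X → X → Prop} [DecidableRel r] (hr : Equivalence r) (x : X) :
    (0 : ℝ) < ((univ.filter (fun z => r x z)).card : ℝ) := by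
  have : 0 < (univ.filter (fun z => r x z)).card :=
    Finset.card_pos.2 ⟨x, by simp only [mem_filter, mem_univ, true_and]; exact hr.refl x⟩
  exact_mod_cast this

theorem avg_congr_class {r : X → X → Prop} [DecidableRel r] (hr : Equivalence r) (f : X → ℝ)
    {x y : X} (h : r x y) : avg r f x = avg r f y := by
  unfold avg; rw [cls_eq hr h]

theorem avg_of_inv {r : X → X → Prop} [DecidableRel r] (hr : Equivalence r) {f : X → ℝ}
    (hf : ∀ x y, r x y → f x = f y) : avg r f = f := by
  funext x
  unfold avg
  have h1 : ∑ y ∈ univ.filter (fun y => r x y), f y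
      = ((univ.filter (fun y => r x y)).card : ℝ) * f x := by
    rw [Finset.sum_congr rfl (fun y hy => (hf x y (by simpa using hy)).symm)]
    simp
  rw [h1]
  have := cls_card_pos hr x
  field_simp

theorem inv_of_avg_eq {r : X → X → Prop} [DecidableRel r] (hr : Equivalence r) {f : X → ℝ}
    (hf : avg r f = f) : ∀ x y, r x y → f x = f y := by
  intro x y h
  rw [← hf]; exact avg_congr_class hr f h

theorem avg_idem {r : X → X → Prop} [DecidableRel r] (hr : Equivalence r) (f : X → ℝ) :
    avg r (avg r f) = avg r f :=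
  avg_of_inv hr (fun _ _ h => avg_congr_class hr f h)

theorem avg_add (r : X → X → Prop) [DecidableRel r] (f g : X → ℝ) :
    avg r (f + g) = avg r f + avg r g := by
  funext x
  simp only [avg, Pi.add_apply, Finset.sum_add_distrib, add_div]

theorem avg_sub (r : X → X → Prop) [DecidableRel r] (f g : X → ℝ) :
    avg r (f - g) = avg r f - avg r g := by
  funext x
  simp only [avg, Pi.sub_apply, Finset.sum_sub_distrib, sub_div]

theorem avg_smul (r : X → X → Prop) [DecidableRel r] (a : ℝ) (f : X → ℝ) :
    avg r (a • f) = a • avg r f := by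
  funext x
  simp only [avg, Pi.smul_apply, smul_eq_mul, ← Finset.mul_sum, mul_div_assoc]

/-- `avg r` as a linear map -/
noncomputable def avgL (r : X → X → Prop) [DecidableRel r] : (X → ℝ) →ₗ[ℝ] (X → ℝ) where
  toFun := avg r
  map_add' := avg_add r
  map_smul' := by intro a f; simpa using avg_smul r a f

@[simp] theorem avgL_apply (r : X → X → Prop) [DecidableRel r] (f : X → ℝ) : avgL r f = avg r f := rfl

theorem ip_avg_left {r : X → X → Prop} [DecidableRel r] (hr : Equivalence r) (f g : X → ℝ) :
    ip (avg r f) g = ip f (avg r g) := by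
  unfold ip avg
  have h1 : ∀ x, (∑ y ∈ univ.filter (fun y => r x y), f y)
        / ((univ.filter (fun y => r x y)).card : ℝ) * g x
      = ∑ y, if r x y then f y * g x / ((univ.filter (fun z => r x z)).card : ℝ) else 0 := by
    intro x
    rw [Finset.sum_div, Finset.sum_mul, Finset.sum_filter]
    exact Finset.sum_congr rfl (fun y _ => by split_ifs <;> ring)
  have h2 : ∀ y, f y * ((∑ x ∈ univ.filter (fun x => r y x), g x)
        / ((univ.filter (fun x => r y x)).card : ℝ))
      = ∑ x, if r x y then f y * g x / ((univ.filter (fun z => r x z)).card : ℝ) else 0 := by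
    intro y
    rw [Finset.sum_div, Finset.mul_sum, Finset.sum_filter]
    refine Finset.sum_congr rfl (fun x _ => ?_)
    by_cases h : r x y
    · rw [if_pos h, if_pos (hr.symm h), cls_eq hr h]; ring
    · rw [if_neg h, if_neg (fun h' => h (hr.symm h'))]
  rw [Finset.sum_congr rfl (fun x _ => h1 x), Finset.sum_congr rfl (fun y _ => h2 y),
    Finset.sum_comm]

theorem ip_avg_self {r : X → X → Prop} [DecidableRel r] (hr : Equivalence r) (f : X → ℝ) :
    ip (avg r f) f = ip (avg r f) (avg r f) := by
  rw [ip_avg_left hr (f) (avg r f), avg_idem hr, ip_comm]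

/-- `|avg f x - avg f' x'| ≤ C` from a weighted coupling of the two classes -/
theorem abs_avg_le {r : X → X → Prop} [DecidableRel r] (hr : Equivalence r) (f : X → ℝ) (x : X) (C : ℝ)
    (h : ∀ y, r x y → |f y| ≤ C) : |avg r f x| ≤ C := by
  unfold avg
  have hc := cls_card_pos hr x
  rw [abs_div, abs_of_pos hc, div_le_iff₀ hc]
  calc |∑ y ∈ univ.filter (fun y => r x y), f y|
      ≤ ∑ y ∈ univ.filter (fun y => r x y), |f y| := Finset.abs_sum_le_sum_abs _ _
    _ ≤ ∑ _y ∈ univ.filter (fun y => r x y), C :=
        Finset.sum_le_sum (fun y hy => h y (by simpa using hy))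
    _ = C * ((univ.filter (fun y => r x y)).card : ℝ) := by simp [mul_comm]

theorem avg_avg_of_le {r s : X → X → Prop} [DecidableRel r] [DecidableRel s]
    (hr : Equivalence r) (hs : Equivalence s) (h : ∀ x y, r x y → s x y) (f : X → ℝ) :
    avg s (avg r f) = avg s f ∧ avg r (avg s f) = avg s f := by
  refine ⟨?_, avg_of_inv hr (fun x y hxy => avg_congr_class hs f (h x y hxy))⟩
  funext x
  unfold avg
  congr 1
  -- use the indicator of the `s`-class of `x`
  set g : X → ℝ := fun y => if s x y then 1 else 0 with hg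
  have hginv : avg r g = g := by
    apply avg_of_inv hr
    intro y z hyz
    simp only [hg]
    by_cases hy : s x y
    · rw [if_pos hy, if_pos (hs.trans hy (h y z hyz))]
    · rw [if_neg hy, if_neg (fun hz => hy (hs.trans hz (hs.symm (h y z hyz))))]
  have key := ip_avg_left hr f g
  rw [hginv] at key
  unfold ip at key
  have e1 : ∀ (u : X → ℝ), ∑ y, u y * g y = ∑ y ∈ univ.filter (fun y => s x y), u y := by
    intro u
    rw [Finset.sum_filter]
    exact Finset.sum_congr rfl (fun y _ => by simp only [hg]; split_ifs <;> simp)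
  rw [e1, e1] at key
  exact key

/-- transport of an average along a bijection of classes -/
theorem avg_eq_of_bij {r : X → X → Prop} [DecidableRel r] (τ : X → X) (hτ : Function.Bijective τ)
    (x x' : X) (h : ∀ y, r x y ↔ r x' (τ y)) (g : X → ℝ) :
    avg r g x' = avg r (fun y => g (τ y)) x := by
  unfold avg
  have himg : univ.filter (fun y => r x' y) = (univ.filter (fun y => r x y)).image τ := by
    ext z
    simp only [mem_filter, mem_univ, true_and, mem_image]
    constructor
    · intro hz
      obtain ⟨y, rfl⟩ := hτ.2 z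
      exact ⟨y, (h y).2 hz, rfl⟩
    · rintro ⟨y, hy, rfl⟩
      exact (h y).1 hy
  rw [himg, Finset.sum_image (fun a _ b _ hab => hτ.1 hab),
    Finset.card_image_of_injective _ hτ.1]

/-- commuting projections: `<(1-E)f,(1-E')f> ≥ 0` -/
theorem ip_compl_nonneg_of_comm {r s : X → X → Prop} [DecidableRel r] [DecidableRel s]
    (hr : Equivalence r) (hs : Equivalence s)
    (hc : ∀ f : X → ℝ, avg r (avg s f) = avg s (avg r f)) (f : X → ℝ) :
    0 ≤ ip (f - avg r f) (f - avg s f) := by
  set g := avg r (avg s f) with hg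
  have e1 : ip f g = ip (avg r f) (avg s f) := by rw [hg, ← ip_avg_left hr]
  have e2 : ip (avg r f) g = ip (avg r f) (avg s f) := by
    rw [hg, ← ip_avg_left hr, avg_idem hr]
  have e3 : ip (avg s f) g = ip (avg r f) (avg s f) := by
    rw [hg, hc, ← ip_avg_left hs, avg_idem hs, ip_comm]
  have e4 : ip g g = ip (avg r f) (avg s f) := by
    have : ip g g = ip (avg s f) g := by
      conv_lhs => rw [hg]
      rw [ip_avg_left hr, hg, avg_idem hr]
    rw [this, e3]
  have key : ip (f - avg r f) (f - avg s f)
      = ip (f - avg r f - avg s f + g) (f - avg r f - avg s f + g) := by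
    simp only [ip_sub_left, ip_sub_right, ip_add_left, ip_add_right]
    have c1 := ip_avg_self hr f
    have c2 := ip_avg_self hs f
    have k1 := ip_comm f (avg r f)
    have k2 := ip_comm f (avg s f)
    have k3 := ip_comm (avg s f) (avg r f)
    have k4 := ip_comm g f
    have k5 := ip_comm g (avg r f)
    have k6 := ip_comm g (avg s f)
    rw [k4, k5, k6, e1, e2, e3, e4, k3, k1, k2, ← c1, ← c2]
    ring
  rw [key]
  exact ip_self_nonneg _

end AvgApi


end P335h14
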