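import Mathlib

/-!
P335 (helper14): bipartite KTV.  Basic definitions: averaging operators, 0/1 matrices, fibres, switches.
-/

namespace P335h14

open Finset

section Avg

variable {X : Type*} [Fintype X] [DecidableEq X]

/-- average of `f` over `{y | r x y}` -/
noncomputable def avg (r : X → X → Prop) [DecidableRel r] (f : X → ℝ) (x : X) : ℝ :=
  (∑ y ∈ univ.filter (fun y => r x y), f y) / ((univ.filter (fun y => r x y)).card : ℝ)

/-- inner product on functions -/
def ip (f g : X → ℝ) : ℝ := ∑ x, f x * g x

end Avg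

section Mat

variable {ι γ : Type*} [Fintype ι] [DecidableEq ι] [Fintype γ] [DecidableEq γ]

/-- a 0/1 matrix; row `a` is the finset of columns carrying a 1 -/
abbrev Mat (ι γ : Type*) := ι → Finset γ

/-- indicator -/
def ind (s : Finset γ) (c : γ) : ℕ := if c ∈ s then 1 else 0

/-- `N` is obtained from `M` by changing only rows in `T`, keeping all row sums and column sums -/
def Rel (T : Finset ι) (M N : Mat ι γ) : Prop :=
  (∀ a, a ∉ T → M a = N a) ∧ (∀ a, (M a).card = (N a).card) ∧
    ∀ c, ∑ a ∈ T, ind (M a) c = ∑ a ∈ T, ind (N a) c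

instance (T : Finset ι) : DecidableRel (Rel (γ := γ) T) := fun M N => by
  unfold Rel; infer_instance

/-- the switch on rows `i j`, columns `c c'` -/
def sw (M : Mat ι γ) (i j : ι) (c c' : γ) : Mat ι γ :=
  Function.update (Function.update M i (insert c' ((M i).erase c))) j (insert c ((M j).erase c'))

/-- the switch is available -/
def SwOK (M : Mat ι γ) (i j : ι) (c c' : γ) : Prop :=
  i ≠ j ∧ c ∈ M i ∧ c ∉ M j ∧ c' ∈ M j ∧ c' ∉ M i

instance (M : Mat ι γ) (i j : ι) (c c' : γ) : Decidable (SwOK M i j c c') := by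
  unfold SwOK; infer_instance

/-- Dirichlet form of the switches on the ordered row pair `(i,j)` -/
noncomputable def dir2 (i j : ι) (f : Mat ι γ → ℝ) : ℝ :=
  ∑ M, ∑ c, ∑ c', if SwOK M i j c c' then (f (sw M i j c c') - f M) ^ 2 else 0

/-- total Dirichlet form (every unordered switch pair `{M,M'}` is counted 4 times) -/
noncomputable def dir (f : Mat ι γ → ℝ) : ℝ := ∑ i, ∑ j, dir2 i j f

end Mat

end P335h14
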