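import Vale.Agent.Lib.P335_helper14.Basic

namespace P335h14

open Finset

set_option linter.unusedSectionVars false

/-! ### Module Caputo : the combinatorial part of Caputo's L^2 trick -/
section Caputo
variable {X : Type*} [Fintype X] [DecidableEq X] {ι : Type*} [Fintype ι] [DecidableEq ι]

theorem cap_ip_sum_left {κ : Type*} (s : Finset κ) (f : κ → X → ℝ) (g : X → ℝ) :
    ip (∑ i ∈ s, f i) g = ∑ i ∈ s, ip (f i) g := by
  unfold ip
  simp only [Finset.sum_apply, Finset.sum_mul]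
  exact Finset.sum_comm

theorem cap_ip_comm (f g : X → ℝ) : ip f g = ip g f := by
  unfold ip
  exact Finset.sum_congr rfl (fun x _ => mul_comm _ _)

theorem cap_ip_sum_right {κ : Type*} (s : Finset κ) (f : κ → X → ℝ) (g : X → ℝ) :
    ip g (∑ i ∈ s, f i) = ∑ i ∈ s, ip g (f i) := by
  rw [cap_ip_comm, cap_ip_sum_left]
  exact Finset.sum_congr rfl (fun i _ => cap_ip_comm _ _)

theorem cap_ip_zero_left (g : X → ℝ) : ip 0 g = 0 := by
  unfold ip; simp

theorem cap_ip_zero_right (g : X → ℝ) : ip g 0 = 0 := by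
  unfold ip; simp

theorem cap_e1 (F : ι → ι → ℝ) (i : ι) :
    ∑ k, ∑ l, (if k = i then F k l else 0) = ∑ l, F i l := by
  rw [Finset.sum_eq_single i]
  · simp
  · intro b _ hb; simp [hb]
  · simp

theorem cap_e2 (F : ι → ι → ℝ) (i : ι) :
    ∑ k, ∑ l, (if l = i then F k l else 0) = ∑ k, F k i := by
  apply Finset.sum_congr rfl
  intro k _
  simp

theorem cap_e3 (F : ι → ι → ℝ) (i j : ι) :
    ∑ k, ∑ l, (if k = i then (if l = j then F k l else 0) else 0) = F i j := by
  rw [cap_e1 (fun k l => if l = j then F k l else 0) i]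
  simp

/-- Caputo's expansion, with the disjoint-pairs hypothesis only in summed form -/
theorem caputo_comb_sum (v : ι → ι → X → ℝ) (hsymm : ∀ i j, v i j = v j i) (hdiag : ∀ i, v i i = 0)
    (hsum : 0 ≤ ∑ i, ∑ j, ∑ k, ∑ l,
      if i ≠ j ∧ k ≠ l ∧ i ≠ k ∧ i ≠ l ∧ j ≠ k ∧ j ≠ l then ip (v i j) (v k l) else 0)
    (htri : ∀ i j k, i ≠ j → i ≠ k → j ≠ k →
      0 ≤ ip (v i j) (v i k) + ip (v j i) (v j k) + ip (v k i) (v k j)) :
    2 * ∑ i, ∑ j, ip (v i j) (v i j) ≤ ip (∑ i, ∑ j, v i j) (∑ i, ∑ j, v i j) := by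
  classical
  set a : ι → ι → ι → ι → ℝ := fun i j k l => ip (v i j) (v k l) with ha
  have hexp : ip (∑ i, ∑ j, v i j) (∑ i, ∑ j, v i j) = ∑ i, ∑ j, ∑ k, ∑ l, a i j k l := by
    rw [cap_ip_sum_left]
    apply Finset.sum_congr rfl; intro i _
    rw [cap_ip_sum_left]
    apply Finset.sum_congr rfl; intro j _
    rw [cap_ip_sum_right]
    apply Finset.sum_congr rfl; intro k _
    rw [cap_ip_sum_right]
  have a0l : ∀ i k l, a i i k l = 0 := by
    intro i k l; simp only [ha, hdiag, cap_ip_zero_left]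
  have a0r : ∀ i j k, a i j k k = 0 := by
    intro i j k; simp only [ha, hdiag, cap_ip_zero_right]
  have as1 : ∀ i j k l, a i j k l = a j i k l := by
    intro i j k l; simp only [ha]; rw [hsymm i j]
  have as2 : ∀ i j k l, a i j k l = a i j l k := by
    intro i j k l; simp only [ha]; rw [hsymm k l]
  set D : ι → ι → ι → ι → ℝ := fun i j k l =>
    if i ≠ j ∧ k ≠ l ∧ i ≠ k ∧ i ≠ l ∧ j ≠ k ∧ j ≠ l then a i j k l else 0 with hDdef
  have hpt : ∀ i j k l, a i j k l = D i j k l + (if k = i then a i j k l else 0)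
      + (if l = i then a i j k l else 0) + (if k = j then a i j k l else 0)
      + (if l = j then a i j k l else 0) - (if k = i then (if l = j then a i j k l else 0) else 0)
      - (if k = j then (if l = i then a i j k l else 0) else 0) := by
    intro i j k l
    simp only [hDdef]
    by_cases hij : i = j
    · subst hij; simp [a0l]
    by_cases hkl : k = l
    · subst hkl; simp [a0r]
    have hij' : ¬ j = i := fun e => hij e.symm
    have hkl' : ¬ l = k := fun e => hkl e.symm
    by_cases h1 : k = i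
    · subst h1
      by_cases h4 : l = j
      · subst h4
        simp [hij, hij']
      · simp [hij, hij', hkl, hkl', h4]
    by_cases h2 : l = i
    · subst h2
      by_cases h3 : k = j
      · subst h3
        simp [hij, hij']
      · simp [hij, hij', hkl, hkl', h3]
    by_cases h3 : k = j
    · subst h3
      simp [h1, h2, hkl, hkl']
    by_cases h4 : l = j
    · subst h4
      simp [h1, h2, h3]
    · have h1' : ¬ i = k := fun e => h1 e.symm
      have h2' : ¬ i = l := fun e => h2 e.symm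
      have h3' : ¬ j = k := fun e => h3 e.symm
      have h4' : ¬ j = l := fun e => h4 e.symm
      simp [hij, hkl, h1, h2, h3, h4, h1', h2', h3', h4']
  set T3 : ℝ := ∑ i, ∑ j, ∑ l, a i j i l with hT3
  set N : ℝ := ∑ i, ∑ j, a i j i j with hN
  have hinner : ∀ i j, ∑ k, ∑ l, a i j k l = ∑ k, ∑ l, D i j k l + ∑ l, a i j i l
      + ∑ l, a i j i l + ∑ l, a j i j l + ∑ l, a j i j l - a i j i j - a i j i j := by
    intro i j
    have e1 := cap_e1 (fun k l => a i j k l) i
    have e2 := cap_e2 (fun k l => a i j k l) i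
    have e3 := cap_e1 (fun k l => a i j k l) j
    have e4 := cap_e2 (fun k l => a i j k l) j
    have e5 := cap_e3 (fun k l => a i j k l) i j
    have e6 := cap_e3 (fun k l => a i j k l) j i
    have e2' : ∑ k, a i j k i = ∑ l, a i j i l := Finset.sum_congr rfl (fun k _ => as2 i j k i)
    have e3' : ∑ l, a i j j l = ∑ l, a j i j l := Finset.sum_congr rfl (fun k _ => as1 i j j k)
    have e4' : ∑ k, a i j k j = ∑ l, a j i j l :=
      Finset.sum_congr rfl (fun k _ => (as2 i j k j).trans (as1 i j j k))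
    have e6' : a i j j i = a i j i j := as2 i j j i
    calc ∑ k, ∑ l, a i j k l
        = ∑ k, ∑ l, (D i j k l + (if k = i then a i j k l else 0)
      + (if l = i then a i j k l else 0) + (if k = j then a i j k l else 0)
      + (if l = j then a i j k l else 0) - (if k = i then (if l = j then a i j k l else 0) else 0)
      - (if k = j then (if l = i then a i j k l else 0) else 0)) :=
          Finset.sum_congr rfl (fun k _ => Finset.sum_congr rfl (fun l _ => hpt i j k l))
      _ = _ := by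
          simp only [Finset.sum_add_distrib, Finset.sum_sub_distrib]
          rw [e1, e2, e3, e4, e5, e6, e2', e3', e4', e6']
  have hswap : ∑ i, ∑ j, ∑ l, a j i j l = T3 := by
    rw [Finset.sum_comm]
  have htotal : ∑ i, ∑ j, ∑ k, ∑ l, a i j k l
      = ∑ i, ∑ j, ∑ k, ∑ l, D i j k l + 4 * T3 - 2 * N := by
    calc ∑ i, ∑ j, ∑ k, ∑ l, a i j k l
        = ∑ i, ∑ j, (∑ k, ∑ l, D i j k l + ∑ l, a i j i l
      + ∑ l, a i j i l + ∑ l, a j i j l + ∑ l, a j i j l - a i j i j - a i j i j) :=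
          Finset.sum_congr rfl (fun i _ => Finset.sum_congr rfl (fun j _ => hinner i j))
      _ = _ := by
          simp only [Finset.sum_add_distrib, Finset.sum_sub_distrib]
          rw [hswap]
          ring
  have hDsum : 0 ≤ ∑ i, ∑ j, ∑ k, ∑ l, D i j k l := hsum
  -- the triple part
  set τ : ι → ι → ι → ℝ := fun i j l => if i ≠ j ∧ i ≠ l ∧ j ≠ l then a i j i l else 0 with hτ
  have hpt3 : ∀ i j l, a i j i l = τ i j l + (if l = j then a i j i l else 0) := by
    intro i j l
    simp only [hτ]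
    by_cases hij : i = j
    · subst hij; simp [a0l]
    by_cases hil : i = l
    · subst hil; simp [a0r]
    by_cases hjl : l = j
    · subst hjl; simp
    · have : ¬ j = l := fun e => hjl e.symm
      simp [hij, hil, hjl, this]
  have hT3N : T3 = ∑ i, ∑ j, ∑ l, τ i j l + N := by
    calc T3 = ∑ i, ∑ j, ∑ l, (τ i j l + (if l = j then a i j i l else 0)) :=
          Finset.sum_congr rfl (fun i _ => Finset.sum_congr rfl (fun j _ =>
            Finset.sum_congr rfl (fun l _ => hpt3 i j l)))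
      _ = _ := by
          simp only [Finset.sum_add_distrib, Finset.sum_ite_eq', Finset.mem_univ, if_true, hN]
  have hτ3 : 0 ≤ ∑ i, ∑ j, ∑ l, (τ i j l + τ j i l + τ l i j) := by
    refine Finset.sum_nonneg (fun i _ => Finset.sum_nonneg (fun j _ => Finset.sum_nonneg
      (fun l _ => ?_)))
    simp only [hτ]
    by_cases h : i ≠ j ∧ i ≠ l ∧ j ≠ l
    · have h2 : j ≠ i ∧ j ≠ l ∧ i ≠ l := ⟨h.1.symm, h.2.2, h.2.1⟩
      have h3 : l ≠ i ∧ l ≠ j ∧ i ≠ j := ⟨h.2.1.symm, h.2.2.symm, h.1⟩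
      rw [if_pos h, if_pos h2, if_pos h3]
      exact htri i j l h.1 h.2.1 h.2.2
    · have h2 : ¬ (j ≠ i ∧ j ≠ l ∧ i ≠ l) := fun e => h ⟨e.1.symm, e.2.2, e.2.1⟩
      have h3 : ¬ (l ≠ i ∧ l ≠ j ∧ i ≠ j) := fun e => h ⟨e.2.2, e.1.symm, e.2.1.symm⟩
      rw [if_neg h, if_neg h2, if_neg h3]
      simp
  have hr1 : ∑ i, ∑ j, ∑ l, τ j i l = ∑ i, ∑ j, ∑ l, τ i j l := by
    rw [Finset.sum_comm]
  have hr2 : ∑ i, ∑ j, ∑ l, τ l i j = ∑ i, ∑ j, ∑ l, τ i j l := by
    have : ∀ i, ∑ j, ∑ l, τ l i j = ∑ l, ∑ j, τ l i j := fun i => Finset.sum_comm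
    simp only [this]
    rw [Finset.sum_comm]
  have hτ0 : 0 ≤ ∑ i, ∑ j, ∑ l, τ i j l := by
    simp only [Finset.sum_add_distrib] at hτ3
    rw [hr1, hr2] at hτ3
    linarith
  rw [hexp, htotal]
  change 2 * N ≤ _
  linarith

theorem caputo_comb (v : ι → ι → X → ℝ) (hsymm : ∀ i j, v i j = v j i) (hdiag : ∀ i, v i i = 0)
    (hdisj : ∀ i j k l, i ≠ j → k ≠ l → i ≠ k → i ≠ l → j ≠ k → j ≠ l → 0 ≤ ip (v i j) (v k l))
    (htri : ∀ i j k, i ≠ j → i ≠ k → j ≠ k →
      0 ≤ ip (v i j) (v i k) + ip (v j i) (v j k) + ip (v k i) (v k j)) :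
    2 * ∑ i, ∑ j, ip (v i j) (v i j) ≤ ip (∑ i, ∑ j, v i j) (∑ i, ∑ j, v i j) := by
  refine caputo_comb_sum v hsymm hdiag ?_ htri
  refine Finset.sum_nonneg (fun i _ => Finset.sum_nonneg (fun j _ => Finset.sum_nonneg
      (fun k _ => Finset.sum_nonneg (fun l _ => ?_))))
  split_ifs with h
  · exact hdisj i j k l h.1 h.2.1 h.2.2.1 h.2.2.2.1 h.2.2.2.2.1 h.2.2.2.2.2
  · exact le_refl _

end Caputo


end P335h14
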