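import Vale.Agent.Lib.P335_helper14.AvgApi
import Vale.Agent.Lib.P335_helper14.RelApi

namespace P335h14

open Finset

set_option linter.unusedSectionVars false

section Mat
variable {ι γ : Type*} [Fintype ι] [DecidableEq ι] [Fintype γ] [DecidableEq γ]

/-! ### Module Comm : disjoint blocks commute -/

/-- rows in `S` from `N`, all the other rows from `P` -/
def mrg (S : Finset ι) (N P : Mat ι γ) : Mat ι γ := fun a => if a ∈ S then N a else P a

theorem mrg_rel {S T : Finset ι} (h : Disjoint S T) {M N P : Mat ι γ} (hMN : Rel S M N)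
    (hNP : Rel T N P) : Rel T M (mrg S M P) := by
  refine ⟨fun a ha => ?_, fun a => ?_, fun c => ?_⟩
  · unfold mrg
    by_cases haS : a ∈ S
    · rw [if_pos haS]
    · rw [if_neg haS, ← hNP.1 a ha, hMN.1 a haS]
  · unfold mrg
    by_cases haS : a ∈ S
    · rw [if_pos haS]
    · rw [if_neg haS, ← hNP.2.1 a, hMN.2.1 a]
  · have e1 : ∑ a ∈ T, ind (M a) c = ∑ a ∈ T, ind (N a) c := by
      apply Finset.sum_congr rfl
      intro a ha
      rw [hMN.1 a (Finset.disjoint_right.mp h ha)]
    have e2 : ∑ a ∈ T, ind (mrg S M P a) c = ∑ a ∈ T, ind (P a) c := by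
      apply Finset.sum_congr rfl
      intro a ha
      unfold mrg
      rw [if_neg (Finset.disjoint_right.mp h ha)]
    rw [e1, e2, hNP.2.2 c]

theorem mrg_mrg {S T : Finset ι} (h : Disjoint S T) {M N P : Mat ι γ}
    (hNP : Rel T N P) : mrg S N (mrg S M P) = P := by
  funext a
  unfold mrg
  by_cases haS : a ∈ S
  · rw [if_pos haS]
    exact hNP.1 a (Finset.disjoint_left.mp h haS)
  · rw [if_neg haS, if_neg haS]

theorem sum_cls_mrg {S T : Finset ι} (h : Disjoint S T) {M N : Mat ι γ} (hMN : Rel S M N)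
    (f : Mat ι γ → ℝ) :
    ∑ P ∈ univ.filter (fun P => Rel T N P), f P
      = ∑ P ∈ univ.filter (fun P => Rel T M P), f (mrg S N P) := by
  have hNM : Rel S N M := (Rel.equiv S).symm hMN
  refine Finset.sum_bij' (fun P _ => mrg S M P) (fun P _ => mrg S N P) ?_ ?_ ?_ ?_ ?_
  · intro P hP
    simp only [Finset.mem_filter, Finset.mem_univ, true_and] at hP ⊢
    exact mrg_rel h hMN hP
  · intro P hP
    simp only [Finset.mem_filter, Finset.mem_univ, true_and] at hP ⊢
    exact mrg_rel h hNM hP
  · intro P hP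
    simp only [Finset.mem_filter, Finset.mem_univ, true_and] at hP
    exact mrg_mrg h hP
  · intro P hP
    simp only [Finset.mem_filter, Finset.mem_univ, true_and] at hP
    exact mrg_mrg h hP
  · intro P hP
    simp only [Finset.mem_filter, Finset.mem_univ, true_and] at hP
    rw [mrg_mrg h hP]

theorem card_cls_mrg {S T : Finset ι} (h : Disjoint S T) {M N : Mat ι γ} (hMN : Rel S M N) :
    ((univ.filter (fun P => Rel T N P)).card : ℝ) = ((univ.filter (fun P => Rel T M P)).card : ℝ) := by
  have := sum_cls_mrg h hMN (fun _ => (1 : ℝ))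
  simpa using this

theorem mrg_swap {S T : Finset ι} (h : Disjoint S T) {M N P : Mat ι γ} (hMN : Rel S M N)
    (hMP : Rel T M P) : mrg S N P = mrg T P N := by
  funext a
  unfold mrg
  by_cases haS : a ∈ S
  · rw [if_pos haS, if_neg (Finset.disjoint_left.mp h haS)]
  · rw [if_neg haS]
    by_cases haT : a ∈ T
    · rw [if_pos haT]
    · rw [if_neg haT, ← hMP.1 a haT, hMN.1 a haS]

theorem avg_avg_mrg {S T : Finset ι} (h : Disjoint S T) (f : Mat ι γ → ℝ) (M : Mat ι γ) :
    avg (Rel S) (avg (Rel T) f) M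
      = (∑ N ∈ univ.filter (fun N => Rel S M N), ∑ P ∈ univ.filter (fun P => Rel T M P),
          f (mrg S N P)) / ((univ.filter (fun P => Rel T M P)).card : ℝ)
            / ((univ.filter (fun N => Rel S M N)).card : ℝ) := by
  unfold avg
  congr 1
  rw [Finset.sum_div]
  apply Finset.sum_congr rfl
  intro N hN
  simp only [Finset.mem_filter, Finset.mem_univ, true_and] at hN
  rw [sum_cls_mrg h hN, card_cls_mrg h hN]

theorem avg_comm_of_disjoint {S T : Finset ι} (h : Disjoint S T) (f : Mat ι γ → ℝ) :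
    avg (Rel S) (avg (Rel T) f) = avg (Rel T) (avg (Rel S) f) := by
  funext M
  rw [avg_avg_mrg h, avg_avg_mrg h.symm, Finset.sum_comm, div_right_comm]
  congr 2
  apply Finset.sum_congr rfl
  intro P hP
  apply Finset.sum_congr rfl
  intro N hN
  simp only [Finset.mem_filter, Finset.mem_univ, true_and] at hN hP
  rw [mrg_swap h hN hP]

end Mat

end P335h14
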