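import Vale.Agent.Lib.P335_helper14.AvgApi
import Vale.Agent.Lib.P335_helper14.RelApi
import Vale.Agent.Lib.P335_helper14.Conn

set_option linter.unusedSectionVars false

namespace P335h14

open Finset

namespace ThreeRow

/-! ### abstract counting lemma (biregular coupling) -/
section Couple
variable {X E : Type*}

theorem sum_edges (F G : Finset X) (S1 S2 : X → Finset E) (φ ψ : X → E → X)
    (hφ : ∀ x ∈ F, ∀ e ∈ S1 x, φ x e ∈ G ∧ e ∈ S2 (φ x e) ∧ ψ (φ x e) e = x)
    (hψ : ∀ y ∈ G, ∀ e ∈ S2 y, ψ y e ∈ F ∧ e ∈ S1 (ψ y e) ∧ φ (ψ y e) e = y)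
    (H : X → ℝ) :
    ∑ y ∈ G, ∑ _e ∈ S2 y, H y = ∑ x ∈ F, ∑ e ∈ S1 x, H (φ x e) := by
  rw [Finset.sum_sigma', Finset.sum_sigma']
  refine Finset.sum_bij' (fun a _ => ⟨ψ a.1 a.2, a.2⟩) (fun a _ => ⟨φ a.1 a.2, a.2⟩) ?_ ?_ ?_ ?_ ?_
  · rintro ⟨y, e⟩ h
    simp only [Finset.mem_sigma] at h ⊢
    exact ⟨(hψ y h.1 e h.2).1, (hψ y h.1 e h.2).2.1⟩
  · rintro ⟨x, e⟩ h
    simp only [Finset.mem_sigma] at h ⊢
    exact ⟨(hφ x h.1 e h.2).1, (hφ x h.1 e h.2).2.1⟩
  · rintro ⟨y, e⟩ h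
    simp only [Finset.mem_sigma] at h
    simp only [(hψ y h.1 e h.2).2.2]
  · rintro ⟨x, e⟩ h
    simp only [Finset.mem_sigma] at h
    simp only [(hφ x h.1 e h.2).2.2]
  · rintro ⟨y, e⟩ h
    simp only [Finset.mem_sigma] at h
    simp only [(hψ y h.1 e h.2).2.2]

theorem edge_couple (F G : Finset X) (S1 S2 : X → Finset E) (φ ψ : X → E → X) (d1 d2 : ℕ)
    (h1 : ∀ x ∈ F, (S1 x).card = d1) (h2 : ∀ y ∈ G, (S2 y).card = d2) (hd2 : 0 < d2)
    (hφ : ∀ x ∈ F, ∀ e ∈ S1 x, φ x e ∈ G ∧ e ∈ S2 (φ x e) ∧ ψ (φ x e) e = x)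
    (hψ : ∀ y ∈ G, ∀ e ∈ S2 y, ψ y e ∈ F ∧ e ∈ S1 (ψ y e) ∧ φ (ψ y e) e = y)
    (g h : X → ℝ) (C : ℝ) (hC : ∀ x ∈ F, ∀ e ∈ S1 x, |h (φ x e) - g x| ≤ C)
    (hF : F.Nonempty) :
    |∑ y ∈ G, (h y - (∑ x ∈ F, g x) / (F.card : ℝ))| ≤ C * (G.card : ℝ) := by
  set m : ℝ := (∑ x ∈ F, g x) / (F.card : ℝ) with hm
  have hFc : (0 : ℝ) < (F.card : ℝ) := by exact_mod_cast hF.card_pos
  have hd2' : (0 : ℝ) < (d2 : ℝ) := by exact_mod_cast hd2
  -- counting edges
  have hcount : (d2 : ℝ) * (G.card : ℝ) = (d1 : ℝ) * (F.card : ℝ) := by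
    have := sum_edges F G S1 S2 φ ψ hφ hψ (fun _ => (1 : ℝ))
    simp only [Finset.sum_const, nsmul_eq_mul, mul_one] at this
    have a1 : ∑ y ∈ G, ((S2 y).card : ℝ) = (d2 : ℝ) * (G.card : ℝ) := by
      rw [Finset.sum_congr rfl (fun y hy => by rw [h2 y hy] : ∀ y ∈ G, ((S2 y).card : ℝ) = (d2 : ℝ))]
      rw [Finset.sum_const, nsmul_eq_mul]; ring
    have a2 : ∑ x ∈ F, ((S1 x).card : ℝ) = (d1 : ℝ) * (F.card : ℝ) := by
      rw [Finset.sum_congr rfl (fun x hx => by rw [h1 x hx] : ∀ x ∈ F, ((S1 x).card : ℝ) = (d1 : ℝ))]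
      rw [Finset.sum_const, nsmul_eq_mul]; ring
    rw [← a1, ← a2]; exact this
  have hkey : (d2 : ℝ) * ∑ y ∈ G, (h y - m) = ∑ x ∈ F, ∑ e ∈ S1 x, (h (φ x e) - g x) := by
    have := sum_edges F G S1 S2 φ ψ hφ hψ (fun y => h y - m)
    have e1 : ∑ y ∈ G, ∑ _e ∈ S2 y, (h y - m) = (d2 : ℝ) * ∑ y ∈ G, (h y - m) := by
      rw [Finset.mul_sum]
      refine Finset.sum_congr rfl (fun y hy => ?_)
      rw [Finset.sum_const, h2 y hy, nsmul_eq_mul]
    rw [← e1, this]
    have e2 : ∑ x ∈ F, ∑ _e ∈ S1 x, (g x - m) = 0 := by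
      have : ∀ x ∈ F, ∑ _e ∈ S1 x, (g x - m) = (d1 : ℝ) * (g x - m) := by
        intro x hx
        rw [Finset.sum_const, h1 x hx, nsmul_eq_mul]
      rw [Finset.sum_congr rfl this, ← Finset.mul_sum, Finset.sum_sub_distrib, Finset.sum_const,
        nsmul_eq_mul, hm]
      field_simp
      ring
    have e3 : ∑ x ∈ F, ∑ e ∈ S1 x, (h (φ x e) - m)
        = ∑ x ∈ F, ∑ e ∈ S1 x, (h (φ x e) - g x) + ∑ x ∈ F, ∑ _e ∈ S1 x, (g x - m) := by
      rw [← Finset.sum_add_distrib]
      refine Finset.sum_congr rfl (fun x _ => ?_)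
      rw [← Finset.sum_add_distrib]
      refine Finset.sum_congr rfl (fun e _ => ?_)
      ring
    rw [e3, e2, add_zero]
  have hbound : |∑ x ∈ F, ∑ e ∈ S1 x, (h (φ x e) - g x)| ≤ C * ((d1 : ℝ) * (F.card : ℝ)) := by
    calc |∑ x ∈ F, ∑ e ∈ S1 x, (h (φ x e) - g x)|
        ≤ ∑ x ∈ F, |∑ e ∈ S1 x, (h (φ x e) - g x)| := Finset.abs_sum_le_sum_abs _ _
      _ ≤ ∑ x ∈ F, ∑ e ∈ S1 x, |h (φ x e) - g x| :=
          Finset.sum_le_sum (fun x _ => Finset.abs_sum_le_sum_abs _ _)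
      _ ≤ ∑ x ∈ F, ∑ _e ∈ S1 x, C :=
          Finset.sum_le_sum (fun x hx => Finset.sum_le_sum (fun e he => hC x hx e he))
      _ = C * ((d1 : ℝ) * (F.card : ℝ)) := by
          rw [Finset.sum_congr rfl (fun x hx => by rw [Finset.sum_const, h1 x hx, nsmul_eq_mul])]
          rw [Finset.sum_const, nsmul_eq_mul]
          ring
  rw [← hkey, ← hcount, abs_mul, abs_of_pos hd2'] at hbound
  have : (d2 : ℝ) * |∑ y ∈ G, (h y - m)| ≤ (d2 : ℝ) * (C * (G.card : ℝ)) := by linarith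
  exact le_of_mul_le_mul_left this hd2'

end Couple

/-! ### rows, column swaps, exchanges -/
section Rows
variable {γ : Type*} [DecidableEq γ]

/-- swap the two columns `c c'` in a row -/
def swF (c c' : γ) (s : Finset γ) : Finset γ := s.map (Equiv.swap c c').toEmbedding

theorem mem_swF {c c' y : γ} {s : Finset γ} : y ∈ swF c c' s ↔ Equiv.swap c c' y ∈ s := by
  unfold swF
  rw [Finset.mem_map_equiv]
  simp

theorem card_swF (c c' : γ) (s : Finset γ) : (swF c c' s).card = s.card := Finset.card_map _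

theorem ind_swF (c c' y : γ) (s : Finset γ) : ind (swF c c' s) y = ind s (Equiv.swap c c' y) := by
  unfold ind
  simp only [mem_swF]

theorem swF_swF (c c' : γ) (s : Finset γ) : swF c c' (swF c c' s) = s := by
  ext y
  simp [mem_swF]

theorem swF_of_iff {c c' : γ} {s : Finset γ} (h : c ∈ s ↔ c' ∈ s) : swF c c' s = s := by
  ext y
  rw [mem_swF]
  by_cases h1 : y = c
  · subst h1; rw [Equiv.swap_apply_left]; exact h.symm
  · by_cases h2 : y = c'
    · subst h2; rw [Equiv.swap_apply_right]; exact h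
    · rw [Equiv.swap_apply_of_ne_of_ne h1 h2]

theorem swF_exch {c c' : γ} {s : Finset γ} (hc : c ∈ s) (hc' : c' ∉ s) :
    swF c c' s = insert c' (s.erase c) := by
  have hne : c ≠ c' := fun h => hc' (h ▸ hc)
  ext y
  rw [mem_swF, Finset.mem_insert, Finset.mem_erase]
  by_cases h1 : y = c
  · subst h1; rw [Equiv.swap_apply_left]
    constructor
    · intro h; exact absurd h hc'
    · rintro (h | h)
      · exact absurd h hne
      · exact absurd rfl h.1
  · by_cases h2 : y = c'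
    · subst h2; rw [Equiv.swap_apply_right]
      exact ⟨fun _ => Or.inl rfl, fun _ => hc⟩
    · rw [Equiv.swap_apply_of_ne_of_ne h1 h2]
      exact ⟨fun h => Or.inr ⟨h1, h⟩, fun h => h.elim (fun h => absurd h h2) (fun h => h.2)⟩

theorem swF_comm (c c' : γ) (s : Finset γ) : swF c c' s = swF c' c s := by
  unfold swF
  rw [Equiv.swap_comm]

theorem insert_erase_back {c c' : γ} {s : Finset γ} (hc : c ∈ s) (hc' : c' ∉ s) :
    insert c ((insert c' (s.erase c)).erase c') = s := by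
  have h1 : c' ∉ s.erase c := fun h => hc' (Finset.mem_of_mem_erase h)
  rw [Finset.erase_insert h1, Finset.insert_erase hc]

theorem ind_le_one (s : Finset γ) (y : γ) : ind s y ≤ 1 := by
  unfold ind; split_ifs <;> omega

theorem ind_mem {s : Finset γ} {y : γ} (h : y ∈ s) : ind s y = 1 := by
  unfold ind; rw [if_pos h]

theorem ind_not_mem {s : Finset γ} {y : γ} (h : y ∉ s) : ind s y = 0 := by
  unfold ind; rw [if_neg h]

theorem mem_of_ind {s : Finset γ} {y : γ} (h : ind s y = 1) : y ∈ s := by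
  by_contra h'
  rw [ind_not_mem h'] at h
  omega

theorem not_mem_of_ind {s : Finset γ} {y : γ} (h : ind s y = 0) : y ∉ s := by
  intro h'
  rw [ind_mem h'] at h
  omega

end Rows

section Mat
variable {ι γ : Type*} [Fintype ι] [DecidableEq ι] [Fintype γ] [DecidableEq γ]

theorem sw_fst {M : Mat ι γ} {i j : ι} (hij : i ≠ j) (c c' : γ) :
    sw M i j c c' i = insert c' ((M i).erase c) := by
  unfold sw
  rw [Function.update_of_ne hij, Function.update_self]

theorem sw_snd (M : Mat ι γ) (i j : ι) (c c' : γ) :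
    sw M i j c c' j = insert c ((M j).erase c') := by
  unfold sw
  rw [Function.update_self]

theorem sw_other (M : Mat ι γ) {i j x : ι} (hi : x ≠ i) (hj : x ≠ j) (c c' : γ) :
    sw M i j c c' x = M x := by
  unfold sw
  rw [Function.update_of_ne hj, Function.update_of_ne hi]

theorem rel_refl (T : Finset ι) (M : Mat ι γ) : Rel T M M := (Rel.equiv T).refl M
theorem rel_symm {T : Finset ι} {M N : Mat ι γ} (h : Rel T M N) : Rel T N M := (Rel.equiv T).symm h
theorem rel_trans {T : Finset ι} {M N K : Mat ι γ} (h : Rel T M N) (h' : Rel T N K) : Rel T M K :=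
  (Rel.equiv T).trans h h'

/-- column sums over the rows of `T` -/
def cs (T : Finset ι) (M : Mat ι γ) (y : γ) : ℕ := ∑ a ∈ T, ind (M a) y

theorem cs_rel {T : Finset ι} {M N : Mat ι γ} (h : Rel T M N) (y : γ) : cs T M y = cs T N y := h.2.2 y

theorem cs3 {p q r : ι} (hpq : p ≠ q) (hpr : p ≠ r) (hqr : q ≠ r) (M : Mat ι γ) (y : γ) :
    cs {p, q, r} M y = ind (M p) y + ind (M q) y + ind (M r) y := by
  unfold cs
  rw [Finset.sum_insert (by simp [hpq, hpr]), Finset.sum_pair hqr, add_assoc]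

theorem rel_erase {T : Finset ι} {x : ι} (hx : x ∈ T) {A B : Mat ι γ} (h : Rel T A B)
    (hAB : A x = B x) : Rel (T.erase x) A B := by
  refine ⟨fun a ha => ?_, h.2.1, fun y => ?_⟩
  · by_cases hax : a = x
    · subst hax; exact hAB
    · exact h.1 a (fun haT => ha (Finset.mem_erase.2 ⟨hax, haT⟩))
  · have h1 := Finset.add_sum_erase T (fun a => ind (A a) y) hx
    have h2 := Finset.add_sum_erase T (fun a => ind (B a) y) hx
    have h3 := h.2.2 y
    rw [hAB] at h1
    omega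

theorem erase1 {p q r : ι} (hpq : p ≠ q) (hpr : p ≠ r) : ({p, q, r} : Finset ι).erase p = {q, r} := by
  ext a
  simp only [Finset.mem_erase, Finset.mem_insert, Finset.mem_singleton]
  constructor
  · rintro ⟨h, h1 | h1 | h1⟩
    · exact absurd h1 h
    · exact Or.inl h1
    · exact Or.inr h1
  · rintro (h | h)
    · exact ⟨h ▸ hpq.symm, Or.inr (Or.inl h)⟩
    · exact ⟨h ▸ hpr.symm, Or.inr (Or.inr h)⟩

theorem erase2 {p q r : ι} (hpq : p ≠ q) (hqr : q ≠ r) : ({p, q, r} : Finset ι).erase q = {p, r} := by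
  ext a
  simp only [Finset.mem_erase, Finset.mem_insert, Finset.mem_singleton]
  constructor
  · rintro ⟨h, h1 | h1 | h1⟩
    · exact Or.inl h1
    · exact absurd h1 h
    · exact Or.inr h1
  · rintro (h | h)
    · exact ⟨h ▸ hpq, Or.inl h⟩
    · exact ⟨h ▸ hqr.symm, Or.inr (Or.inr h)⟩

theorem erase3 {p q r : ι} (hpr : p ≠ r) (hqr : q ≠ r) : ({p, q, r} : Finset ι).erase r = {p, q} := by
  ext a
  simp only [Finset.mem_erase, Finset.mem_insert, Finset.mem_singleton]
  constructor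
  · rintro ⟨h, h1 | h1 | h1⟩
    · exact Or.inl h1
    · exact Or.inr h1
    · exact absurd h1 h
  · rintro (h | h)
    · exact ⟨h ▸ hpr, Or.inl h⟩
    · exact ⟨h ▸ hqr, Or.inr (Or.inl h)⟩

theorem rel_qr {p q r : ι} (hpq : p ≠ q) (hpr : p ≠ r) {A B : Mat ι γ} (h : Rel {p, q, r} A B)
    (hAB : A p = B p) : Rel {q, r} A B := by
  have := rel_erase (x := p) (by simp) h hAB
  rwa [erase1 hpq hpr] at this

theorem rel_pr {p q r : ι} (hpq : p ≠ q) (hqr : q ≠ r) {A B : Mat ι γ} (h : Rel {p, q, r} A B)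
    (hAB : A q = B q) : Rel {p, r} A B := by
  have := rel_erase (x := q) (by simp) h hAB
  rwa [erase2 hpq hqr] at this

theorem rel_pq {p q r : ι} (hpr : p ≠ r) (hqr : q ≠ r) {A B : Mat ι γ} (h : Rel {p, q, r} A B)
    (hAB : A r = B r) : Rel {p, q} A B := by
  have := rel_erase (x := r) (by simp) h hAB
  rwa [erase3 hpr hqr] at this

theorem mono_qr {p q r : ι} {A B : Mat ι γ} (h : Rel {q, r} A B) : Rel {p, q, r} A B :=
  Rel.mono (by intro a; simp only [Finset.mem_insert, Finset.mem_singleton]; tauto) h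

theorem mono_pr {p q r : ι} {A B : Mat ι γ} (h : Rel {p, r} A B) : Rel {p, q, r} A B :=
  Rel.mono (by intro a; simp only [Finset.mem_insert, Finset.mem_singleton]; tauto) h

theorem mono_pq {p q r : ι} {A B : Mat ι γ} (h : Rel {p, q} A B) : Rel {p, q, r} A B :=
  Rel.mono (by intro a; simp only [Finset.mem_insert, Finset.mem_singleton]; tauto) h

/-- row `x` of `M'` is obtained from row `x` of `M` by the exchange `c → c'`, inside one `T`-fibre -/
def Ex (T : Finset ι) (x : ι) (c c' : γ) (M M' : Mat ι γ) : Prop :=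
  Rel T M M' ∧ c ∈ M x ∧ c' ∉ M x ∧ M' x = insert c' ((M x).erase c)

theorem Ex.symm {T : Finset ι} {x : ι} {c c' : γ} {M M' : Mat ι γ} (h : Ex T x c c' M M') :
    Ex T x c' c M' M := by
  obtain ⟨h1, h2, h3, h4⟩ := h
  have hne : c ≠ c' := fun h => h3 (h ▸ h2)
  refine ⟨rel_symm h1, ?_, ?_, ?_⟩
  · rw [h4]; exact Finset.mem_insert_self _ _
  · rw [h4, Finset.mem_insert, Finset.mem_erase]
    rintro (h | h)
    · exact hne h
    · exact h.1 rfl
  · rw [h4, insert_erase_back h2 h3]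

/-- swap the columns `c c'` in the three rows `p q r` -/
def tau (p q r : ι) (c c' : γ) (N : Mat ι γ) : Mat ι γ :=
  fun x => if x = p ∨ x = q ∨ x = r then swF c c' (N x) else N x

theorem tau_p (p q r : ι) (c c' : γ) (N : Mat ι γ) : tau p q r c c' N p = swF c c' (N p) := by
  simp [tau]

theorem tau_q (p q r : ι) (c c' : γ) (N : Mat ι γ) : tau p q r c c' N q = swF c c' (N q) := by
  simp [tau]

theorem tau_r (p q r : ι) (c c' : γ) (N : Mat ι γ) : tau p q r c c' N r = swF c c' (N r) := by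
  simp [tau]

theorem tau_other {p q r x : ι} (h1 : x ≠ p) (h2 : x ≠ q) (h3 : x ≠ r) (c c' : γ) (N : Mat ι γ) :
    tau p q r c c' N x = N x := by
  simp [tau, h1, h2, h3]

theorem tau_tau (p q r : ι) (c c' : γ) (N : Mat ι γ) : tau p q r c c' (tau p q r c c' N) = N := by
  funext x
  by_cases h : x = p ∨ x = q ∨ x = r
  · simp only [tau, if_pos h, swF_swF]
  · simp only [tau, if_neg h]

theorem tau_bij (p q r : ι) (c c' : γ) : Function.Bijective (tau (γ := γ) p q r c c') :=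
  Function.Involutive.bijective (tau_tau p q r c c')

theorem fun_swap {F : γ → ℕ} {c c' : γ} (h : F c = F c') (y : γ) : F (Equiv.swap c c' y) = F y := by
  by_cases h1 : y = c
  · subst h1; rw [Equiv.swap_apply_left]; exact h.symm
  · by_cases h2 : y = c'
    · subst h2; rw [Equiv.swap_apply_right]; exact h
    · rw [Equiv.swap_apply_of_ne_of_ne h1 h2]

theorem rel_tau {p q r : ι} (hpq : p ≠ q) (hpr : p ≠ r) (hqr : q ≠ r) {c c' : γ} {N : Mat ι γ}
    (h : cs {p, q, r} N c = cs {p, q, r} N c') : Rel {p, q, r} N (tau p q r c c' N) := by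
  rw [rel_triple_iff hpq hpr hqr]
  refine ⟨fun a h1 h2 h3 => (tau_other h1 h2 h3 c c' N).symm, ?_, ?_, ?_, fun y => ?_⟩
  · rw [tau_p, card_swF]
  · rw [tau_q, card_swF]
  · rw [tau_r, card_swF]
  · rw [tau_p, tau_q, tau_r, ind_swF, ind_swF, ind_swF]
    have := fun_swap (F := fun y => cs {p, q, r} N y) h y
    simp only [cs3 hpq hpr hqr] at this
    exact this.symm

theorem tau_rel {p q r : ι} (hpq : p ≠ q) (hpr : p ≠ r) (hqr : q ≠ r) {c c' : γ} {M M' N : Mat ι γ}
    (hE : Ex {p, q, r} p c c' M M') (hcs : cs {p, q, r} M c = cs {p, q, r} M c')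
    (hN : Rel {q, r} M N) : Rel {q, r} M' (tau p q r c c' N) := by
  obtain ⟨hR, hc, hc', hM'⟩ := hE
  obtain ⟨hR1, _, hR3, hR4, hR5⟩ := (rel_triple_iff hpq hpr hqr M M').1 hR
  obtain ⟨hN1, hN2, hN3, hN4⟩ := (rel_pair_iff hqr M N).1 hN
  rw [rel_pair_iff hqr]
  refine ⟨fun a h2 h3 => ?_, ?_, ?_, fun y => ?_⟩
  · by_cases h1 : a = p
    · subst h1
      rw [tau_p, ← hN1 a hpq hpr, swF_exch hc hc', hM']
    · rw [tau_other h1 h2 h3, ← hN1 a h2 h3, hR1 a h1 h2 h3]
  · rw [tau_q, card_swF, ← hN2, hR3]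
  · rw [tau_r, card_swF, ← hN3, hR4]
  · rw [tau_q, tau_r, ind_swF, ind_swF, ← hN4]
    have f1 := fun_swap (F := fun y => cs {p, q, r} M y) hcs y
    simp only [cs3 hpq hpr hqr] at f1
    have f2 := hR5 y
    have f3 : ind (M' p) y = ind (M p) (Equiv.swap c c' y) := by
      rw [hM', ← swF_exch hc hc', ind_swF]
    omega

/-- Lipschitz bound for exchanges of two columns with equal column sum -/
def Lip0 (T : Finset ι) (U : ι → Mat ι γ → ℝ) (C : ℝ) : Prop :=
  ∀ x ∈ T, ∀ (c c' : γ) (M M' : Mat ι γ), Ex T x c c' M M' → cs T M c = cs T M c' →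
    |U x M - U x M'| ≤ C

theorem contr0 {p q r : ι} (hpq : p ≠ q) (hpr : p ≠ r) (hqr : q ≠ r)
    (U : ι → Mat ι γ → ℝ) (ν C : ℝ)
    (hUq : ∀ A B, Rel {p, r} A B → U q A = U q B) (hUr : ∀ A B, Rel {p, q} A B → U r A = U r B)
    (heig : ∀ M, ν * U p M = avg (Rel {q, r}) (U q + U r) M)
    (hL : Lip0 {p, q, r} U C) {c c' : γ} {M M' : Mat ι γ} (hE : Ex {p, q, r} p c c' M M')
    (hcs : cs {p, q, r} M c = cs {p, q, r} M c') :
    |ν * (U p M - U p M')| ≤ C := by
  have hcl : ∀ N, Rel {q, r} M N ↔ Rel {q, r} M' (tau p q r c c' N) := by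
    intro N
    constructor
    · exact tau_rel hpq hpr hqr hE hcs
    · intro h
      have hcs' : cs {p, q, r} M' c' = cs {p, q, r} M' c := by
        rw [← cs_rel hE.1, ← cs_rel hE.1, hcs]
      have := tau_rel hpq hpr hqr hE.symm hcs' h
      have e : tau p q r c' c (tau p q r c c' N) = N := by
        have : tau (γ := γ) p q r c' c = tau p q r c c' := by
          funext K x
          simp only [tau, swF_comm c' c]
        rw [this, tau_tau]
      rwa [e] at this
  have e1 := avg_eq_of_bij (r := Rel {q, r}) (tau p q r c c') (tau_bij p q r c c') M M' hcl (U q + U r)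
  have e2 : ν * (U p M - U p M')
      = avg (Rel {q, r}) ((U q + U r) - fun y => (U q + U r) (tau p q r c c' y)) M := by
    rw [mul_sub, heig, heig, e1, avg_sub]
    rfl
  rw [e2]
  refine abs_avg_le (Rel.equiv _) _ _ _ (fun N hN => ?_)
  obtain ⟨hR, hc, hc', hM'⟩ := hE
  have hNp : M p = N p := ((rel_pair_iff hqr M N).1 hN).1 p hpq hpr
  have hcsN : cs {p, q, r} N c = cs {p, q, r} N c' := by
    rw [← cs_rel (mono_qr hN), ← cs_rel (mono_qr hN), hcs]
  have hRτ := rel_tau hpq hpr hqr hcsN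
  have hcsN' := hcsN
  rw [cs3 hpq hpr hqr, cs3 hpq hpr hqr, ← hNp, ind_mem hc, ind_not_mem hc'] at hcsN'
  have hcase : (c' ∈ N q ∧ c ∉ N q ∧ (c ∈ N r ↔ c' ∈ N r)) ∨
      (c' ∈ N r ∧ c ∉ N r ∧ (c ∈ N q ↔ c' ∈ N q)) := by
    by_cases h1 : c ∈ N q <;> by_cases h2 : c' ∈ N q <;> by_cases h3 : c ∈ N r <;>
      by_cases h4 : c' ∈ N r <;> simp [ind, h1, h2, h3, h4] at hcsN' ⊢
  show |(U q N + U r N) - (U q (tau p q r c c' N) + U r (tau p q r c c' N))| ≤ C
  rcases hcase with ⟨h1, h2, h3⟩ | ⟨h1, h2, h3⟩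
  · have a1 : U r N = U r (tau p q r c c' N) :=
      hUr _ _ (rel_pq hpr hqr hRτ (by rw [tau_r, swF_of_iff h3]))
    have a2 := hL q (by simp) c' c N (tau p q r c c' N)
      ⟨hRτ, h1, h2, by rw [tau_q, swF_comm, swF_exch h1 h2]⟩ hcsN.symm
    rw [← a1]
    have : U q N + U r N - (U q (tau p q r c c' N) + U r N) = U q N - U q (tau p q r c c' N) := by ring
    rw [this]; exact a2
  · have a1 : U q N = U q (tau p q r c c' N) :=
      hUq _ _ (rel_pr hpq hqr hRτ (by rw [tau_q, swF_of_iff h3]))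
    have a2 := hL r (by simp) c' c N (tau p q r c c' N)
      ⟨hRτ, h1, h2, by rw [tau_r, swF_comm, swF_exch h1 h2]⟩ hcsN.symm
    rw [← a1]
    have : U q N + U r N - (U q N + U r (tau p q r c c' N)) = U r N - U r (tau p q r c c' N) := by ring
    rw [this]; exact a2

/-- Lipschitz bound for exchanges of a column of sum 1 against a column of sum 2 -/
def LipX (T : Finset ι) (U : ι → Mat ι γ → ℝ) (C : ℝ) : Prop :=
  ∀ x ∈ T, ∀ (c c' : γ) (M M' : Mat ι γ), Ex T x c c' M M' → cs T M c = 1 → cs T M c' = 2 →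
    |U x M - U x M'| ≤ C

theorem factsF {p q r : ι} (hpq : p ≠ q) (hpr : p ≠ r) (hqr : q ≠ r) {c c' : γ} {M M' N : Mat ι γ}
    (hE : Ex {p, q, r} p c c' M M') (h1 : cs {p, q, r} M c = 1) (h2 : cs {p, q, r} M c' = 2)
    (hN : Rel {q, r} M N) :
    N p = M p ∧ c ∉ N q ∧ c ∉ N r ∧ c' ∈ N q ∧ c' ∈ N r ∧ Rel {p, q, r} M N := by
  obtain ⟨hR, hc, hc', hM'⟩ := hE
  have hNp : M p = N p := ((rel_pair_iff hqr M N).1 hN).1 p hpq hpr
  have hRN : Rel {p, q, r} M N := mono_qr hN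
  rw [cs_rel hRN, cs3 hpq hpr hqr, ← hNp, ind_mem hc] at h1
  rw [cs_rel hRN, cs3 hpq hpr hqr, ← hNp, ind_not_mem hc'] at h2
  have b1 := ind_le_one (N q) c'
  have b2 := ind_le_one (N r) c'
  refine ⟨hNp.symm, not_mem_of_ind (by omega), not_mem_of_ind (by omega), mem_of_ind (by omega),
    mem_of_ind (by omega), hRN⟩

theorem factsF' {p q r : ι} (hpq : p ≠ q) (hpr : p ≠ r) (hqr : q ≠ r) {c c' : γ} {M M' N : Mat ι γ}
    (hE : Ex {p, q, r} p c c' M M') (h1 : cs {p, q, r} M c = 1) (h2 : cs {p, q, r} M c' = 2)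
    (hN : Rel {q, r} M' N) :
    N p = M' p ∧ c ∉ N p ∧ c' ∈ N p ∧ ind (N q) c + ind (N r) c = 1 ∧
      ind (N q) c' + ind (N r) c' = 1 ∧ Rel {p, q, r} M N := by
  have hE' := hE.symm
  obtain ⟨hR, hc, hc', hM'⟩ := hE
  have hNp : M' p = N p := ((rel_pair_iff hqr M' N).1 hN).1 p hpq hpr
  have hRN : Rel {p, q, r} M N := rel_trans hR (mono_qr hN)
  rw [cs_rel hRN, cs3 hpq hpr hqr, ← hNp, ind_not_mem hE'.2.2.1] at h1
  rw [cs_rel hRN, cs3 hpq hpr hqr, ← hNp, ind_mem hE'.2.1] at h2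
  refine ⟨hNp.symm, hNp ▸ hE'.2.2.1, hNp ▸ hE'.2.1, by omega, by omega, hRN⟩

theorem partA {T : Finset ι} {p q r : ι} (hT : T = {p, q, r}) (hpq : p ≠ q) (hpr : p ≠ r) (hqr : q ≠ r)
    (U : ι → Mat ι γ → ℝ) (C : ℝ)
    (hUr : ∀ A B, Rel {p, q} A B → U r A = U r B)
    (hL : LipX T U C) {c c' : γ} {M M' : Mat ι γ} (hE : Ex T p c c' M M')
    (h1 : cs T M c = 1) (h2 : cs T M c' = 2)
    (F F' G : Finset (Mat ι γ)) (hF : ∀ N, N ∈ F ↔ Rel {q, r} M N)
    (hF' : ∀ N, N ∈ F' ↔ Rel {q, r} M' N)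
    (hG : ∀ N, N ∈ G ↔ N ∈ F' ∧ c ∈ N q ∧ c' ∉ N q)
    (g : Mat ι γ → ℝ) (hg : ∀ N, g N = U q N + U r N) :
    |∑ y ∈ G, (g y - (∑ x ∈ F, g x) / (F.card : ℝ))| ≤ C * (G.card : ℝ) := by
  subst hT
  have hne : c ≠ c' := fun h => hE.2.2.1 (h ▸ hE.2.1)
  have hFne : F.Nonempty := ⟨M, (hF M).2 (rel_refl _ _)⟩
  have hok : ∀ N ∈ F, SwOK N p q c c' := by
    intro N hN
    obtain ⟨a1, a2, a3, a4, a5, a6⟩ := factsF hpq hpr hqr hE h1 h2 ((hF N).1 hN)
    exact ⟨hpq, a1 ▸ hE.2.1, a2, a4, a1 ▸ hE.2.2.1⟩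
  refine edge_couple F G (fun _ => ({()} : Finset Unit)) (fun _ => ({()} : Finset Unit))
    (fun N _ => sw N p q c c') (fun N _ => sw N p q c' c) 1 1 (fun _ _ => rfl) (fun _ _ => rfl)
    Nat.one_pos ?_ ?_ g g C ?_ hFne
  · intro N hN e he
    obtain ⟨a1, a2, a3, a4, a5, a6⟩ := factsF hpq hpr hqr hE h1 h2 ((hF N).1 hN)
    have ok := hok N hN
    refine ⟨?_, he, (swOK_rev ok).2⟩
    rw [hG, hF']
    refine ⟨?_, ?_, ?_⟩
    · refine rel_qr hpq hpr (rel_trans (rel_symm hE.1) (rel_trans a6 (mono_pq (rel_sw ok)))) ?_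
      rw [sw_fst hpq, a1, hE.2.2.2]
    · rw [sw_snd]; exact Finset.mem_insert_self _ _
    · rw [sw_snd, Finset.mem_insert, Finset.mem_erase]
      rintro (h | h)
      · exact hne h.symm
      · exact h.1 rfl
  · intro N hN e he
    obtain ⟨hN1, hN2, hN3⟩ := (hG N).1 hN
    obtain ⟨a1, a2, a3, a4, a5, a6⟩ := factsF' hpq hpr hqr hE h1 h2 ((hF' N).1 hN1)
    have ok : SwOK N p q c' c := ⟨hpq, a3, hN3, hN2, a2⟩
    refine ⟨?_, he, (swOK_rev ok).2⟩
    rw [hF]
    refine rel_qr hpq hpr (rel_trans a6 (mono_pq (rel_sw ok))) ?_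
    rw [sw_fst hpq, a1, hE.2.2.2, insert_erase_back hE.2.1 hE.2.2.1]
  · intro N hN e _
    obtain ⟨a1, a2, a3, a4, a5, a6⟩ := factsF hpq hpr hqr hE h1 h2 ((hF N).1 hN)
    have ok := hok N hN
    have hrel : Rel {p, q, r} N (sw N p q c c') := mono_pq (rel_sw ok)
    have b1 : U r (sw N p q c c') = U r N := (hUr _ _ (rel_sw ok)).symm
    have b2 := hL q (by simp) c c' (sw N p q c c') N
      ⟨rel_symm hrel, by rw [sw_snd]; exact Finset.mem_insert_self _ _, by
        rw [sw_snd, Finset.mem_insert, Finset.mem_erase]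
        rintro (h | h)
        · exact hne h.symm
        · exact h.1 rfl, by rw [sw_snd, insert_erase_back a4 a2]⟩
      (by rw [← cs_rel hrel, ← cs_rel a6, h1]) (by rw [← cs_rel hrel, ← cs_rel a6, h2])
    show |g (sw N p q c c') - g N| ≤ C
    rw [hg, hg, b1]
    have : U q (sw N p q c c') + U r N - (U q N + U r N) = U q (sw N p q c c') - U q N := by ring
    rw [this]; exact b2

theorem mem_inter_ind (s t : Finset γ) (y : γ) : y ∈ s ∩ t ↔ ind s y + ind t y = 2 := by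
  unfold ind
  by_cases h1 : y ∈ s <;> by_cases h2 : y ∈ t <;> simp [h1, h2]

theorem inter_rel {q r : ι} (hqr : q ≠ r) {A B : Mat ι γ} (h : Rel {q, r} A B) :
    A q ∩ A r = B q ∩ B r := by
  ext y
  rw [mem_inter_ind, mem_inter_ind, ((rel_pair_iff hqr A B).1 h).2.2.2 y]

theorem card_sdiff_rel {q r : ι} (hqr : q ≠ r) {A B : Mat ι γ} (h : Rel {q, r} A B) :
    (A q \ A r).card = (B q \ B r).card ∧ (A r \ A q).card = (B r \ B q).card := by
  have e := inter_rel hqr h
  obtain ⟨_, c1, c2, _⟩ := (rel_pair_iff hqr A B).1 h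
  have a1 := Finset.card_sdiff_add_card_inter (A q) (A r)
  have a2 := Finset.card_sdiff_add_card_inter (B q) (B r)
  have a3 := Finset.card_sdiff_add_card_inter (A r) (A q)
  have a4 := Finset.card_sdiff_add_card_inter (B r) (B q)
  rw [Finset.inter_comm] at a3 a4
  rw [e] at a1 a3
  constructor <;> omega

theorem mono_rq {p q r : ι} {A B : Mat ι γ} (h : Rel {r, q} A B) : Rel {p, q, r} A B :=
  Rel.mono (by intro a; simp only [Finset.mem_insert, Finset.mem_singleton]; tauto) h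

theorem partC {T : Finset ι} {p q r : ι} (hT : T = {p, q, r}) (hpq : p ≠ q) (hpr : p ≠ r) (hqr : q ≠ r)
    (U : ι → Mat ι γ → ℝ) (C : ℝ)
    (h0 : Lip0 T U 0) (hL : LipX T U C) {c c' : γ} {M M' : Mat ι γ} (hE : Ex T p c c' M M')
    (h1 : cs T M c = 1) (h2 : cs T M c' = 2)
    (F F' G : Finset (Mat ι γ)) (hF : ∀ N, N ∈ F ↔ Rel {q, r} M N)
    (hF' : ∀ N, N ∈ F' ↔ Rel {q, r} M' N)
    (hG : ∀ N, N ∈ G ↔ N ∈ F' ∧ c ∈ N q ∧ c' ∈ N q)
    (g : Mat ι γ → ℝ) (hg : ∀ N, g N = U q N + U r N) :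
    |∑ y ∈ G, (g y - (∑ x ∈ F, g x) / (F.card : ℝ))| ≤ C * (G.card : ℝ) := by
  subst hT
  have hne : c ≠ c' := fun h => hE.2.2.1 (h ▸ hE.2.1)
  have hFne : F.Nonempty := ⟨M, (hF M).2 (rel_refl _ _)⟩
  rcases G.eq_empty_or_nonempty with hGe | ⟨N₀, hN₀⟩
  · rw [hGe]; simp
  -- facts on the elements of G
  have hGf : ∀ N ∈ G, N p = M' p ∧ c ∉ N p ∧ c' ∈ N p ∧ c ∈ N q ∧ c' ∈ N q ∧ c ∉ N r ∧ c' ∉ N r ∧
      Rel {p, q, r} M N ∧ Rel {q, r} M' N := by
    intro N hN
    obtain ⟨hN1, hN2, hN3⟩ := (hG N).1 hN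
    obtain ⟨a1, a2, a3, a4, a5, a6⟩ := factsF' hpq hpr hqr hE h1 h2 ((hF' N).1 hN1)
    rw [ind_mem hN2] at a4
    rw [ind_mem hN3] at a5
    exact ⟨a1, a2, a3, hN2, hN3, not_mem_of_ind (by omega), not_mem_of_ind (by omega), a6,
      (hF' N).1 hN1⟩
  -- positivity of the second degree
  have hd2 : 0 < (M' r \ M' q).card := by
    obtain ⟨a1, a2, a3, a4, a5, a6, a7, a8, a9⟩ := hGf N₀ hN₀
    rw [(card_sdiff_rel hqr a9).2]
    rw [Finset.card_pos]
    by_contra hemp
    rw [Finset.not_nonempty_iff_eq_empty, Finset.sdiff_eq_empty_iff_subset] at hemp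
    obtain ⟨b1, b2, b3, b4, b5, b6⟩ := factsF hpq hpr hqr hE h1 h2 (rel_refl _ M)
    have hsub : N₀ r ⊆ (M r).erase c' := by
      intro y hy
      have hyq := hemp hy
      have hyc : y ≠ c := fun h => a6 (h ▸ hy)
      have hyc' : y ≠ c' := fun h => a7 (h ▸ hy)
      rw [Finset.mem_erase]
      refine ⟨hyc', ?_⟩
      have e1 := cs_rel a8 y
      rw [cs3 hpq hpr hqr, cs3 hpq hpr hqr, ind_mem hy, ind_mem hyq, a1, hE.2.2.2] at e1
      have e2 : ind (insert c' ((M p).erase c)) y = ind (M p) y := by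
        unfold ind
        simp [hyc, hyc']
      rw [e2] at e1
      have i1 := ind_le_one (M q) y
      have i2 := ind_le_one (M r) y
      exact mem_of_ind (by omega)
    have hcard := Finset.card_le_card hsub
    rw [Finset.card_erase_of_mem b5] at hcard
    have hr : (M r).card = (N₀ r).card := a8.2.1 r
    have : 0 < (M r).card := Finset.card_pos.2 ⟨c', b5⟩
    omega
  refine edge_couple F G (fun N => N q \ N r) (fun N => N r \ N q)
    (fun N e => sw (sw N p r c c') r q c e) (fun N e => sw (sw N r q e c) p r c' c)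
    (M q \ M r).card (M' r \ M' q).card
    (fun N hN => ((card_sdiff_rel hqr ((hF N).1 hN)).1).symm)
    (fun N hN => ((card_sdiff_rel hqr (hGf N hN).2.2.2.2.2.2.2.2).2).symm)
    hd2 ?_ ?_ g g C ?_ hFne
  · intro N hN e he
    obtain ⟨a1, a2, a3, a4, a5, a6⟩ := factsF hpq hpr hqr hE h1 h2 ((hF N).1 hN)
    rw [Finset.mem_sdiff] at he
    obtain ⟨he1, he2⟩ := he
    have hec : e ≠ c := fun h => a2 (h ▸ he1)
    have hec' : e ≠ c' := fun h => he2 (h ▸ a5)
    have ok1 : SwOK N p r c c' := ⟨hpr, a1 ▸ hE.2.1, a3, a5, a1 ▸ hE.2.2.1⟩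
    have ok2 : SwOK (sw N p r c c') r q c e := by
      refine ⟨hqr.symm, ?_, ?_, ?_, ?_⟩
      · rw [sw_snd]; exact Finset.mem_insert_self _ _
      · rw [sw_other _ hpq.symm hqr]; exact a2
      · rw [sw_other _ hpq.symm hqr]; exact he1
      · rw [sw_snd, Finset.mem_insert, Finset.mem_erase]
        rintro (h | h)
        · exact hec h
        · exact he2 h.2
    refine ⟨?_, ?_, ?_⟩
    · rw [hG, hF']
      refine ⟨?_, ?_, ?_⟩
      · refine rel_qr hpq hpr (rel_trans (rel_symm hE.1) (rel_trans a6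
          (rel_trans (mono_pr (rel_sw ok1)) (mono_rq (rel_sw ok2))))) ?_
        rw [sw_other _ hpr hpq, sw_fst hpr, a1, hE.2.2.2]
      · rw [sw_snd]; exact Finset.mem_insert_self _ _
      · rw [sw_snd, sw_other _ hpq.symm hqr, Finset.mem_insert, Finset.mem_erase]
        exact Or.inr ⟨fun h => hec' h.symm, a4⟩
    · rw [Finset.mem_sdiff]
      constructor
      · rw [sw_fst hqr.symm]; exact Finset.mem_insert_self _ _
      · rw [sw_snd, Finset.mem_insert, Finset.mem_erase]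
        rintro (h | h)
        · exact hec h
        · exact h.1 rfl
    · show sw (sw (sw (sw N p r c c') r q c e) r q e c) p r c' c = N
      rw [(swOK_rev ok2).2, (swOK_rev ok1).2]
  · intro N hN e he
    obtain ⟨a1, a2, a3, a4, a5, a6, a7, a8, a9⟩ := hGf N hN
    rw [Finset.mem_sdiff] at he
    obtain ⟨he1, he2⟩ := he
    have hec : e ≠ c := fun h => he2 (h ▸ a4)
    have hec' : e ≠ c' := fun h => he2 (h ▸ a5)
    have ok3 : SwOK N r q e c := ⟨hqr.symm, he1, he2, a4, a6⟩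
    have ok4 : SwOK (sw N r q e c) p r c' c := by
      refine ⟨hpr, ?_, ?_, ?_, ?_⟩
      · rw [sw_other _ hpr hpq]; exact a3
      · rw [sw_fst hqr.symm, Finset.mem_insert, Finset.mem_erase]
        rintro (h | h)
        · exact hne h.symm
        · exact a7 h.2
      · rw [sw_fst hqr.symm]; exact Finset.mem_insert_self _ _
      · rw [sw_other _ hpr hpq]; exact a2
    refine ⟨?_, ?_, ?_⟩
    · rw [hF]
      refine rel_qr hpq hpr (rel_trans a8 (rel_trans (mono_rq (rel_sw ok3)) (mono_pr (rel_sw ok4)))) ?_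
      rw [sw_fst hpr, sw_other _ hpr hpq, a1, hE.2.2.2, insert_erase_back hE.2.1 hE.2.2.1]
    · rw [Finset.mem_sdiff]
      constructor
      · rw [sw_other _ hpq.symm hqr, sw_snd]; exact Finset.mem_insert_self _ _
      · rw [sw_snd, sw_fst hqr.symm, Finset.mem_insert, Finset.mem_erase, Finset.mem_insert,
          Finset.mem_erase]
        rintro (h | ⟨_, h | h⟩)
        · exact hec' h
        · exact hec h
        · exact h.1 rfl
    · show sw (sw (sw (sw N r q e c) p r c' c) p r c c') r q c e = N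
      rw [(swOK_rev ok4).2, (swOK_rev ok3).2]
  · intro N hN e he
    obtain ⟨a1, a2, a3, a4, a5, a6⟩ := factsF hpq hpr hqr hE h1 h2 ((hF N).1 hN)
    rw [Finset.mem_sdiff] at he
    obtain ⟨he1, he2⟩ := he
    have hec : e ≠ c := fun h => a2 (h ▸ he1)
    have hec' : e ≠ c' := fun h => he2 (h ▸ a5)
    have ok1 : SwOK N p r c c' := ⟨hpr, a1 ▸ hE.2.1, a3, a5, a1 ▸ hE.2.2.1⟩
    have ok2 : SwOK (sw N p r c c') r q c e := by
      refine ⟨hqr.symm, ?_, ?_, ?_, ?_⟩
      · rw [sw_snd]; exact Finset.mem_insert_self _ _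
      · rw [sw_other _ hpq.symm hqr]; exact a2
      · rw [sw_other _ hpq.symm hqr]; exact he1
      · rw [sw_snd, Finset.mem_insert, Finset.mem_erase]
        rintro (h | h)
        · exact hec h
        · exact he2 h.2
    set N' := sw (sw N p r c c') r q c e with hN'
    have hrel : Rel {p, q, r} N N' := rel_trans (mono_pr (rel_sw ok1)) (mono_rq (rel_sw ok2))
    have hq : N' q = insert c ((N q).erase e) := by
      rw [hN', sw_snd, sw_other _ hpq.symm hqr]
    have hr : N' r = insert e ((N r).erase c') := by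
      rw [hN', sw_fst hqr.symm, sw_snd, Finset.erase_insert]
      intro h
      exact a3 (Finset.mem_of_mem_erase h)
    have exq : Ex {p, q, r} q e c N N' := ⟨hrel, he1, a2, hq⟩
    have exr : Ex {p, q, r} r c' e N N' := ⟨hrel, a5, he2, hr⟩
    have csc : cs {p, q, r} N c = 1 := by rw [← cs_rel a6, h1]
    have csc' : cs {p, q, r} N c' = 2 := by rw [← cs_rel a6, h2]
    show |g N' - g N| ≤ C
    rw [hg, hg]
    by_cases hep : e ∈ N p
    · have cse : cs {p, q, r} N e = 2 := by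
        rw [cs3 hpq hpr hqr, ind_mem hep, ind_mem he1, ind_not_mem he2]
      have b1 := h0 r (by simp) c' e N N' exr (by rw [csc', cse])
      have b1' : U r N = U r N' := by
        have := abs_nonpos_iff.1 b1
        linarith
      have b2 := hL q (by simp) c e N' N exq.symm (by rw [← cs_rel hrel, csc])
        (by rw [← cs_rel hrel, cse])
      rw [← b1']
      have : U q N' + U r N - (U q N + U r N) = U q N' - U q N := by ring
      rw [this]; exact b2
    · have cse : cs {p, q, r} N e = 1 := by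
        rw [cs3 hpq hpr hqr, ind_not_mem hep, ind_mem he1, ind_not_mem he2]
      have b1 := h0 q (by simp) e c N N' exq (by rw [csc, cse])
      have b1' : U q N = U q N' := by
        have := abs_nonpos_iff.1 b1
        linarith
      have b2 := hL r (by simp) e c' N' N exr.symm (by rw [← cs_rel hrel, cse])
        (by rw [← cs_rel hrel, csc'])
      rw [← b1']
      have : U q N + U r N' - (U q N + U r N) = U r N' - U r N := by ring
      rw [this]; exact b2

theorem sum_split4 {X : Type*} (F : Finset X) (P Q : X → Prop) [DecidablePred P] [DecidablePred Q]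
    (H : X → ℝ) :
    ∑ x ∈ F, H x = ∑ x ∈ F.filter (fun x => P x ∧ ¬ Q x), H x + ∑ x ∈ F.filter (fun x => ¬ P x ∧ Q x), H x
      + ∑ x ∈ F.filter (fun x => P x ∧ Q x), H x + ∑ x ∈ F.filter (fun x => ¬ P x ∧ ¬ Q x), H x := by
  rw [← Finset.sum_filter_add_sum_filter_not F P,
    ← Finset.sum_filter_add_sum_filter_not (F.filter P) Q,
    ← Finset.sum_filter_add_sum_filter_not (F.filter (fun x => ¬ P x)) Q]
  simp only [Finset.filter_filter]
  ring

theorem contrX {p q r : ι} (hpq : p ≠ q) (hpr : p ≠ r) (hqr : q ≠ r)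
    (U : ι → Mat ι γ → ℝ) (ν C : ℝ)
    (hUq : ∀ A B, Rel {p, r} A B → U q A = U q B) (hUr : ∀ A B, Rel {p, q} A B → U r A = U r B)
    (heig : ∀ M, ν * U p M = avg (Rel {q, r}) (U q + U r) M)
    (h0 : Lip0 {p, q, r} U 0) (hL : LipX {p, q, r} U C) {c c' : γ} {M M' : Mat ι γ}
    (hE : Ex {p, q, r} p c c' M M') (h1 : cs {p, q, r} M c = 1) (h2 : cs {p, q, r} M c' = 2) :
    |ν * (U p M - U p M')| ≤ C := by
  set F : Finset (Mat ι γ) := univ.filter (fun N => Rel {q, r} M N) with hFdef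
  set F' : Finset (Mat ι γ) := univ.filter (fun N => Rel {q, r} M' N) with hF'def
  set g : Mat ι γ → ℝ := U q + U r with hgdef
  have hg : ∀ N, g N = U q N + U r N := fun _ => rfl
  have hg' : ∀ N, g N = U r N + U q N := fun N => by rw [hg, add_comm]
  have hF : ∀ N, N ∈ F ↔ Rel {q, r} M N := fun N => by simp [hFdef]
  have hF' : ∀ N, N ∈ F' ↔ Rel {q, r} M' N := fun N => by simp [hF'def]
  have hFs : ∀ N, N ∈ F ↔ Rel {r, q} M N := fun N => by rw [hF, Finset.pair_comm]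
  have hFs' : ∀ N, N ∈ F' ↔ Rel {r, q} M' N := fun N => by rw [hF', Finset.pair_comm]
  have hTs : ({p, q, r} : Finset ι) = {p, r, q} := by rw [Finset.pair_comm]
  set m : ℝ := (∑ x ∈ F, g x) / (F.card : ℝ) with hm
  have b1 := partA rfl hpq hpr hqr U C hUr hL hE h1 h2 F F'
    (F'.filter (fun N => c ∈ N q ∧ ¬ c' ∈ N q)) hF hF' (fun N => by rw [Finset.mem_filter]) g hg
  have b2 := partA hTs hpr hpq hqr.symm U C hUq hL hE h1 h2 F F'
    (F'.filter (fun N => ¬ c ∈ N q ∧ c' ∈ N q)) hFs hFs' (fun N => by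
      rw [Finset.mem_filter]
      constructor
      · rintro ⟨k1, k2, k3⟩
        obtain ⟨a1, a2, a3, a4, a5, a6⟩ := factsF' hpq hpr hqr hE h1 h2 ((hF' N).1 k1)
        rw [ind_not_mem k2] at a4
        rw [ind_mem k3] at a5
        exact ⟨k1, mem_of_ind (by omega), not_mem_of_ind (by omega)⟩
      · rintro ⟨k1, k2, k3⟩
        obtain ⟨a1, a2, a3, a4, a5, a6⟩ := factsF' hpq hpr hqr hE h1 h2 ((hF' N).1 k1)
        rw [ind_mem k2] at a4
        rw [ind_not_mem k3] at a5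
        exact ⟨k1, not_mem_of_ind (by omega), mem_of_ind (by omega)⟩) g hg'
  have b3 := partC rfl hpq hpr hqr U C h0 hL hE h1 h2 F F'
    (F'.filter (fun N => c ∈ N q ∧ c' ∈ N q)) hF hF' (fun N => by rw [Finset.mem_filter]) g hg
  have b4 := partC hTs hpr hpq hqr.symm U C h0 hL hE h1 h2 F F'
    (F'.filter (fun N => ¬ c ∈ N q ∧ ¬ c' ∈ N q)) hFs hFs' (fun N => by
      rw [Finset.mem_filter]
      constructor
      · rintro ⟨k1, k2, k3⟩
        obtain ⟨a1, a2, a3, a4, a5, a6⟩ := factsF' hpq hpr hqr hE h1 h2 ((hF' N).1 k1)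
        rw [ind_not_mem k2] at a4
        rw [ind_not_mem k3] at a5
        exact ⟨k1, mem_of_ind (by omega), mem_of_ind (by omega)⟩
      · rintro ⟨k1, k2, k3⟩
        obtain ⟨a1, a2, a3, a4, a5, a6⟩ := factsF' hpq hpr hqr hE h1 h2 ((hF' N).1 k1)
        rw [ind_mem k2] at a4
        rw [ind_mem k3] at a5
        exact ⟨k1, not_mem_of_ind (by omega), not_mem_of_ind (by omega)⟩) g hg'
  have hsum := sum_split4 F' (fun N => c ∈ N q) (fun N => c' ∈ N q) (fun y => g y - m)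
  have hcard := sum_split4 F' (fun N => c ∈ N q) (fun N => c' ∈ N q) (fun _ => (1 : ℝ))
  simp only [Finset.sum_const, nsmul_eq_mul, mul_one] at hcard
  have hF'pos : (0 : ℝ) < (F'.card : ℝ) := by
    have : F'.Nonempty := ⟨M', (hF' M').2 (rel_refl _ _)⟩
    exact_mod_cast this.card_pos
  have htot : |∑ y ∈ F', (g y - m)| ≤ C * (F'.card : ℝ) := by
    rw [hsum, hcard]
    refine (abs_add_le _ _).trans ?_
    refine (add_le_add ((abs_add_le _ _).trans (add_le_add (abs_add_le _ _) le_rfl)) le_rfl).trans ?_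
    linarith
  have e : ν * (U p M - U p M') = - ((∑ y ∈ F', (g y - m)) / (F'.card : ℝ)) := by
    rw [mul_sub, heig, heig]
    have e1 : avg (Rel {q, r}) (U q + U r) M = m := rfl
    have e2 : avg (Rel {q, r}) (U q + U r) M' = (∑ y ∈ F', g y) / (F'.card : ℝ) := rfl
    rw [e1, e2, Finset.sum_sub_distrib, Finset.sum_const, nsmul_eq_mul]
    field_simp
    ring
  rw [e, abs_neg, abs_div, abs_of_pos hF'pos, div_le_iff₀ hF'pos]
  exact htot

theorem max_principle {Z : Type*} [Fintype Z] (P : Z → Prop) (v : Z → ℝ) (ν : ℝ) (hν : 1 < ν)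
    (hv : ∀ z, 0 ≤ v z)
    (h : ∀ C : ℝ, (∀ z, P z → v z ≤ C) → ∀ z, P z → ν * v z ≤ C) : ∀ z, P z → v z ≤ 0 := by
  classical
  intro z hz
  obtain ⟨t, _, hmax⟩ := Finset.exists_max_image (univ : Finset Z) (fun z => if P z then v z else 0)
    ⟨z, Finset.mem_univ z⟩
  have hb : ∀ w, P w → v w ≤ (if P t then v t else 0) := by
    intro w hw
    have := hmax w (Finset.mem_univ w)
    simpa [hw] using this
  by_cases ht : P t
  · rw [if_pos ht] at hb
    have h1 := h (v t) hb t ht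
    have h2 := hv t
    have h3 : v t ≤ 0 := by nlinarith
    exact (hb z hz).trans h3
  · rw [if_neg ht] at hb
    exact hb z hz

theorem eig_of {q r : ι} (f Up Uq Ur : Mat ι γ → ℝ) (μ : ℝ) (hUp : Up = avg (Rel {q, r}) f)
    (hsum : Up + Uq + Ur = μ • f) (M : Mat ι γ) :
    (μ - 1) * Up M = avg (Rel {q, r}) (Uq + Ur) M := by
  have h1 := congrArg (avg (Rel {q, r})) hsum
  rw [add_assoc, avg_add, avg_smul, ← hUp] at h1
  have h2 : avg (Rel {q, r}) Up = Up := by rw [hUp, avg_idem (Rel.equiv _)]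
  rw [h2] at h1
  have h3 := congrFun h1 M
  simp only [Pi.add_apply, Pi.smul_apply, smul_eq_mul] at h3
  linarith

theorem contr0T {T : Finset ι} {p q r : ι} (hT : T = {p, q, r}) (hpq : p ≠ q) (hpr : p ≠ r)
    (hqr : q ≠ r) (U : ι → Mat ι γ → ℝ) (ν C : ℝ)
    (hinv : ∀ x ∈ T, ∀ A B, Rel (T.erase x) A B → U x A = U x B)
    (heig : ∀ M, ν * U p M = avg (Rel {q, r}) (U q + U r) M)
    (hL : Lip0 T U C) {c c' : γ} {M M' : Mat ι γ} (hE : Ex T p c c' M M')
    (hcs : cs T M c = cs T M c') : |ν * (U p M - U p M')| ≤ C := by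
  subst hT
  exact contr0 hpq hpr hqr U ν C
    (fun A B h => hinv q (by simp) A B (by rw [erase2 hpq hqr]; exact h))
    (fun A B h => hinv r (by simp) A B (by rw [erase3 hpr hqr]; exact h)) heig hL hE hcs

theorem contrXT {T : Finset ι} {p q r : ι} (hT : T = {p, q, r}) (hpq : p ≠ q) (hpr : p ≠ r)
    (hqr : q ≠ r) (U : ι → Mat ι γ → ℝ) (ν C : ℝ)
    (hinv : ∀ x ∈ T, ∀ A B, Rel (T.erase x) A B → U x A = U x B)
    (heig : ∀ M, ν * U p M = avg (Rel {q, r}) (U q + U r) M)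
    (h0 : Lip0 T U 0) (hL : LipX T U C) {c c' : γ} {M M' : Mat ι γ} (hE : Ex T p c c' M M')
    (h1 : cs T M c = 1) (h2 : cs T M c' = 2) : |ν * (U p M - U p M')| ≤ C := by
  subst hT
  exact contrX hpq hpr hqr U ν C
    (fun A B h => hinv q (by simp) A B (by rw [erase2 hpq hqr]; exact h))
    (fun A B h => hinv r (by simp) A B (by rw [erase3 hpr hqr]; exact h)) heig h0 hL hE h1 h2

end Mat

end ThreeRow

section Mat
variable {ι γ : Type*} [Fintype ι] [DecidableEq ι] [Fintype γ] [DecidableEq γ]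

open ThreeRow

/-! ### Module ThreeRow : the key lemma -/

theorem three_row {i j k : ι} (hij : i ≠ j) (hik : i ≠ k) (hjk : j ≠ k) (f : Mat ι γ → ℝ) (μ : ℝ)
    (hμ : 2 < μ)
    (hf : avg (Rel {i, j}) f + avg (Rel {i, k}) f + avg (Rel {j, k}) f = μ • f) :
    avg (Rel {i, j}) f = f ∧ avg (Rel {i, k}) f = f ∧ avg (Rel {j, k}) f = f := by
  set T : Finset ι := {i, j, k} with hT
  set U : ι → Mat ι γ → ℝ := fun x =>
    if x = i then avg (Rel {j, k}) f else if x = j then avg (Rel {i, k}) f else avg (Rel {i, j}) f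
    with hU
  have Ui : U i = avg (Rel {j, k}) f := by simp [hU]
  have Uj : U j = avg (Rel {i, k}) f := by simp [hU, hij.symm]
  have Uk : U k = avg (Rel {i, j}) f := by simp [hU, hik.symm, hjk.symm]
  have hν : 1 < μ - 1 := by linarith
  have hν0 : 0 ≤ μ - 1 := by linarith
  have hTj : T = {j, i, k} := by rw [hT, Finset.insert_comm]
  have hTk : T = {k, i, j} := by
    rw [hT]; ext a; simp only [Finset.mem_insert, Finset.mem_singleton]; tauto
  have hmem : ∀ x ∈ T, x = i ∨ x = j ∨ x = k := by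
    intro x hx
    simpa [hT] using hx
  -- invariance
  have hinv : ∀ x ∈ T, ∀ A B, Rel (T.erase x) A B → U x A = U x B := by
    intro x hx A B h
    rcases hmem x hx with rfl | rfl | rfl
    · rw [hT, erase1 hij hik] at h
      rw [Ui]; exact avg_congr_class (Rel.equiv _) f h
    · rw [hT, erase2 hij hjk] at h
      rw [Uj]; exact avg_congr_class (Rel.equiv _) f h
    · rw [hT, erase3 hik hjk] at h
      rw [Uk]; exact avg_congr_class (Rel.equiv _) f h
  -- eigen-equations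
  have eigi : ∀ M, (μ - 1) * U i M = avg (Rel {j, k}) (U j + U k) M :=
    eig_of f (U i) (U j) (U k) μ Ui (by rw [Ui, Uj, Uk, ← hf]; abel)
  have eigj : ∀ M, (μ - 1) * U j M = avg (Rel {i, k}) (U i + U k) M :=
    eig_of f (U j) (U i) (U k) μ Uj (by rw [Ui, Uj, Uk, ← hf]; abel)
  have eigk : ∀ M, (μ - 1) * U k M = avg (Rel {i, j}) (U i + U j) M :=
    eig_of f (U k) (U i) (U j) μ Uk (by rw [Ui, Uj, Uk, ← hf]; abel)
  -- same type exchanges
  have H0 : Lip0 T U 0 := by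
    have key := max_principle (Z := ι × γ × γ × Mat ι γ × Mat ι γ)
      (fun z => z.1 ∈ T ∧ Ex T z.1 z.2.1 z.2.2.1 z.2.2.2.1 z.2.2.2.2 ∧
        cs T z.2.2.2.1 z.2.1 = cs T z.2.2.2.1 z.2.2.1)
      (fun z => |U z.1 z.2.2.2.1 - U z.1 z.2.2.2.2|) (μ - 1) hν (fun _ => abs_nonneg _) ?_
    · intro x hx c c' M M' hE hcs
      exact key (x, c, c', M, M') ⟨hx, hE, hcs⟩
    · intro C hC
      have hL : Lip0 T U C := fun x hx c c' M M' hE hcs => hC (x, c, c', M, M') ⟨hx, hE, hcs⟩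
      rintro ⟨x, c, c', M, M'⟩ ⟨hx, hE, hcs⟩
      simp only at hx hE hcs ⊢
      rw [← abs_of_nonneg hν0, ← abs_mul]
      rcases hmem x hx with rfl | rfl | rfl
      · exact contr0T hT hij hik hjk U (μ - 1) C hinv eigi hL hE hcs
      · exact contr0T hTj hij.symm hjk hik U (μ - 1) C hinv eigj hL hE hcs
      · exact contr0T hTk hik.symm hjk.symm hij U (μ - 1) C hinv eigk hL hE hcs
  -- cross type exchanges
  have HX : LipX T U 0 := by
    have key := max_principle (Z := ι × γ × γ × Mat ι γ × Mat ι γ)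
      (fun z => z.1 ∈ T ∧ Ex T z.1 z.2.1 z.2.2.1 z.2.2.2.1 z.2.2.2.2 ∧
        cs T z.2.2.2.1 z.2.1 = 1 ∧ cs T z.2.2.2.1 z.2.2.1 = 2)
      (fun z => |U z.1 z.2.2.2.1 - U z.1 z.2.2.2.2|) (μ - 1) hν (fun _ => abs_nonneg _) ?_
    · intro x hx c c' M M' hE h1 h2
      exact key (x, c, c', M, M') ⟨hx, hE, h1, h2⟩
    · intro C hC
      have hL : LipX T U C := fun x hx c c' M M' hE h1 h2 => hC (x, c, c', M, M') ⟨hx, hE, h1, h2⟩
      rintro ⟨x, c, c', M, M'⟩ ⟨hx, hE, h1, h2⟩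
      simp only at hx hE h1 h2 ⊢
      rw [← abs_of_nonneg hν0, ← abs_mul]
      rcases hmem x hx with rfl | rfl | rfl
      · exact contrXT hT hij hik hjk U (μ - 1) C hinv eigi H0 hL hE h1 h2
      · exact contrXT hTj hij.symm hjk hik U (μ - 1) C hinv eigj H0 hL hE h1 h2
      · exact contrXT hTk hik.symm hjk.symm hij U (μ - 1) C hinv eigk H0 hL hE h1 h2
  -- all exchanges
  have HE : ∀ x ∈ T, ∀ (c c' : γ) (M M' : Mat ι γ), Ex T x c c' M M' → U x M = U x M' := by
    intro x hx c c' M M' hE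
    have hE' := hE.symm
    have e1 := cs_rel hE.1 c
    have e2 := cs_rel hE.1 c'
    have hrange : 1 ≤ cs T M c ∧ cs T M c ≤ 2 ∧ 1 ≤ cs T M c' ∧ cs T M c' ≤ 2 := by
      rw [e2]
      refine ⟨?_, ?_, ?_, ?_⟩
      · rw [hT, cs3 hij hik hjk]
        rcases hmem x hx with rfl | rfl | rfl
        · rw [ind_mem hE.2.1]; omega
        · rw [ind_mem hE.2.1]; omega
        · rw [ind_mem hE.2.1]; omega
      · rw [e1, hT, cs3 hij hik hjk]
        have b1 := ind_le_one (M' i) c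
        have b2 := ind_le_one (M' j) c
        have b3 := ind_le_one (M' k) c
        rcases hmem x hx with rfl | rfl | rfl
        · rw [ind_not_mem hE'.2.2.1]; omega
        · rw [ind_not_mem hE'.2.2.1]; omega
        · rw [ind_not_mem hE'.2.2.1]; omega
      · rw [hT, cs3 hij hik hjk]
        rcases hmem x hx with rfl | rfl | rfl
        · rw [ind_mem hE'.2.1]; omega
        · rw [ind_mem hE'.2.1]; omega
        · rw [ind_mem hE'.2.1]; omega
      · rw [← e2, hT, cs3 hij hik hjk]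
        have b1 := ind_le_one (M i) c'
        have b2 := ind_le_one (M j) c'
        have b3 := ind_le_one (M k) c'
        rcases hmem x hx with rfl | rfl | rfl
        · rw [ind_not_mem hE.2.2.1]; omega
        · rw [ind_not_mem hE.2.2.1]; omega
        · rw [ind_not_mem hE.2.2.1]; omega
    obtain ⟨r1, r2, r3, r4⟩ := hrange
    by_cases hsame : cs T M c = cs T M c'
    · have := abs_nonpos_iff.1 (H0 x hx c c' M M' hE hsame)
      linarith
    · by_cases h1 : cs T M c = 1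
      · have := abs_nonpos_iff.1 (HX x hx c c' M M' hE h1 (by omega))
        linarith
      · have := abs_nonpos_iff.1 (HX x hx c' c M' M hE' (by omega) (by omega))
        linarith
  -- invariance of `f` under switches inside `T`
  have hμ0 : μ ≠ 0 := by linarith
  have hfU : ∀ M, μ * f M = U k M + U j M + U i M := by
    intro M
    have := congrFun hf M
    simp only [Pi.add_apply, Pi.smul_apply, smul_eq_mul] at this
    rw [Ui, Uj, Uk]; exact this.symm
  have hsw : ∀ x ∈ T, ∀ y ∈ T, ∀ (c c' : γ) (A : Mat ι γ), SwOK A x y c c' →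
      f A = f (sw A x y c c') := by
    intro x hx y hy c c' A hok
    have hxy : x ≠ y := hok.1
    have hrel : Rel T A (sw A x y c c') :=
      Rel.mono (by
        intro a ha
        rcases Finset.mem_insert.1 ha with rfl | ha
        · exact hx
        · rw [Finset.mem_singleton.1 ha]; exact hy) (rel_sw hok)
    have hall : ∀ z ∈ T, U z A = U z (sw A x y c c') := by
      intro z hz
      by_cases hzx : z = x
      · subst hzx
        exact HE z hz c c' A _ ⟨hrel, hok.2.1, hok.2.2.2.2, sw_fst hxy c c'⟩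
      · by_cases hzy : z = y
        · subst hzy
          exact HE z hz c' c A _ ⟨hrel, hok.2.2.2.1, hok.2.2.1, sw_snd A x z c c'⟩
        · exact hinv z hz A _ (rel_erase hz hrel (sw_other A hzx hzy c c').symm)
    have h1 := hfU A
    have h2 := hfU (sw A x y c c')
    rw [hall i (by simp [hT]), hall j (by simp [hT]), hall k (by simp [hT]), ← h2] at h1
    exact mul_left_cancel₀ hμ0 h1
  have hfin : ∀ S : Finset ι, S ⊆ T → avg (Rel S) f = f := by
    intro S hS
    refine avg_of_inv (Rel.equiv S) (fun A B h => ?_)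
    have hc := conn S h
    clear h
    induction hc with
    | refl => rfl
    | tail _ hstep ih =>
      obtain ⟨x, hx, y, hy, c, c', hok, rfl⟩ := hstep
      exact ih.trans (hsw x (hS hx) y (hS hy) c c' _ hok)
  refine ⟨hfin _ ?_, hfin _ ?_, hfin _ ?_⟩
  · intro a; simp only [hT, Finset.mem_insert, Finset.mem_singleton]; tauto
  · intro a; simp only [hT, Finset.mem_insert, Finset.mem_singleton]; tauto
  · intro a; simp only [hT, Finset.mem_insert, Finset.mem_singleton]; tauto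

end Mat

end P335h14
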