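import Vale.Agent.Lib.P335_helper14.AvgApi
import Vale.Agent.Lib.P335_helper14.Spectral
import Vale.Agent.Lib.P335_helper14.Caputo
import Vale.Agent.Lib.P335_helper14.RelApi
import Vale.Agent.Lib.P335_helper14.Conn
import Vale.Agent.Lib.P335_helper14.Comm
import Vale.Agent.Lib.P335_helper14.TwoRow
import Vale.Agent.Lib.P335_helper14.ThreeRow

namespace P335h14

open Finset

section Mat
variable {ι γ : Type*} [Fintype ι] [DecidableEq ι] [Fintype γ] [DecidableEq γ]

/-! ### Module BipMain : assembly -/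

theorem avg_pair_self (i : ι) (f : Mat ι γ → ℝ) : avg (Rel {i, i}) f = f := by
  apply avg_of_inv (Rel.equiv _)
  intro x y h
  rw [Finset.pair_eq_singleton] at h
  rw [rel_singleton h]

/-- `⟨f - E f, f - E f⟩ = ⟨f, f⟩ - ⟨E f, E f⟩` and related identities -/
theorem ip_f_avg {X : Type*} [Fintype X] [DecidableEq X] {r : X → X → Prop} [DecidableRel r]
    (hr : Equivalence r) (f : X → ℝ) : ip f (avg r f) = ip (avg r f) (avg r f) := by
  rw [ip_comm, ip_avg_self hr]

theorem tri_nonneg {i j k : ι} (hij : i ≠ j) (hik : i ≠ k) (hjk : j ≠ k) (f : Mat ι γ → ℝ) :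
    0 ≤ ip (f - avg (Rel {i, j}) f) (f - avg (Rel {i, k}) f)
      + ip (f - avg (Rel {i, j}) f) (f - avg (Rel {j, k}) f)
      + ip (f - avg (Rel {i, k}) f) (f - avg (Rel {j, k}) f) := by
  set K : (Mat ι γ → ℝ) →ₗ[ℝ] (Mat ι γ → ℝ) :=
    avgL (Rel {i, j}) + avgL (Rel {i, k}) + avgL (Rel {j, k}) with hK
  have hKap : ∀ g, K g = avg (Rel {i, j}) g + avg (Rel {i, k}) g + avg (Rel {j, k}) g := by
    intro g; rfl
  have hKs : ∀ g h, ip (K g) h = ip g (K h) := by
    intro g h
    rw [hKap, hKap]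
    simp only [ip_add_left, ip_add_right, ip_avg_left (Rel.equiv _)]
  have heig : ∀ (μ : ℝ) (g : Mat ι γ → ℝ), g ≠ 0 → K g = μ • g → 0 ≤ 1 * μ ^ 2 + (-5) * μ + 6 := by
    intro μ g hg hKg
    by_cases hμ : 2 < μ
    · rw [hKap] at hKg
      obtain ⟨h1, h2, h3⟩ := three_row hij hik hjk g μ hμ hKg
      rw [h1, h2, h3] at hKg
      have h4 : (3 - μ) • g = 0 := by
        rw [sub_smul, ← hKg]
        ext x
        simp only [Pi.sub_apply, Pi.smul_apply, Pi.add_apply, smul_eq_mul, Pi.zero_apply]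
        ring
      rcases smul_eq_zero.mp h4 with h5 | h5
      · have : μ = 3 := by linarith
        rw [this]; norm_num
      · exact absurd h5 hg
    · have h2 : μ ≤ 2 := not_lt.mp hμ
      nlinarith
  have hq := quad_nonneg_of_eigen K hKs 1 (-5) 6 heig f
  rw [hKap] at hq
  simp only [ip_add_left, ip_add_right, ip_sub_left, ip_sub_right] at hq ⊢
  have a1 := ip_f_avg (Rel.equiv ({i, j} : Finset ι) (γ := γ)) f
  have a2 := ip_f_avg (Rel.equiv ({i, k} : Finset ι) (γ := γ)) f
  have a3 := ip_f_avg (Rel.equiv ({j, k} : Finset ι) (γ := γ)) f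
  have b1 := ip_avg_self (Rel.equiv ({i, j} : Finset ι) (γ := γ)) f
  have b2 := ip_avg_self (Rel.equiv ({i, k} : Finset ι) (γ := γ)) f
  have b3 := ip_avg_self (Rel.equiv ({j, k} : Finset ι) (γ := γ)) f
  have c1 := ip_comm (avg (Rel {i, k}) f) (avg (Rel {i, j}) f)
  have c2 := ip_comm (avg (Rel {j, k}) f) (avg (Rel {i, j}) f)
  have c3 := ip_comm (avg (Rel {j, k}) f) (avg (Rel {i, k}) f)
  linarith

/-- the operator `∑ i j, (1 - E_{ij})` -/
noncomputable def Aop : (Mat ι γ → ℝ) →ₗ[ℝ] (Mat ι γ → ℝ) :=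
  ∑ i : ι, ∑ j : ι, (LinearMap.id - avgL (Rel {i, j}))

theorem Aop_apply (f : Mat ι γ → ℝ) : Aop f = ∑ i : ι, ∑ j : ι, (f - avg (Rel {i, j}) f) := by
  unfold Aop
  simp only [LinearMap.sum_apply, LinearMap.sub_apply, LinearMap.id_apply, avgL_apply]

theorem ip_D_self (T : Finset ι) (f : Mat ι γ → ℝ) :
    ip (f - avg (Rel T) f) f = ip (f - avg (Rel T) f) (f - avg (Rel T) f) := by
  have a1 := ip_f_avg (Rel.equiv T (γ := γ)) f
  have b1 := ip_avg_self (Rel.equiv T (γ := γ)) f
  simp only [ip_sub_left, ip_sub_right]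
  linarith

theorem ip_Aop_self (f : Mat ι γ → ℝ) :
    ip (Aop f) f = ∑ i : ι, ∑ j : ι, ip (f - avg (Rel {i, j}) f) (f - avg (Rel {i, j}) f) := by
  rw [Aop_apply, ip_sum_left]
  apply Finset.sum_congr rfl
  intro i _
  rw [ip_sum_left]
  apply Finset.sum_congr rfl
  intro j _
  exact ip_D_self _ f

theorem Aop_symm (f g : Mat ι γ → ℝ) : ip (Aop f) g = ip f (Aop g) := by
  rw [Aop_apply, Aop_apply, ip_sum_left, ip_sum_right]
  apply Finset.sum_congr rfl
  intro i _
  rw [ip_sum_left, ip_sum_right]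
  apply Finset.sum_congr rfl
  intro j _
  rw [ip_sub_left, ip_sub_right, ip_avg_left (Rel.equiv _)]

theorem caputo_Aop (f : Mat ι γ → ℝ) : 2 * ip (Aop f) f ≤ ip (Aop f) (Aop f) := by
  have h := caputo_comb (fun i j : ι => f - avg (Rel {i, j}) f)
    (fun i j => by
      show f - avg (Rel {i, j}) f = f - avg (Rel {j, i}) f
      rw [Finset.pair_comm])
    (fun i => by
      show f - avg (Rel {i, i}) f = 0
      rw [avg_pair_self, sub_self])
    (fun i j k l _ _ hik hil hjk hjl => by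
      apply ip_compl_nonneg_of_comm (Rel.equiv _) (Rel.equiv _)
      intro g
      apply avg_comm_of_disjoint
      rw [Finset.disjoint_left]
      intro a ha hb
      simp only [Finset.mem_insert, Finset.mem_singleton] at ha hb
      rcases ha with rfl | rfl <;> rcases hb with rfl | rfl <;> simp_all)
    (fun i j k hij hik hjk => by
      have := tri_nonneg hij hik hjk f
      have e1 : ({j, i} : Finset ι) = {i, j} := Finset.pair_comm _ _
      have e2 : ({k, i} : Finset ι) = {i, k} := Finset.pair_comm _ _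
      have e3 : ({k, j} : Finset ι) = {j, k} := Finset.pair_comm _ _
      show 0 ≤ ip (f - avg (Rel {i, j}) f) (f - avg (Rel {i, k}) f)
        + ip (f - avg (Rel {j, i}) f) (f - avg (Rel {j, k}) f)
        + ip (f - avg (Rel {k, i}) f) (f - avg (Rel {k, j}) f)
      rw [e1, e2, e3]
      linarith)
  rw [ip_Aop_self, Aop_apply]
  exact h

theorem Aop_eigen (μ : ℝ) (e : Mat ι γ → ℝ) (he : e ≠ 0) (h : Aop e = μ • e) : μ = 0 ∨ 2 ≤ μ := by
  have h1 := caputo_Aop e
  have h2 : 0 ≤ ip (Aop e) e := by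
    rw [ip_Aop_self]
    exact Finset.sum_nonneg (fun i _ => Finset.sum_nonneg (fun j _ => ip_self_nonneg _))
  rw [h] at h1 h2
  simp only [ip_smul_left, ip_smul_right] at h1 h2
  have hpos : 0 < ip e e := by
    rcases (ip_self_nonneg e).lt_or_eq with h3 | h3
    · exact h3
    · exact absurd (ip_self_eq_zero h3.symm) he
  have hμ0 : 0 ≤ μ := by
    by_contra hneg
    have hneg' : μ < 0 := not_le.mp hneg
    nlinarith
  by_cases hz : μ = 0
  · left; exact hz
  · right
    have hμpos : 0 < μ := lt_of_le_of_ne hμ0 (Ne.symm hz)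
    have h4 : 2 * (μ * ip e e) ≤ μ * (μ * ip e e) := h1
    have h5 : 0 < μ * ip e e := mul_pos hμpos hpos
    by_contra hlt
    have hlt' : μ < 2 := not_le.mp hlt
    nlinarith

theorem inv_of_Aop_zero (h : Mat ι γ → ℝ) (hA : Aop h = 0) : avg (Rel univ) h = h := by
  have h1 : ∑ i : ι, ∑ j : ι, ip (h - avg (Rel {i, j}) h) (h - avg (Rel {i, j}) h) = 0 := by
    rw [← ip_Aop_self, hA, ip_zero_left]
  have h2 : ∀ i j : ι, avg (Rel {i, j}) h = h := by
    intro i j
    have h3 := (Finset.sum_eq_zero_iff_of_nonneg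
      (fun i _ => Finset.sum_nonneg (fun j _ => ip_self_nonneg _))).mp h1 i (Finset.mem_univ i)
    have h4 := (Finset.sum_eq_zero_iff_of_nonneg (fun j _ => ip_self_nonneg _)).mp h3 j
      (Finset.mem_univ j)
    have h5 := ip_self_eq_zero h4
    exact (sub_eq_zero.mp h5).symm
  apply avg_of_inv (Rel.equiv _)
  intro M N hMN
  have hc := conn univ hMN
  clear hMN
  induction hc with
  | refl => rfl
  | tail _ hstep ih =>
    obtain ⟨i, _, j, _, c, c', hok, rfl⟩ := hstep
    rw [ih]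
    exact inv_of_avg_eq (Rel.equiv _) (h2 i j) _ _ (rel_sw hok)

theorem dir2_nonneg (i j : ι) (f : Mat ι γ → ℝ) : 0 ≤ dir2 i j f := by
  unfold dir2
  apply Finset.sum_nonneg; intro M _
  apply Finset.sum_nonneg; intro c _
  apply Finset.sum_nonneg; intro c' _
  split_ifs
  · exact sq_nonneg _
  · exact le_refl _

theorem bip_poincare (f : Mat ι γ → ℝ) :
    8 * ip (f - avg (Rel univ) f) (f - avg (Rel univ) f) ≤ dir f := by
  set g := f - avg (Rel univ) f with hg
  have hgap := gap_of_eigen Aop Aop_symm 2 Aop_eigen g (by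
    intro h hA
    have h1 := inv_of_Aop_zero h hA
    rw [hg, ip_sub_left, ip_avg_left (Rel.equiv _), h1, sub_self])
  rw [ip_Aop_self] at hgap
  have h2 : ∀ i j : ι, g - avg (Rel {i, j}) g = f - avg (Rel {i, j}) f := by
    intro i j
    have h3 := (avg_avg_of_le (Rel.equiv ({i, j} : Finset ι) (γ := γ)) (Rel.equiv univ)
      (fun x y hxy => Rel.mono (Finset.subset_univ _) hxy) f).2
    rw [hg, avg_sub, h3]
    abel
  have h4 : ∀ i j : ι, 4 * ip (g - avg (Rel {i, j}) g) (g - avg (Rel {i, j}) g) ≤ dir2 i j f := by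
    intro i j
    rw [h2]
    by_cases hij : i = j
    · subst hij
      rw [avg_pair_self, sub_self, ip_zero_left, mul_zero]
      exact dir2_nonneg _ _ _
    · exact two_row hij f
  have h5 : 4 * ∑ i : ι, ∑ j : ι, ip (g - avg (Rel {i, j}) g) (g - avg (Rel {i, j}) g) ≤ dir f := by
    unfold dir
    rw [Finset.mul_sum]
    apply Finset.sum_le_sum
    intro i _
    rw [Finset.mul_sum]
    apply Finset.sum_le_sum
    intro j _
    exact h4 i j
  linarith

end Mat

end P335h14
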