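import Mathlib

namespace P335h14

open Finset

/-! ### Module Mixing : generic L^2 mixing bound for lazy symmetric chains -/
section Mixing
variable {Ω : Type*} [Fintype Ω] [DecidableEq Ω]

omit [DecidableEq Ω] in
theorem mix_jensen (Q : Matrix Ω Ω ℝ) (hsymm : ∀ x y, Q x y = Q y x) (hnn : ∀ x y, 0 ≤ Q x y)
    (hst : ∀ x, ∑ y, Q x y = 1) (f : Ω → ℝ) :
    ∑ x, (∑ y, Q x y * f y) ^ 2 ≤ ∑ y, f y ^ 2 := by
  have h1 : ∀ x, (∑ y, Q x y * f y) ^ 2 ≤ ∑ y, Q x y * f y ^ 2 := by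
    intro x
    have := Finset.sum_sq_le_sum_mul_sum_of_sq_le_mul (s := univ) (r := fun y => Q x y * f y)
      (f := fun y => Q x y) (g := fun y => Q x y * f y ^ 2) (fun y _ => hnn x y)
      (fun y _ => mul_nonneg (hnn x y) (sq_nonneg _)) (fun y _ => le_of_eq (by ring))
    rw [hst x, one_mul] at this
    exact this
  calc ∑ x, (∑ y, Q x y * f y) ^ 2 ≤ ∑ x, ∑ y, Q x y * f y ^ 2 := Finset.sum_le_sum (fun x _ => h1 x)
    _ = ∑ y, ∑ x, Q x y * f y ^ 2 := Finset.sum_comm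
    _ = ∑ y, f y ^ 2 := by
        apply Finset.sum_congr rfl
        intro y _
        rw [← Finset.sum_mul]
        have : ∑ x, Q x y = 1 := by
          rw [← hst y]
          exact Finset.sum_congr rfl (fun x _ => hsymm x y)
        rw [this, one_mul]

omit [DecidableEq Ω] in
theorem mix_energy (Q : Matrix Ω Ω ℝ) (hsymm : ∀ x y, Q x y = Q y x)
    (hst : ∀ x, ∑ y, Q x y = 1) (f : Ω → ℝ) :
    ∑ x, ∑ y, Q x y * (f x - f y) ^ 2 = 2 * ∑ x, f x ^ 2 - 2 * ∑ x, f x * ∑ y, Q x y * f y := by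
  have hcol : ∀ y, ∑ x, Q x y = 1 := by
    intro y
    rw [← hst y]
    exact Finset.sum_congr rfl (fun x _ => hsymm x y)
  have h1 : ∀ x y, Q x y * (f x - f y) ^ 2
      = Q x y * f x ^ 2 + Q x y * f y ^ 2 - 2 * (f x * (Q x y * f y)) := by
    intro x y; ring
  simp only [h1, Finset.sum_sub_distrib, Finset.sum_add_distrib]
  have h2 : ∑ x, ∑ y, Q x y * f x ^ 2 = ∑ x, f x ^ 2 := by
    apply Finset.sum_congr rfl
    intro x _
    rw [← Finset.sum_mul, hst x, one_mul]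
  have h3 : ∑ x, ∑ y, Q x y * f y ^ 2 = ∑ y, f y ^ 2 := by
    rw [Finset.sum_comm]
    apply Finset.sum_congr rfl
    intro y _
    rw [← Finset.sum_mul, hcol y, one_mul]
  have h4 : ∑ x, ∑ y, 2 * (f x * (Q x y * f y)) = 2 * ∑ x, f x * ∑ y, Q x y * f y := by
    rw [Finset.mul_sum]
    apply Finset.sum_congr rfl
    intro x _
    rw [← Finset.mul_sum, ← Finset.mul_sum]
  rw [h2, h3, h4]
  ring

omit [DecidableEq Ω] in
/-- one step of the lazy chain contracts the `L^2` norm of mean zero functions -/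
theorem mix_step (Q : Matrix Ω Ω ℝ) (hsymm : ∀ x y, Q x y = Q y x) (hnn : ∀ x y, 0 ≤ Q x y)
    (hst : ∀ x, ∑ y, Q x y = 1) (κ : ℝ) (hκ : 1 ≤ κ)
    (hP : ∀ f : Ω → ℝ, ∑ x, f x = 0 →
      ∑ x, f x ^ 2 ≤ κ * ((1 / 4) * ∑ x, ∑ y, Q x y * (f x - f y) ^ 2))
    (f : Ω → ℝ) (hf : ∑ x, f x = 0) :
    ∑ x, ((1 / 2) * f x + (1 / 2) * ∑ y, Q x y * f y) ^ 2 ≤ (1 - 1 / κ) * ∑ x, f x ^ 2 := by
  have hj := mix_jensen Q hsymm hnn hst f
  have he := mix_energy Q hsymm hst f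
  have hp := hP f hf
  have hκ0 : 0 < κ := by linarith
  have hexp : ∑ x, ((1 / 2) * f x + (1 / 2) * ∑ y, Q x y * f y) ^ 2
      = (1 / 4) * ∑ x, f x ^ 2 + (1 / 2) * ∑ x, f x * ∑ y, Q x y * f y
        + (1 / 4) * ∑ x, (∑ y, Q x y * f y) ^ 2 := by
    rw [Finset.mul_sum, Finset.mul_sum, Finset.mul_sum, ← Finset.sum_add_distrib,
      ← Finset.sum_add_distrib]
    apply Finset.sum_congr rfl
    intro x _
    ring
  rw [hexp]
  set A := ∑ x, f x ^ 2
  set B := ∑ x, f x * ∑ y, Q x y * f y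
  set C := ∑ x, (∑ y, Q x y * f y) ^ 2
  set E := ∑ x, ∑ y, Q x y * (f x - f y) ^ 2
  have h5 : A / κ ≤ (1 / 4) * E := by
    rw [div_le_iff₀ hκ0]
    linarith
  have h6 : (1 - 1 / κ) * A = A - A / κ := by ring
  rw [h6]
  linarith

/-- `P = (1+Q)/2`, `Q` symmetric stochastic, Poincare inequality with constant `κ`
(`Var f ≤ κ * (1/2) ∑∑ P x y (f x - f y)^2`, counting measure)  ⟹  TV bound. -/
theorem mixing_of_poincare (Q : Matrix Ω Ω ℝ) (hsymm : ∀ x y, Q x y = Q y x) (hnn : ∀ x y, 0 ≤ Q x y)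
    (hst : ∀ x, ∑ y, Q x y = 1) (κ : ℝ) (hκ : 1 ≤ κ)
    (hP : ∀ f : Ω → ℝ, ∑ x, f x = 0 →
      ∑ x, f x ^ 2 ≤ κ * ((1 / 4) * ∑ x, ∑ y, Q x y * (f x - f y) ^ 2))
    (t : ℕ) (ht : (Fintype.card Ω : ℝ) * (1 - 1 / κ) ^ t ≤ 1 / 4) (x : Ω) :
    (1 / 2) * ∑ y, |(((1 / 2 : ℝ) • (1 + Q)) ^ t) x y - 1 / (Fintype.card Ω : ℝ)| ≤ 1 / 4 := by
  classical
  set N : ℝ := (Fintype.card Ω : ℝ) with hN
  have hNpos : 0 < N := by
    have : 0 < Fintype.card Ω := Fintype.card_pos_iff.mpr ⟨x⟩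
    rw [hN]
    exact_mod_cast this
  set P : Matrix Ω Ω ℝ := (1 / 2 : ℝ) • (1 + Q) with hPdef
  set h : ℕ → Ω → ℝ := fun s y => (P ^ s) x y - 1 / N with hh
  have hcol : ∀ y, ∑ z, Q z y = 1 := by
    intro y
    rw [← hst y]
    exact Finset.sum_congr rfl (fun z _ => hsymm z y)
  have hstep : ∀ s y, h (s + 1) y = (1 / 2) * h s y + (1 / 2) * ∑ z, Q y z * h s z := by
    intro s y
    simp only [hh]
    rw [pow_succ, Matrix.mul_apply]
    have h1 : ∀ z, (P ^ s) x z * P z y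
        = (1 / 2) * ((P ^ s) x z * (if z = y then 1 else 0)) + (1 / 2) * ((P ^ s) x z * Q z y) := by
      intro z
      simp only [hPdef, Matrix.smul_apply, Matrix.add_apply, Matrix.one_apply, smul_eq_mul]
      ring
    simp only [h1, Finset.sum_add_distrib, ← Finset.mul_sum]
    have h2 : ∑ z, (P ^ s) x z * (if z = y then (1 : ℝ) else 0) = (P ^ s) x y := by
      simp
    have h3 : ∑ z, Q y z * ((P ^ s) x z - 1 / N) = ∑ z, (P ^ s) x z * Q z y - 1 / N := by
      have : ∀ z, Q y z * ((P ^ s) x z - 1 / N) = (P ^ s) x z * Q z y - Q y z * (1 / N) := by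
        intro z
        rw [hsymm y z]; ring
      simp only [this, Finset.sum_sub_distrib, ← Finset.sum_mul, hst y, one_mul]
    rw [h2, h3]
    ring
  have hsum : ∀ s, ∑ y, h s y = 0 := by
    intro s
    induction s with
    | zero =>
      simp only [hh, pow_zero, Matrix.one_apply, Finset.sum_sub_distrib]
      simp only [Finset.sum_ite_eq, Finset.mem_univ, if_true, Finset.sum_const, Finset.card_univ,
        nsmul_eq_mul]
      rw [← hN]
      field_simp
      ring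
    | succ s ih =>
      simp only [hstep, Finset.sum_add_distrib, ← Finset.mul_sum]
      rw [ih, Finset.sum_comm]
      have : ∑ z, ∑ y, Q y z * h s z = ∑ z, h s z := by
        apply Finset.sum_congr rfl
        intro z _
        rw [← Finset.sum_mul, hcol z, one_mul]
      rw [this, ih]
      ring
  have hκ0 : 0 < κ := by linarith
  have hr : 0 ≤ 1 - 1 / κ := by
    have : 1 / κ ≤ 1 := by
      rw [div_le_one hκ0]; exact hκ
    linarith
  have hnorm : ∀ s, ∑ y, h s y ^ 2 ≤ (1 - 1 / κ) ^ s := by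
    intro s
    induction s with
    | zero =>
      simp only [pow_zero]
      have h1 : ∀ y, h 0 y ^ 2 = (if x = y then 1 else 0) * (1 - 2 / N) + 1 / N ^ 2 := by
        intro y
        simp only [hh, pow_zero, Matrix.one_apply]
        split_ifs <;> ring
      simp only [h1, Finset.sum_add_distrib, ← Finset.sum_mul]
      simp only [Finset.sum_ite_eq, Finset.mem_univ, if_true, Finset.sum_const, Finset.card_univ,
        nsmul_eq_mul]
      rw [← hN]
      have : N * (1 / N ^ 2) = 1 / N := by field_simp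
      rw [this]
      have : 0 < 1 / N := by positivity
      have h2 : 2 / N = 2 * (1 / N) := by ring
      rw [h2]
      linarith
    | succ s ih =>
      have := mix_step Q hsymm hnn hst κ hκ hP (h s) (hsum s)
      calc ∑ y, h (s + 1) y ^ 2 = ∑ y, ((1 / 2) * h s y + (1 / 2) * ∑ z, Q y z * h s z) ^ 2 := by
            apply Finset.sum_congr rfl
            intro y _
            rw [hstep]
        _ ≤ (1 - 1 / κ) * ∑ y, h s y ^ 2 := this
        _ ≤ (1 - 1 / κ) * (1 - 1 / κ) ^ s := mul_le_mul_of_nonneg_left ih hr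
        _ = (1 - 1 / κ) ^ (s + 1) := by ring
  -- Cauchy-Schwarz
  have hcs : (∑ y, |h t y|) ^ 2 ≤ N * ∑ y, h t y ^ 2 := by
    have := sq_sum_le_card_mul_sum_sq (s := (univ : Finset Ω)) (f := fun y => |h t y|)
    simp only [sq_abs, Finset.card_univ] at this
    exact this
  have h7 : (∑ y, |h t y|) ^ 2 ≤ (1 / 2) ^ 2 := by
    calc (∑ y, |h t y|) ^ 2 ≤ N * ∑ y, h t y ^ 2 := hcs
      _ ≤ N * (1 - 1 / κ) ^ t := mul_le_mul_of_nonneg_left (hnorm t) hNpos.le
      _ ≤ 1 / 4 := ht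
      _ = (1 / 2) ^ 2 := by norm_num
  have h8 : ∑ y, |h t y| ≤ 1 / 2 := by
    have h9 : 0 ≤ ∑ y, |h t y| := Finset.sum_nonneg (fun y _ => abs_nonneg _)
    exact abs_le_of_sq_le_sq' h7 (by norm_num) |>.2
  have h10 : ∑ y, |(P ^ t) x y - 1 / N| = ∑ y, |h t y| := rfl
  rw [h10]
  linarith

end Mixing


end P335h14
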