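import Vale.Agent.Lib.P335_helper14.Defs
import Vale.Agent.Lib.P335_helper14.Mixing

namespace P335h14

open Finset

/-! ### Module Chain : the switch chain is lazy, symmetric, stochastic; Dirichlet form in terms of moves -/
section Chain
variable {n : ℕ}

theorem pm_partner {S : Finset (Fin n)} {F : Finset (Sym2 (Fin n))} (h : IsPM S F) {v : Fin n}
    (hv : v ∈ S) : ∃ w, w ≠ v ∧ w ∈ S ∧ s(v, w) ∈ F ∧ ∀ x, s(v, x) ∈ F → x = w := by
  obtain ⟨e, ⟨heF, hve⟩, huniq⟩ := h.2 v hv
  obtain ⟨w, rfl⟩ := hve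
  refine ⟨w, ?_, ?_, heF, ?_⟩
  · intro hw
    apply (h.1 _ heF).1
    rw [Sym2.mk_isDiag_iff]
    exact hw.symm
  · exact (h.1 _ heF).2 w (Sym2.mem_mk_right v w)
  · intro x hx
    have := huniq s(v, x) ⟨hx, Sym2.mem_mk_left v x⟩
    exact Sym2.congr_right.mp this

theorem pm_not_mem {S : Finset (Fin n)} {F : Finset (Sym2 (Fin n))} (h : IsPM S F) {v : Fin n}
    (hv : v ∉ S) (x : Fin n) : s(v, x) ∉ F := fun hx => hv ((h.1 _ hx).2 v (Sym2.mem_mk_left v x))

theorem applyMove_adj (G : SimpleGraph (Fin n)) (F F' : Finset (Sym2 (Fin n)))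
    (h : (∀ e ∈ F, e ∈ G.edgeSet) ∧ (∀ e ∈ F', e ∉ G.edgeSet)) (u v : Fin n) :
    (applyMove G F F').Adj u v ↔ (G.Adj u v ∧ s(u, v) ∉ F) ∨ (s(u, v) ∈ F' ∧ u ≠ v) := by
  unfold applyMove
  rw [if_pos h]
  simp only [SimpleGraph.sup_adj, SimpleGraph.sdiff_adj, SimpleGraph.fromEdgeSet_adj, Finset.mem_coe]
  constructor
  · rintro (⟨h1, h2⟩ | h1)
    · left
      exact ⟨h1, fun h3 => h2 ⟨h3, h1.ne⟩⟩
    · right; exact h1
  · rintro (⟨h1, h2⟩ | h1)
    · left
      exact ⟨h1, fun h3 => h2 h3.1⟩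
    · right; exact h1

theorem applyMove_degree (d : Fin n → ℕ) (G : Omega d) {S : Finset (Fin n)}
    {p : Finset (Sym2 (Fin n)) × Finset (Sym2 (Fin n))} (hp : p ∈ pmPairs S) :
    ∀ v, ((applyMove G.1 p.1 p.2).neighborSet v).ncard = d v := by
  classical
  intro v
  obtain ⟨F, F'⟩ := p
  simp only [pmPairs, Finset.mem_filter, Finset.mem_univ, true_and] at hp
  obtain ⟨hF, hF', -⟩ := hp
  by_cases h : (∀ e ∈ F, e ∈ G.1.edgeSet) ∧ (∀ e ∈ F', e ∉ G.1.edgeSet)
  · rw [← G.2 v]
    by_cases hv : v ∈ S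
    · obtain ⟨w, hwv, -, hwF, hwu⟩ := pm_partner hF hv
      obtain ⟨w', hwv', -, hwF', hwu'⟩ := pm_partner hF' hv
      have hw : w ∈ G.1.neighborSet v := by
        have := h.1 _ hwF
        simpa using this
      have hw' : w' ∉ G.1.neighborSet v := by
        have := h.2 _ hwF'
        simpa using this
      have hset : (applyMove G.1 F F').neighborSet v = insert w' (G.1.neighborSet v \ {w}) := by
        ext x
        simp only [SimpleGraph.mem_neighborSet, applyMove_adj G.1 F F' h, Set.mem_insert_iff,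
          Set.mem_sdiff, Set.mem_singleton_iff]
        constructor
        · rintro (⟨h1, h2⟩ | ⟨h1, _⟩)
          · right
            refine ⟨h1, ?_⟩
            rintro rfl
            exact h2 hwF
          · left; exact hwu' x h1
        · rintro (rfl | ⟨h1, h2⟩)
          · right; exact ⟨hwF', hwv'.symm⟩
          · left; exact ⟨h1, fun h3 => h2 (hwu x h3)⟩
      rw [hset, Set.ncard_insert_of_notMem (fun h1 => hw' h1.1) (Set.toFinite _),
        Set.ncard_sdiff_singleton_of_mem hw]
      have : 0 < (G.1.neighborSet v).ncard := (Set.ncard_pos (Set.toFinite _)).mpr ⟨w, hw⟩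
      omega
    · congr 1
      ext x
      simp only [SimpleGraph.mem_neighborSet, applyMove_adj G.1 F F' h]
      constructor
      · rintro (⟨h1, _⟩ | ⟨h1, _⟩)
        · exact h1
        · exact absurd h1 (pm_not_mem hF' hv x)
      · intro h1
        left; exact ⟨h1, pm_not_mem hF hv x⟩
  · have : applyMove G.1 F F' = G.1 := by
      unfold applyMove
      rw [if_neg h]
    simp only [this]
    exact G.2 v

theorem pm_of_edge {a x y z : Fin n} (hax : a ≠ x) (hay : a ≠ y) (haz : a ≠ z) (hxy : x ≠ y)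
    (hxz : x ≠ z) (hyz : y ≠ z) {F : Finset (Sym2 (Fin n))} (h : IsPM {a, x, y, z} F)
    (he : s(a, x) ∈ F) : F = {s(a, x), s(y, z)} := by
  have ha : a ∈ ({a, x, y, z} : Finset (Fin n)) := by simp
  have hx : x ∈ ({a, x, y, z} : Finset (Fin n)) := by simp
  have hy : y ∈ ({a, x, y, z} : Finset (Fin n)) := by simp
  have hz : z ∈ ({a, x, y, z} : Finset (Fin n)) := by simp
  obtain ⟨wa, -, -, -, hua⟩ := pm_partner h ha
  obtain ⟨wx, -, -, -, hux⟩ := pm_partner h hx
  obtain ⟨wy, hwy, hwyS, hwyF, huy⟩ := pm_partner h hy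
  obtain ⟨wz, -, -, -, huz⟩ := pm_partner h hz
  have hwa : wa = x := (hua x he).symm
  have hwx : wx = a := by
    have : s(x, a) ∈ F := by rw [Sym2.eq_swap]; exact he
    exact (hux a this).symm
  have hwyz : wy = z := by
    simp only [Finset.mem_insert, Finset.mem_singleton] at hwyS
    rcases hwyS with rfl | rfl | rfl | rfl
    · exfalso
      have : s(wy, y) ∈ F := by rw [Sym2.eq_swap]; exact hwyF
      have := hua y this
      rw [hwa] at this
      exact hxy this.symm
    · exfalso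
      have : s(wy, y) ∈ F := by rw [Sym2.eq_swap]; exact hwyF
      have := hux y this
      rw [hwx] at this
      exact hay this.symm
    · exact absurd rfl hwy
    · rfl
  subst hwyz
  have hwz : wz = y := by
    have : s(wy, y) ∈ F := by rw [Sym2.eq_swap]; exact hwyF
    exact (huz y this).symm
  ext e
  simp only [Finset.mem_insert, Finset.mem_singleton]
  constructor
  · intro heF
    induction e using Sym2.ind with
    | _ u v =>
      have huS := (h.1 _ heF).2 u (Sym2.mem_mk_left u v)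
      simp only [Finset.mem_insert, Finset.mem_singleton] at huS
      rcases huS with rfl | rfl | rfl | rfl
      · left; rw [hua v heF, hwa]
      · left; rw [hux v heF, hwx, Sym2.eq_swap]
      · right; rw [huy v heF]
      · right; rw [huz v heF, hwz, Sym2.eq_swap]
  · rintro (rfl | rfl)
    · exact he
    · exact hwyF

theorem isPM_pair {a x y z : Fin n} (hax : a ≠ x) (hay : a ≠ y) (haz : a ≠ z) (hxy : x ≠ y)
    (hxz : x ≠ z) (hyz : y ≠ z) : IsPM {a, x, y, z} {s(a, x), s(y, z)} := by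
  constructor
  · intro e he
    simp only [Finset.mem_insert, Finset.mem_singleton] at he
    rcases he with rfl | rfl
    · refine ⟨by simpa using hax, ?_⟩
      intro v hv
      simp only [Sym2.mem_iff] at hv
      rcases hv with rfl | rfl <;> simp
    · refine ⟨by simpa using hyz, ?_⟩
      intro v hv
      simp only [Sym2.mem_iff] at hv
      rcases hv with rfl | rfl <;> simp
  · intro v hv
    simp only [Finset.mem_insert, Finset.mem_singleton] at hv
    rcases hv with rfl | rfl | rfl | rfl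
    · refine ⟨s(v, x), ⟨by simp, by simp⟩, ?_⟩
      rintro e ⟨he, hve⟩
      simp only [Finset.mem_insert, Finset.mem_singleton] at he
      rcases he with rfl | rfl
      · rfl
      · simp only [Sym2.mem_iff] at hve
        rcases hve with h | h
        · exact absurd h hay
        · exact absurd h haz
    · refine ⟨s(a, v), ⟨by simp, by simp⟩, ?_⟩
      rintro e ⟨he, hve⟩
      simp only [Finset.mem_insert, Finset.mem_singleton] at he
      rcases he with rfl | rfl
      · rfl
      · simp only [Sym2.mem_iff] at hve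
        rcases hve with h | h
        · exact absurd h hxy
        · exact absurd h hxz
    · refine ⟨s(v, z), ⟨by simp, by simp⟩, ?_⟩
      rintro e ⟨he, hve⟩
      simp only [Finset.mem_insert, Finset.mem_singleton] at he
      rcases he with rfl | rfl
      · simp only [Sym2.mem_iff] at hve
        rcases hve with h | h
        · exact absurd h.symm hay
        · exact absurd h.symm hxy
      · rfl
    · refine ⟨s(y, v), ⟨by simp, by simp⟩, ?_⟩
      rintro e ⟨he, hve⟩
      simp only [Finset.mem_insert, Finset.mem_singleton] at he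
      rcases he with rfl | rfl
      · simp only [Sym2.mem_iff] at hve
        rcases hve with h | h
        · exact absurd h.symm haz
        · exact absurd h.symm hxz
      · rfl

theorem card_pmPairs {S : Finset (Fin n)} (hS : S.card = 4) : (pmPairs S).card = 6 := by
  classical
  obtain ⟨a, T, haT, rfl, hT⟩ := Finset.card_eq_succ.mp hS
  obtain ⟨b, c, e, hbc, hbe, hce, rfl⟩ := Finset.card_eq_three.mp hT
  simp only [Finset.mem_insert, Finset.mem_singleton, not_or] at haT
  obtain ⟨hab, hac, hae⟩ := haT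
  set M1 : Finset (Sym2 (Fin n)) := {s(a, b), s(c, e)} with hM1
  set M2 : Finset (Sym2 (Fin n)) := {s(a, c), s(b, e)} with hM2
  set M3 : Finset (Sym2 (Fin n)) := {s(a, e), s(b, c)} with hM3
  have hS2 : ({a, b, c, e} : Finset (Fin n)) = {a, c, b, e} := by
    ext x; simp only [Finset.mem_insert, Finset.mem_singleton]; tauto
  have hS3 : ({a, b, c, e} : Finset (Fin n)) = {a, e, b, c} := by
    ext x; simp only [Finset.mem_insert, Finset.mem_singleton]; tauto
  have hchar : ∀ F, IsPM {a, b, c, e} F ↔ F = M1 ∨ F = M2 ∨ F = M3 := by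
    intro F
    constructor
    · intro h
      obtain ⟨w, hwa, hwS, hwF, -⟩ := pm_partner h (show a ∈ ({a, b, c, e} : Finset (Fin n)) by simp)
      simp only [Finset.mem_insert, Finset.mem_singleton] at hwS
      rcases hwS with rfl | rfl | rfl | rfl
      · exact absurd rfl hwa
      · left; exact pm_of_edge hab hac hae hbc hbe hce h hwF
      · right; left
        rw [hS2] at h
        exact pm_of_edge hac hab hae hbc.symm hce hbe h hwF
      · right; right
        rw [hS3] at h
        exact pm_of_edge hae hab hac hbe.symm hce.symm hbc h hwF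
    · rintro (rfl | rfl | rfl)
      · exact isPM_pair hab hac hae hbc hbe hce
      · rw [hS2]; exact isPM_pair hac hab hae hbc.symm hce hbe
      · rw [hS3]; exact isPM_pair hae hab hac hbe.symm hce.symm hbc
  have h12 : M1 ≠ M2 := by
    intro h
    have : s(a, b) ∈ M2 := by rw [← h]; simp [hM1]
    simp only [hM2, Finset.mem_insert, Finset.mem_singleton, Sym2.eq_iff] at this
    rcases this with (⟨_, h⟩ | ⟨h, _⟩) | (⟨h, _⟩ | ⟨h, _⟩)
    · exact hbc h
    · exact hac h
    · exact hab h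
    · exact hae h
  have h13 : M1 ≠ M3 := by
    intro h
    have : s(a, b) ∈ M3 := by rw [← h]; simp [hM1]
    simp only [hM3, Finset.mem_insert, Finset.mem_singleton, Sym2.eq_iff] at this
    rcases this with (⟨_, h⟩ | ⟨h, _⟩) | (⟨h, _⟩ | ⟨h, _⟩)
    · exact hbe h
    · exact hae h
    · exact hab h
    · exact hac h
  have h23 : M2 ≠ M3 := by
    intro h
    have : s(a, c) ∈ M3 := by rw [← h]; simp [hM2]
    simp only [hM3, Finset.mem_insert, Finset.mem_singleton, Sym2.eq_iff] at this
    rcases this with (⟨_, h⟩ | ⟨h, _⟩) | (⟨h, _⟩ | ⟨h, _⟩)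
    · exact hce h
    · exact hae h
    · exact hab h
    · exact hac h
  have hoff : pmPairs ({a, b, c, e} : Finset (Fin n)) = ({M1, M2, M3} : Finset _).offDiag := by
    ext p
    simp only [pmPairs, Finset.mem_filter, Finset.mem_univ, true_and, Finset.mem_offDiag,
      Finset.mem_insert, Finset.mem_singleton, hchar]
  have hins : insert a ({b, c, e} : Finset (Fin n)) = {a, b, c, e} := rfl
  rw [hins, hoff, Finset.offDiag_card]
  have : ({M1, M2, M3} : Finset (Finset (Sym2 (Fin n)))).card = 3 :=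
    Finset.card_eq_three.mpr ⟨M1, M2, M3, h12, h13, h23, rfl⟩
  rw [this]

open Classical in
/-- the move as a map `Omega d → Omega d` -/
noncomputable def mvO (d : Fin n → ℕ) (G : Omega d)
    (p : Finset (Sym2 (Fin n)) × Finset (Sym2 (Fin n))) : Omega d :=
  if h : ∀ v, ((applyMove G.1 p.1 p.2).neighborSet v).ncard = d v then ⟨applyMove G.1 p.1 p.2, h⟩
  else G

theorem mvO_val (d : Fin n → ℕ) (G : Omega d) {S : Finset (Fin n)}
    {p : Finset (Sym2 (Fin n)) × Finset (Sym2 (Fin n))} (hp : p ∈ pmPairs S) :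
    (mvO d G p).1 = applyMove G.1 p.1 p.2 := by
  unfold mvO
  rw [dif_pos (applyMove_degree d G hp)]

theorem switchQ_sum (d : Fin n → ℕ) (G : Omega d) (φ : Omega d → ℝ) :
    ∑ G', switchQ d G G' * φ G' =
      (∑ S ∈ powersetCard 4 (univ : Finset (Fin n)),
        (∑ p ∈ pmPairs S, φ (mvO d G p)) / ((pmPairs S).card : ℝ))
        / ((powersetCard 4 (univ : Finset (Fin n))).card : ℝ) := by
  classical
  unfold switchQ
  simp only [div_mul_eq_mul_div, Finset.sum_mul]
  rw [← Finset.sum_div]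
  congr 1
  rw [Finset.sum_comm]
  apply Finset.sum_congr rfl
  intro S _
  rw [← Finset.sum_div]
  congr 1
  have h1 : ∀ G' : Omega d,
      (((pmPairs S).filter (fun p => applyMove G.1 p.1 p.2 = G'.1)).card : ℝ) * φ G'
        = ∑ p ∈ pmPairs S, if mvO d G p = G' then φ G' else 0 := by
    intro G'
    rw [Finset.card_filter, Nat.cast_sum, Finset.sum_mul]
    apply Finset.sum_congr rfl
    intro p hp
    have : (applyMove G.1 p.1 p.2 = G'.1) ↔ (mvO d G p = G') := by
      rw [Subtype.ext_iff, mvO_val d G hp]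
    by_cases h : mvO d G p = G'
    · rw [if_pos h, if_pos (this.mpr h)]; simp
    · rw [if_neg h, if_neg (fun h' => h (this.mp h'))]; simp
  simp only [h1]
  rw [Finset.sum_comm]
  apply Finset.sum_congr rfl
  intro p _
  simp

theorem applyMove_rev (G G' : SimpleGraph (Fin n)) (F F' : Finset (Sym2 (Fin n))) (hne : G ≠ G')
    (hF' : ∀ e ∈ F', ¬ e.IsDiag) (h : applyMove G F F' = G') : applyMove G' F' F = G := by
  classical
  by_cases hc : (∀ e ∈ F, e ∈ G.edgeSet) ∧ (∀ e ∈ F', e ∉ G.edgeSet)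
  · have hadj : ∀ u v, G'.Adj u v ↔ (G.Adj u v ∧ s(u, v) ∉ F) ∨ (s(u, v) ∈ F' ∧ u ≠ v) := by
      intro u v
      rw [← h]
      exact applyMove_adj G F F' hc u v
    have hc' : (∀ e ∈ F', e ∈ G'.edgeSet) ∧ (∀ e ∈ F, e ∉ G'.edgeSet) := by
      constructor
      · intro e he
        induction e using Sym2.ind with
        | _ u v =>
          rw [SimpleGraph.mem_edgeSet, hadj]
          right
          refine ⟨he, ?_⟩
          have := hF' _ he
          rwa [Sym2.mk_isDiag_iff] at this
      · intro e he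
        induction e using Sym2.ind with
        | _ u v =>
          rw [SimpleGraph.mem_edgeSet, hadj]
          rintro (⟨_, h2⟩ | ⟨h1, _⟩)
          · exact h2 he
          · exact hc.2 _ h1 (hc.1 _ he)
    ext u v
    rw [applyMove_adj G' F' F hc', hadj]
    constructor
    · rintro (⟨(⟨h1, _⟩ | ⟨h1, _⟩), h2⟩ | ⟨h1, _⟩)
      · exact h1
      · exact absurd h1 h2
      · exact hc.1 _ h1
    · intro h1
      by_cases h2 : s(u, v) ∈ F
      · right; exact ⟨h2, h1.ne⟩
      · left
        exact ⟨Or.inl ⟨h1, h2⟩, fun h3 => hc.2 _ h3 h1⟩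
  · exfalso
    apply hne
    rw [← h]
    unfold applyMove
    rw [if_neg hc]

theorem switchQ_symm (d : Fin n → ℕ) (G G' : Omega d) : switchQ d G G' = switchQ d G' G := by
  classical
  by_cases hGG : G = G'
  · rw [hGG]
  have hne : G.1 ≠ G'.1 := fun h => hGG (Subtype.ext h)
  unfold switchQ
  congr 1
  apply Finset.sum_congr rfl
  intro S _
  congr 2
  apply Finset.card_bij (fun p _ => p.swap)
  · intro p hp
    simp only [Finset.mem_filter, pmPairs, Finset.mem_univ, true_and] at hp ⊢
    obtain ⟨⟨h1, h2, h3⟩, h4⟩ := hp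
    refine ⟨⟨h2, h1, fun h => h3 h.symm⟩, ?_⟩
    exact applyMove_rev G.1 G'.1 p.1 p.2 hne (fun e he => (h2.1 e he).1) h4
  · intro p _ q _ h
    exact Prod.swap_injective h
  · intro q hq
    simp only [Finset.mem_filter, pmPairs, Finset.mem_univ, true_and] at hq
    obtain ⟨⟨h1, h2, h3⟩, h4⟩ := hq
    refine ⟨q.swap, ?_, by simp⟩
    simp only [Finset.mem_filter, pmPairs, Finset.mem_univ, true_and]
    refine ⟨⟨h2, h1, fun h => h3 h.symm⟩, ?_⟩
    exact applyMove_rev G'.1 G.1 q.1 q.2 hne.symm (fun e he => (h2.1 e he).1) h4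

theorem switchQ_nonneg (d : Fin n → ℕ) (G G' : Omega d) : 0 ≤ switchQ d G G' := by
  unfold switchQ
  positivity

theorem card_Omega_le (d : Fin n → ℕ) : (Fintype.card (Omega d) : ℝ) ≤ 2 ^ (n.choose 2) := by
  classical
  have h1 : Fintype.card (Omega d) ≤ ((⊤ : SimpleGraph (Fin n)).edgeFinset.powerset).card := by
    rw [← Finset.card_univ]
    apply Finset.card_le_card_of_injOn (fun G : Omega d => G.1.edgeFinset)
    · intro G _
      simp only [Finset.coe_powerset, Set.mem_preimage, Set.mem_powerset_iff, Finset.coe_subset]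
      exact SimpleGraph.edgeFinset_mono le_top
    · intro G _ G' _ h
      exact Subtype.ext (SimpleGraph.edgeFinset_inj.mp h)
  rw [Finset.card_powerset, SimpleGraph.card_edgeFinset_top_eq_card_choose_two, Fintype.card_fin] at h1
  exact_mod_cast h1

theorem switchP_eq (d : Fin n → ℕ) [DecidableEq (Omega d)] :
    switchP d = (1 / 2 : ℝ) • (1 + switchQ d) := by
  ext x y
  simp only [switchP, Matrix.smul_apply, Matrix.add_apply, Matrix.one_apply, smul_eq_mul]
  by_cases h : x = y
  · simp only [h, if_true]; ring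
  · simp only [h, if_false]; ring

theorem numeric_bound (N : ℝ) (c2 : ℕ) (hN : N ≤ 2 ^ c2) (κ' : ℝ) (hκ : 1 ≤ κ') (t : ℕ)
    (ht : κ' * ((c2 : ℝ) + 2) ≤ t) : N * (1 - 1 / κ') ^ t ≤ 1 / 4 := by
  have hκ0 : 0 < κ' := by linarith
  have h0 : 0 ≤ 1 - 1 / κ' := by
    have : 1 / κ' ≤ 1 := by rw [div_le_one hκ0]; exact hκ
    linarith
  have h1 : 1 - 1 / κ' ≤ Real.exp (-(1 / κ')) := by
    have := Real.add_one_le_exp (-(1 / κ'))
    linarith
  have h2 : (1 - 1 / κ') ^ t ≤ Real.exp (-((c2 : ℝ) + 2)) := by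
    calc (1 - 1 / κ') ^ t ≤ (Real.exp (-(1 / κ'))) ^ t := pow_le_pow_left₀ h0 h1 t
      _ = Real.exp ((t : ℝ) * (-(1 / κ'))) := (Real.exp_nat_mul _ t).symm
      _ ≤ Real.exp (-((c2 : ℝ) + 2)) := by
          apply Real.exp_le_exp.mpr
          have : (c2 : ℝ) + 2 ≤ (t : ℝ) / κ' := by
            rw [le_div_iff₀ hκ0]; linarith
          have h3 : (t : ℝ) * (-(1 / κ')) = -((t : ℝ) / κ') := by ring
          rw [h3]
          linarith
  have he : (2 : ℝ) ^ (c2 + 2) ≤ Real.exp ((c2 : ℝ) + 2) := by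
    have h2' : (2 : ℝ) ≤ Real.exp 1 := by
      have := Real.add_one_le_exp (1 : ℝ)
      linarith
    calc (2 : ℝ) ^ (c2 + 2) ≤ (Real.exp 1) ^ (c2 + 2) := pow_le_pow_left₀ (by norm_num) h2' _
      _ = Real.exp (((c2 + 2 : ℕ) : ℝ) * 1) := (Real.exp_nat_mul 1 (c2 + 2)).symm
      _ = Real.exp ((c2 : ℝ) + 2) := by push_cast; ring_nf
  have h4 : Real.exp (-((c2 : ℝ) + 2)) ≤ ((2 : ℝ) ^ (c2 + 2))⁻¹ := by
    rw [Real.exp_neg]
    exact inv_anti₀ (by positivity) he
  have h5 : 0 ≤ (1 - 1 / κ') ^ t := pow_nonneg h0 t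
  calc N * (1 - 1 / κ') ^ t ≤ 2 ^ c2 * (1 - 1 / κ') ^ t := mul_le_mul_of_nonneg_right hN h5
    _ ≤ 2 ^ c2 * ((2 : ℝ) ^ (c2 + 2))⁻¹ :=
        mul_le_mul_of_nonneg_left (h2.trans h4) (by positivity)
    _ = 1 / 4 := by
        rw [pow_add]
        field_simp
        norm_num

/-- Poincare inequality in terms of moves ⟹ mixing.  (`f` lives on all graphs; only its values on `Omega d` matter.) -/
theorem mixing_of_moves_poincare (hn : 4 ≤ n) (d : Fin n → ℕ) (κ : ℝ) (hκ : 1 ≤ 24 * κ * (n.choose 4 : ℝ))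
    (hP : ∀ f : SimpleGraph (Fin n) → ℝ, ∑ G : Omega d, f G.1 = 0 →
      ∑ G : Omega d, f G.1 ^ 2 ≤ κ * ∑ G : Omega d, ∑ S ∈ powersetCard 4 (univ : Finset (Fin n)),
        ∑ p ∈ pmPairs S, (f (applyMove G.1 p.1 p.2) - f G.1) ^ 2)
    (t : ℕ) (ht : 24 * κ * (n.choose 4 : ℝ) * ((n.choose 2 : ℝ) + 2) ≤ t) (G : Omega d) :
    tvDist d t G ≤ 1 / 4 := by
  classical
  set C : ℝ := (n.choose 4 : ℝ) with hC
  have hCpos : 0 < C := by
    rw [hC]
    exact_mod_cast Nat.choose_pos hn
  have hcardP : ((powersetCard 4 (univ : Finset (Fin n))).card : ℝ) = C := by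
    rw [Finset.card_powersetCard, Finset.card_univ, Fintype.card_fin]
  have hsum : ∀ (G : Omega d) (φ : Omega d → ℝ), ∑ G', switchQ d G G' * φ G'
      = (∑ S ∈ powersetCard 4 (univ : Finset (Fin n)), ∑ p ∈ pmPairs S, φ (mvO d G p)) / (6 * C) := by
    intro G φ
    rw [switchQ_sum, hcardP]
    have h1 : ∀ S ∈ powersetCard 4 (univ : Finset (Fin n)),
        (∑ p ∈ pmPairs S, φ (mvO d G p)) / ((pmPairs S).card : ℝ)
          = (∑ p ∈ pmPairs S, φ (mvO d G p)) / 6 := by
      intro S hS
      rw [card_pmPairs (Finset.mem_powersetCard.mp hS).2]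
      norm_num
    rw [Finset.sum_congr rfl h1, ← Finset.sum_div, div_div]
  have hst : ∀ G, ∑ G', switchQ d G G' = 1 := by
    intro G
    have h1 := hsum G (fun _ => 1)
    simp only [mul_one] at h1
    rw [h1]
    have h2 : ∑ S ∈ powersetCard 4 (univ : Finset (Fin n)), ∑ p ∈ pmPairs S, (1 : ℝ) = 6 * C := by
      have h3 : ∀ S ∈ powersetCard 4 (univ : Finset (Fin n)), ∑ p ∈ pmPairs S, (1 : ℝ) = 6 := by
        intro S hS
        rw [Finset.sum_const, card_pmPairs (Finset.mem_powersetCard.mp hS).2]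
        norm_num
      rw [Finset.sum_congr rfl h3, Finset.sum_const, nsmul_eq_mul, hcardP]
      ring
    rw [h2]
    field_simp
  set κ' : ℝ := 24 * κ * C with hκ'
  have hPoin : ∀ f : Omega d → ℝ, ∑ x, f x = 0 →
      ∑ x, f x ^ 2 ≤ κ' * ((1 / 4) * ∑ x, ∑ y, switchQ d x y * (f x - f y) ^ 2) := by
    intro f hf
    let f' : SimpleGraph (Fin n) → ℝ := fun H =>
      if h : ∀ v, (H.neighborSet v).ncard = d v then f ⟨H, h⟩ else 0
    have hf' : ∀ G : Omega d, f' G.1 = f G := by
      intro G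
      simp only [f']
      rw [dif_pos G.2]
    have h1 := hP f' (by simpa only [hf'] using hf)
    simp only [hf'] at h1
    have h2 : ∀ G : Omega d, ∑ S ∈ powersetCard 4 (univ : Finset (Fin n)),
        ∑ p ∈ pmPairs S, (f' (applyMove G.1 p.1 p.2) - f G) ^ 2
          = 6 * C * ∑ y, switchQ d G y * (f G - f y) ^ 2 := by
      intro G
      rw [hsum G (fun y => (f G - f y) ^ 2)]
      have h3 : ∑ S ∈ powersetCard 4 (univ : Finset (Fin n)),
          ∑ p ∈ pmPairs S, (f' (applyMove G.1 p.1 p.2) - f G) ^ 2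
          = ∑ S ∈ powersetCard 4 (univ : Finset (Fin n)), ∑ p ∈ pmPairs S, (f G - f (mvO d G p)) ^ 2 := by
        apply Finset.sum_congr rfl
        intro S _
        apply Finset.sum_congr rfl
        intro p hp
        rw [← mvO_val d G hp, hf']
        ring
      rw [h3]
      field_simp
    rw [Finset.sum_congr rfl (fun G _ => h2 G), ← Finset.mul_sum] at h1
    calc ∑ x, f x ^ 2 ≤ κ * (6 * C * ∑ x, ∑ y, switchQ d x y * (f x - f y) ^ 2) := h1
      _ = κ' * ((1 / 4) * ∑ x, ∑ y, switchQ d x y * (f x - f y) ^ 2) := by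
          rw [hκ']; ring
  have hnum := numeric_bound (Fintype.card (Omega d) : ℝ) (n.choose 2) (card_Omega_le d) κ' hκ t ht
  have hmix := mixing_of_poincare (switchQ d) (switchQ_symm d)
    (switchQ_nonneg d) hst κ' hκ hPoin t hnum G
  unfold tvDist
  rw [switchP_eq]
  exact hmix

end Chain

end P335h14
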