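import Mathlib

/-!
P335: the switch chain on the graphs with a given degree sequence (statement-level definitions).
-/

namespace P335h14

open Finset

/-- `Omega d`: the labelled simple graphs on `Fin n` with degree `d v` at every vertex `v`. -/
abbrev Omega {n : ℕ} (d : Fin n → ℕ) : Type :=
  {G : SimpleGraph (Fin n) // ∀ v, (G.neighborSet v).ncard = d v}

noncomputable instance {n : ℕ} (d : Fin n → ℕ) : Fintype (Omega d) := Fintype.ofFinite _

/-- `F` is a perfect matching of the complete graph on the vertex set `S`. -/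
def IsPM {n : ℕ} (S : Finset (Fin n)) (F : Finset (Sym2 (Fin n))) : Prop :=
  (∀ e ∈ F, ¬ e.IsDiag ∧ ∀ v ∈ e, v ∈ S) ∧ ∀ v ∈ S, ∃! e, e ∈ F ∧ v ∈ e

open Classical in
/-- the ordered pairs `(F, F')` of distinct perfect matchings of the complete graph on `S` -/
noncomputable def pmPairs {n : ℕ} (S : Finset (Fin n)) :
    Finset (Finset (Sym2 (Fin n)) × Finset (Sym2 (Fin n))) :=
  univ.filter (fun p => IsPM S p.1 ∧ IsPM S p.2 ∧ p.1 ≠ p.2)

open Classical in
/-- if all edges of `F` are present and all edges of `F'` are absent replace `F` by `F'`, otherwise stay put -/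
noncomputable def applyMove {n : ℕ} (G : SimpleGraph (Fin n)) (F F' : Finset (Sym2 (Fin n))) :
    SimpleGraph (Fin n) :=
  if (∀ e ∈ F, e ∈ G.edgeSet) ∧ (∀ e ∈ F', e ∉ G.edgeSet) then
    (G \ SimpleGraph.fromEdgeSet (F : Set (Sym2 (Fin n)))) ⊔ SimpleGraph.fromEdgeSet (F' : Set (Sym2 (Fin n)))
  else G

open Classical in
/-- the non-lazy part: `S` uniform among the 4-subsets, `(F,F')` uniform in `pmPairs S` -/
noncomputable def switchQ {n : ℕ} (d : Fin n → ℕ) : Matrix (Omega d) (Omega d) ℝ := fun G G' =>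
  (∑ S ∈ powersetCard 4 (univ : Finset (Fin n)),
      (((pmPairs S).filter (fun p => applyMove G.1 p.1 p.2 = G'.1)).card : ℝ) / ((pmPairs S).card : ℝ))
    / ((powersetCard 4 (univ : Finset (Fin n))).card : ℝ)

open Classical in
/-- the switch chain `P_d` -/
noncomputable def switchP {n : ℕ} (d : Fin n → ℕ) : Matrix (Omega d) (Omega d) ℝ := fun G G' =>
  (1 / 2) * (if G = G' then 1 else 0) + (1 / 2) * switchQ d G G'

open Classical in
/-- total variation distance of `P_d^t(G, .)` from the uniform distribution on `Omega d` -/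
noncomputable def tvDist {n : ℕ} (d : Fin n → ℕ) (t : ℕ) (G : Omega d) : ℝ :=
  (1 / 2) * ∑ G' : Omega d, |(switchP d ^ t) G G' - 1 / (Fintype.card (Omega d) : ℝ)|

/-- the mixing time `t_mix(d)`: the least `t` with `max_G ‖P_d^t(G, .) - π_d‖_TV ≤ 1/4` -/
noncomputable def tmix {n : ℕ} (d : Fin n → ℕ) : ℕ :=
  sInf {t : ℕ | ∀ G : Omega d, tvDist d t G ≤ 1 / 4}

/-- `d` is the degree sequence of a split graph (clique `K`, independent set `Kᶜ`) -/
def IsSplitSeq {n : ℕ} (d : Fin n → ℕ) : Prop :=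
  ∃ (G : Omega d) (K : Finset (Fin n)),
    (∀ u ∈ K, ∀ v ∈ K, u ≠ v → G.1.Adj u v) ∧ (∀ u, u ∉ K → ∀ v, v ∉ K → ¬ G.1.Adj u v)

end P335h14
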