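import Vale.Agent.Lib.P335_helper14.Defs
import Vale.Agent.Lib.P335_helper14.Chain
import Vale.Agent.Lib.P335_helper14.BipMain

set_option linter.unusedSectionVars false

namespace P335h14

open Finset

/-! ### Module Split : transfer of the bipartite Poincare inequality to split degree sequences -/
section Split
variable {n : ℕ}

namespace SP

open Classical in
/-- adjacency indicator -/
noncomputable def adjI (G : SimpleGraph (Fin n)) (u v : Fin n) : ℤ := if G.Adj u v then 1 else 0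

lemma adjI_symm (G : SimpleGraph (Fin n)) (u v : Fin n) : adjI G u v = adjI G v u := by
  unfold adjI; rw [G.adj_comm]

lemma adjI_nonneg (G : SimpleGraph (Fin n)) (u v : Fin n) : 0 ≤ adjI G u v := by
  unfold adjI; split_ifs <;> simp

open Classical in
lemma adjI_le (G : SimpleGraph (Fin n)) (u v : Fin n) : adjI G u v ≤ if u ≠ v then 1 else 0 := by
  unfold adjI
  by_cases h : G.Adj u v
  · simp [h, h.ne]
  · simp only [h, if_false]; split_ifs <;> simp

open Classical in
lemma ncard_nbr (G : SimpleGraph (Fin n)) (v : Fin n) :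
    ((G.neighborSet v).ncard : ℤ) = ∑ u, adjI G v u := by
  have h : G.neighborSet v = ↑(univ.filter (fun u => G.Adj v u)) := by ext u; simp
  rw [h, Set.ncard_coe_finset, Finset.card_filter]
  push_cast
  rfl

/-- `sum_K d - sum_{K^c} d` counts ordered adjacent pairs inside `K` minus those inside `K^c` -/
lemma deg_diff (G : SimpleGraph (Fin n)) (K : Finset (Fin n)) :
    ∑ v ∈ K, ∑ u, adjI G v u - ∑ v ∈ Kᶜ, ∑ u, adjI G v u
      = ∑ v ∈ K, ∑ u ∈ K, adjI G v u - ∑ v ∈ Kᶜ, ∑ u ∈ Kᶜ, adjI G v u := by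
  have h1 : ∀ v, ∑ u, adjI G v u = ∑ u ∈ K, adjI G v u + ∑ u ∈ Kᶜ, adjI G v u := by
    intro v; rw [Finset.sum_add_sum_compl]
  simp only [h1, Finset.sum_add_distrib]
  have h2 : ∑ v ∈ K, ∑ u ∈ Kᶜ, adjI G v u = ∑ v ∈ Kᶜ, ∑ u ∈ K, adjI G v u := by
    rw [Finset.sum_comm]
    exact Finset.sum_congr rfl fun v _ => Finset.sum_congr rfl fun u _ => adjI_symm G u v
  rw [h2]; ring

end SP

open SP in
open Classical in
theorem split_all (d : Fin n → ℕ) (G₀ : Omega d) (K : Finset (Fin n))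
    (hK : ∀ u ∈ K, ∀ v ∈ K, u ≠ v → G₀.1.Adj u v) (hI : ∀ u, u ∉ K → ∀ v, v ∉ K → ¬ G₀.1.Adj u v)
    (G : Omega d) :
    (∀ u ∈ K, ∀ v ∈ K, u ≠ v → G.1.Adj u v) ∧ (∀ u, u ∉ K → ∀ v, v ∉ K → ¬ G.1.Adj u v) := by
  have hd : ∀ (H : Omega d) v, ∑ u, adjI H.1 v u = (d v : ℤ) := by
    intro H v; rw [← ncard_nbr, H.2 v]
  have e1 := deg_diff G.1 K
  have e0 := deg_diff G₀.1 K
  simp only [hd] at e1 e0
  have y0 : ∑ v ∈ Kᶜ, ∑ u ∈ Kᶜ, adjI G₀.1 v u = 0 := by
    refine Finset.sum_eq_zero fun v hv => Finset.sum_eq_zero fun u hu => ?_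
    unfold adjI
    rw [if_neg (hI v (Finset.mem_compl.1 hv) u (Finset.mem_compl.1 hu))]
  have x0 : ∑ v ∈ K, ∑ u ∈ K, adjI G₀.1 v u = ∑ v ∈ K, ∑ u ∈ K, (if v ≠ u then (1 : ℤ) else 0) := by
    refine Finset.sum_congr rfl fun v hv => Finset.sum_congr rfl fun u hu => ?_
    unfold adjI
    by_cases h : v = u
    · subst h; simp
    · rw [if_pos (hK v hv u hu h), if_pos h]
  have key : ∑ v ∈ K, ∑ u ∈ K, ((if v ≠ u then (1 : ℤ) else 0) - adjI G.1 v u)
      + ∑ v ∈ Kᶜ, ∑ u ∈ Kᶜ, adjI G.1 v u = 0 := by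
    simp only [Finset.sum_sub_distrib]
    rw [← x0]; linarith
  have nx : ∀ v ∈ K, ∀ u ∈ K, 0 ≤ (if v ≠ u then (1 : ℤ) else 0) - adjI G.1 v u := by
    intro v _ u _; have := adjI_le G.1 v u; linarith
  have hX : 0 ≤ ∑ v ∈ K, ∑ u ∈ K, ((if v ≠ u then (1 : ℤ) else 0) - adjI G.1 v u) :=
    Finset.sum_nonneg fun v hv => Finset.sum_nonneg fun u hu => nx v hv u hu
  have hY : 0 ≤ ∑ v ∈ Kᶜ, ∑ u ∈ Kᶜ, adjI G.1 v u :=
    Finset.sum_nonneg fun v _ => Finset.sum_nonneg fun u _ => adjI_nonneg _ _ _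
  have hX0 : ∑ v ∈ K, ∑ u ∈ K, ((if v ≠ u then (1 : ℤ) else 0) - adjI G.1 v u) = 0 := by linarith
  have hY0 : ∑ v ∈ Kᶜ, ∑ u ∈ Kᶜ, adjI G.1 v u = 0 := by linarith
  constructor
  · intro u hu v hv huv
    have a1 := (Finset.sum_eq_zero_iff_of_nonneg (fun v hv =>
      Finset.sum_nonneg fun u hu => nx v hv u hu)).1 hX0 u hu
    have a2 := (Finset.sum_eq_zero_iff_of_nonneg (fun w hw => nx u hu w hw)).1 a1 v hv
    rw [if_pos huv] at a2
    by_contra hh
    unfold adjI at a2
    rw [if_neg hh] at a2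
    simp at a2
  · intro u hu v hv hh
    have a1 := (Finset.sum_eq_zero_iff_of_nonneg (fun v _ =>
      Finset.sum_nonneg fun u _ => adjI_nonneg G.1 v u)).1 hY0 u (Finset.mem_compl.2 hu)
    have a2 := (Finset.sum_eq_zero_iff_of_nonneg (fun w _ => adjI_nonneg G.1 u w)).1 a1 v
      (Finset.mem_compl.2 hv)
    unfold adjI at a2
    rw [if_pos hh] at a2
    simp at a2

namespace SP

/-- `K` is a clique and its complement is independent -/
def IsSplit (K : Finset (Fin n)) (G : SimpleGraph (Fin n)) : Prop :=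
  (∀ u ∈ K, ∀ v ∈ K, u ≠ v → G.Adj u v) ∧ (∀ u, u ∉ K → ∀ v, v ∉ K → ¬ G.Adj u v)

open Classical in
/-- the bipartite adjacency matrix `K x K^c` of a graph -/
noncomputable def Phi (K : Finset (Fin n)) (G : SimpleGraph (Fin n)) : Mat (Fin n) (Fin n) :=
  fun i => if i ∈ K then univ.filter (fun c => c ∉ K ∧ G.Adj i c) else ∅

lemma mem_Phi (K : Finset (Fin n)) (G : SimpleGraph (Fin n)) (i c : Fin n) :
    c ∈ Phi K G i ↔ i ∈ K ∧ c ∉ K ∧ G.Adj i c := by
  unfold Phi
  by_cases h : i ∈ K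
  · simp [h]
  · simp [h]

lemma Phi_inj {K : Finset (Fin n)} {G G' : SimpleGraph (Fin n)} (h : IsSplit K G)
    (h' : IsSplit K G') (he : Phi K G = Phi K G') : G = G' := by
  have key : ∀ u v, u ∈ K → v ∉ K → (G.Adj u v ↔ G'.Adj u v) := by
    intro u v hu hv
    have := congrFun he u
    have h1 := mem_Phi K G u v
    have h2 := mem_Phi K G' u v
    rw [this] at h1
    constructor
    · intro ha; exact (h2.1 (h1.2 ⟨hu, hv, ha⟩)).2.2
    · intro ha; exact (h1.1 (h2.2 ⟨hu, hv, ha⟩)).2.2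
  ext u v
  by_cases hu : u ∈ K <;> by_cases hv : v ∈ K
  · constructor
    · intro ha; exact h'.1 u hu v hv ha.ne
    · intro ha; exact h.1 u hu v hv ha.ne
  · exact key u v hu hv
  · rw [G.adj_comm, G'.adj_comm]; exact key v u hv hu
  · constructor
    · intro ha; exact absurd ha (h.2 u hu v hv)
    · intro ha; exact absurd ha (h'.2 u hu v hv)

open Classical in
lemma card_Phi (K : Finset (Fin n)) (G : SimpleGraph (Fin n)) (a : Fin n) (ha : a ∈ K) :
    ((Phi K G a).card : ℤ) = ∑ u ∈ Kᶜ, adjI G a u := by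
  unfold Phi
  rw [if_pos ha, Finset.card_filter]
  push_cast
  rw [← Finset.sum_add_sum_compl K]
  have h1 : ∑ u ∈ K, (if u ∉ K ∧ G.Adj a u then (1 : ℤ) else 0) = 0 := by
    refine Finset.sum_eq_zero fun u hu => ?_
    simp [hu]
  rw [h1, zero_add]
  refine Finset.sum_congr rfl fun u hu => ?_
  unfold adjI
  simp [Finset.mem_compl.1 hu]

open Classical in
lemma row_card {d : Fin n → ℕ} {K : Finset (Fin n)} (G : Omega d) (h : IsSplit K G.1) (a : Fin n) :
    ((Phi K G.1 a).card : ℤ)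
      = if a ∈ K then (d a : ℤ) - ∑ u ∈ K, (if a ≠ u then (1 : ℤ) else 0) else 0 := by
  by_cases ha : a ∈ K
  · rw [if_pos ha, card_Phi K G.1 a ha]
    have h1 : (d a : ℤ) = ∑ u, adjI G.1 a u := by rw [← ncard_nbr, G.2 a]
    rw [h1, ← Finset.sum_add_sum_compl K]
    have h2 : ∑ u ∈ K, adjI G.1 a u = ∑ u ∈ K, (if a ≠ u then (1 : ℤ) else 0) := by
      refine Finset.sum_congr rfl fun u hu => ?_
      unfold adjI
      by_cases hau : a = u
      · subst hau; simp
      · rw [if_pos (h.1 a ha u hu hau), if_pos hau]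
    rw [h2]; ring
  · rw [if_neg ha]
    unfold Phi
    rw [if_neg ha]; simp

open Classical in
lemma col_sum {d : Fin n → ℕ} {K : Finset (Fin n)} (G : Omega d) (h : IsSplit K G.1) (c : Fin n) :
    ((∑ a ∈ (univ : Finset (Fin n)), ind (Phi K G.1 a) c : ℕ) : ℤ)
      = if c ∈ K then 0 else (d c : ℤ) := by
  push_cast
  by_cases hc : c ∈ K
  · rw [if_pos hc]
    refine Finset.sum_eq_zero fun a _ => ?_
    unfold ind
    rw [if_neg]
    · simp
    · rw [mem_Phi]; tauto
  · rw [if_neg hc]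
    have h1 : (d c : ℤ) = ∑ u, adjI G.1 c u := by rw [← ncard_nbr, G.2 c]
    rw [h1]
    refine Finset.sum_congr rfl fun a _ => ?_
    unfold ind adjI
    by_cases hadj : G.1.Adj c a
    · have ha : a ∈ K := by
        by_contra hh; exact h.2 c hc a hh hadj
      rw [if_pos hadj, if_pos ((mem_Phi _ _ _ _).2 ⟨ha, hc, hadj.symm⟩)]; simp
    · rw [if_neg hadj, if_neg]
      · simp
      · rw [mem_Phi]; intro hh; exact hadj hh.2.2.symm

lemma rel_Phi {d : Fin n → ℕ} {K : Finset (Fin n)} (G G' : Omega d) (h : IsSplit K G.1)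
    (h' : IsSplit K G'.1) : Rel univ (Phi K G.1) (Phi K G'.1) := by
  refine ⟨fun a ha => absurd (Finset.mem_univ a) ha, fun a => ?_, fun c => ?_⟩
  · have := (row_card G h a).trans (row_card G' h' a).symm
    exact_mod_cast this
  · have := (col_sum G h c).trans (col_sum G' h' c).symm
    exact_mod_cast this

lemma sum_of_inj {α β : Type*} [Fintype α] [Fintype β] [DecidableEq β] (φ : α → β)
    (hφ : Function.Injective φ) (H : β → ℝ) (h0 : ∀ b, (∀ a, φ a ≠ b) → H b = 0) :
    ∑ b, H b = ∑ a, H (φ a) := by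
  rw [← Finset.sum_image (s := univ) (g := φ) (f := H) (fun a _ b _ hab => hφ hab)]
  symm
  apply Finset.sum_subset (Finset.subset_univ _)
  intro b _ hb
  apply h0
  intro a ha
  exact hb (Finset.mem_image.2 ⟨a, Finset.mem_univ _, ha⟩)

end SP

namespace SP

lemma isPM_four {a b c d : Fin n} (hab : a ≠ b) (hac : a ≠ c) (had : a ≠ d) (hbc : b ≠ c)
    (hbd : b ≠ d) (hcd : c ≠ d) : IsPM {a, b, c, d} {s(a, b), s(c, d)} := by
  constructor
  · intro e he
    simp only [Finset.mem_insert, Finset.mem_singleton] at he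
    rcases he with rfl | rfl
    · refine ⟨by simpa using hab, ?_⟩
      intro v hv
      simp only [Sym2.mem_iff] at hv
      rcases hv with rfl | rfl <;> simp
    · refine ⟨by simpa using hcd, ?_⟩
      intro v hv
      simp only [Sym2.mem_iff] at hv
      rcases hv with rfl | rfl <;> simp
  · intro v hv
    simp only [Finset.mem_insert, Finset.mem_singleton] at hv
    rcases hv with rfl | rfl | rfl | rfl
    · refine ⟨s(v, b), ⟨by simp, by simp⟩, ?_⟩
      rintro e ⟨he, hve⟩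
      simp only [Finset.mem_insert, Finset.mem_singleton] at he
      rcases he with rfl | rfl
      · rfl
      · simp only [Sym2.mem_iff] at hve
        rcases hve with h | h
        · exact absurd h hac
        · exact absurd h had
    · refine ⟨s(a, v), ⟨by simp, by simp⟩, ?_⟩
      rintro e ⟨he, hve⟩
      simp only [Finset.mem_insert, Finset.mem_singleton] at he
      rcases he with rfl | rfl
      · rfl
      · simp only [Sym2.mem_iff] at hve
        rcases hve with h | h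
        · exact absurd h hbc
        · exact absurd h hbd
    · refine ⟨s(v, d), ⟨by simp, by simp⟩, ?_⟩
      rintro e ⟨he, hve⟩
      simp only [Finset.mem_insert, Finset.mem_singleton] at he
      rcases he with rfl | rfl
      · simp only [Sym2.mem_iff] at hve
        rcases hve with h | h
        · exact absurd h.symm hac
        · exact absurd h.symm hbc
      · rfl
    · refine ⟨s(c, v), ⟨by simp, by simp⟩, ?_⟩
      rintro e ⟨he, hve⟩
      simp only [Finset.mem_insert, Finset.mem_singleton] at he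
      rcases he with rfl | rfl
      · simp only [Sym2.mem_iff] at hve
        rcases hve with h | h
        · exact absurd h.symm had
        · exact absurd h.symm hbd
      · rfl

/-- an edge between `K` and its complement determines its end points -/
lemma sym2_KI {K : Finset (Fin n)} {a x b y : Fin n} (ha : a ∈ K) (hy : y ∉ K) :
    s(a, x) = s(b, y) ↔ a = b ∧ x = y := by
  rw [Sym2.eq_iff]
  constructor
  · rintro (h | h)
    · exact h
    · exact absurd (h.1 ▸ ha) hy
  · intro h; exact Or.inl h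

/-- data of an available bipartite switch of `Phi K G` -/
structure SwData (K : Finset (Fin n)) (G : SimpleGraph (Fin n)) (i j c c' : Fin n) : Prop where
  hij : i ≠ j
  hi : i ∈ K
  hj : j ∈ K
  hc : c ∉ K
  hc' : c' ∉ K
  hcc : c ≠ c'
  a1 : G.Adj i c
  a2 : G.Adj j c'
  a3 : ¬ G.Adj i c'
  a4 : ¬ G.Adj j c

lemma swData_of_ok {K : Finset (Fin n)} {G : SimpleGraph (Fin n)} {i j c c' : Fin n}
    (h : SwOK (Phi K G) i j c c') : SwData K G i j c c' := by
  obtain ⟨hij, h1, h2, h3, h4⟩ := h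
  rw [mem_Phi] at h1 h2 h3 h4
  refine ⟨hij, h1.1, h3.1, h1.2.1, h3.2.1, ?_, h1.2.2, h3.2.2, ?_, ?_⟩
  · rintro rfl; exact h2 ⟨h3.1, h1.2.1, h3.2.2⟩
  · intro ha; exact h4 ⟨h1.1, h3.2.1, ha⟩
  · intro ha; exact h2 ⟨h3.1, h1.2.1, ha⟩

/-- the two matchings of a bipartite switch -/
def mv (i j c c' : Fin n) : Finset (Sym2 (Fin n)) × Finset (Sym2 (Fin n)) :=
  ({s(i, c), s(j, c')}, {s(i, c'), s(j, c)})

/-- the four vertices of a bipartite switch -/
def mvS (i j c c' : Fin n) : Finset (Fin n) := {i, c, j, c'}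

lemma mvS_card {K : Finset (Fin n)} {G : SimpleGraph (Fin n)} {i j c c' : Fin n}
    (h : SwData K G i j c c') : (mvS i j c c').card = 4 := by
  have h1 : i ≠ c := fun e => h.hc (e ▸ h.hi)
  have h2 : i ≠ c' := fun e => h.hc' (e ▸ h.hi)
  have h3 : c ≠ j := fun e => h.hc (e ▸ h.hj)
  have h4 : j ≠ c' := fun e => h.hc' (e ▸ h.hj)
  unfold mvS
  rw [Finset.card_insert_of_notMem, Finset.card_insert_of_notMem, Finset.card_insert_of_notMem,
    Finset.card_singleton]
  · simpa using h4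
  · simp [h3, h.hcc]
  · simp [h1, h.hij, h2]

open Classical in
lemma mv_mem {K : Finset (Fin n)} {G : SimpleGraph (Fin n)} {i j c c' : Fin n}
    (h : SwData K G i j c c') : mv i j c c' ∈ pmPairs (mvS i j c c') := by
  have h1 : i ≠ c := fun e => h.hc (e ▸ h.hi)
  have h2 : i ≠ c' := fun e => h.hc' (e ▸ h.hi)
  have h3 : c ≠ j := fun e => h.hc (e ▸ h.hj)
  have h4 : j ≠ c' := fun e => h.hc' (e ▸ h.hj)
  unfold pmPairs
  rw [Finset.mem_filter]
  refine ⟨Finset.mem_univ _, ?_, ?_, ?_⟩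
  · exact isPM_four h1 h.hij h2 h3 h.hcc h4
  · have e : mvS i j c c' = {i, c', j, c} := by
      unfold mvS; ext v; simp only [Finset.mem_insert, Finset.mem_singleton]; tauto
    rw [e]
    exact isPM_four h2 h.hij h1 h4.symm h.hcc.symm h3.symm
  · intro he
    have : s(i, c) ∈ (mv i j c c').2 := by rw [← he]; simp [mv]
    simp only [mv, Finset.mem_insert, Finset.mem_singleton] at this
    rcases this with e | e
    · exact h.hcc ((sym2_KI h.hi h.hc').1 e).2
    · exact h.hij ((sym2_KI h.hi h.hc).1 e).1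

end SP

namespace SP

open Classical in
lemma applyMove_eq {K : Finset (Fin n)} {G : SimpleGraph (Fin n)} {i j c c' : Fin n}
    (h : SwData K G i j c c') :
    applyMove G (mv i j c c').1 (mv i j c c').2
      = (G \ SimpleGraph.fromEdgeSet ((mv i j c c').1 : Set (Sym2 (Fin n))))
        ⊔ SimpleGraph.fromEdgeSet ((mv i j c c').2 : Set (Sym2 (Fin n))) := by
  unfold applyMove
  rw [if_pos]
  constructor
  · intro e he
    simp only [mv, Finset.mem_insert, Finset.mem_singleton] at he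
    rcases he with rfl | rfl
    · exact h.a1
    · exact h.a2
  · intro e he
    simp only [mv, Finset.mem_insert, Finset.mem_singleton] at he
    rcases he with rfl | rfl
    · exact h.a3
    · exact h.a4

lemma adj_move {K : Finset (Fin n)} {G : SimpleGraph (Fin n)} {i j c c' : Fin n}
    (h : SwData K G i j c c') {a x : Fin n} (ha : a ∈ K) (hx : x ∉ K) :
    (applyMove G (mv i j c c').1 (mv i j c c').2).Adj a x ↔
      (G.Adj a x ∧ ¬ ((a = i ∧ x = c) ∨ (a = j ∧ x = c'))) ∨ ((a = i ∧ x = c') ∨ (a = j ∧ x = c)) := by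
  have hax : a ≠ x := fun e => hx (e ▸ ha)
  rw [applyMove_eq h]
  simp only [SimpleGraph.sup_adj, SimpleGraph.sdiff_adj, SimpleGraph.fromEdgeSet_adj, mv,
    Finset.coe_insert, Finset.coe_singleton, Set.mem_insert_iff, Set.mem_singleton_iff,
    sym2_KI ha h.hc, sym2_KI ha h.hc', ne_eq, hax, not_false_eq_true, and_true]

lemma Phi_move {K : Finset (Fin n)} {G : SimpleGraph (Fin n)} {i j c c' : Fin n}
    (h : SwData K G i j c c') :
    Phi K (applyMove G (mv i j c c').1 (mv i j c c').2) = sw (Phi K G) i j c c' := by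
  apply TR.mat_ext i j
  · rw [TR.sw_row_i _ h.hij]
    ext x
    rw [mem_Phi, Finset.mem_insert, Finset.mem_erase, mem_Phi]
    by_cases hx : x ∈ K
    · have : x ≠ c' := fun e => h.hc' (e ▸ hx)
      simp [hx, this]
    · rw [adj_move h h.hi hx]
      have hij := h.hij
      have hi := h.hi
      have hcc := h.hcc
      by_cases e1 : x = c
      · subst e1; simp [hij, hcc]
      · by_cases e2 : x = c'
        · subst e2; simp [hi, hx]
        · simp [e1, e2, hi, hx]
  · rw [TR.sw_row_j]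
    ext x
    rw [mem_Phi, Finset.mem_insert, Finset.mem_erase, mem_Phi]
    by_cases hx : x ∈ K
    · have : x ≠ c := fun e => h.hc (e ▸ hx)
      simp [hx, this]
    · rw [adj_move h h.hj hx]
      have hij := h.hij.symm
      have hj := h.hj
      have hcc := h.hcc.symm
      by_cases e1 : x = c'
      · subst e1; simp [hij, hcc]
      · by_cases e2 : x = c
        · subst e2; simp [hj, hx]
        · simp [e1, e2, hj, hx]
  · intro a h1 h2
    rw [TR.sw_row_other _ h1 h2]
    ext x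
    rw [mem_Phi, mem_Phi]
    by_cases ha : a ∈ K
    · by_cases hx : x ∈ K
      · simp [hx]
      · rw [adj_move h ha hx]; simp [h1, h2]
    · simp [ha]

end SP

namespace SP

open Classical in
/-- transport of `f` to matrices (zero outside the image of `Phi`) -/
noncomputable def lift (d : Fin n → ℕ) (K : Finset (Fin n)) (f : SimpleGraph (Fin n) → ℝ) :
    Mat (Fin n) (Fin n) → ℝ :=
  fun M => ∑ G : Omega d, if Phi K G.1 = M then f G.1 else 0

lemma phi_injective {d : Fin n → ℕ} {K : Finset (Fin n)} (hs : ∀ G : Omega d, IsSplit K G.1) :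
    Function.Injective (fun G : Omega d => Phi K G.1) := by
  intro G G' he
  exact Subtype.ext (Phi_inj (hs G) (hs G') he)

open Classical in
lemma lift_Phi {d : Fin n → ℕ} {K : Finset (Fin n)} (hs : ∀ G : Omega d, IsSplit K G.1)
    (f : SimpleGraph (Fin n) → ℝ) (G : Omega d) : lift d K f (Phi K G.1) = f G.1 := by
  unfold lift
  rw [Finset.sum_eq_single G]
  · simp
  · intro G' _ hne
    rw [if_neg]
    intro he
    exact hne (phi_injective hs he)
  · intro h; exact absurd (Finset.mem_univ _) h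

open Classical in
lemma lift_off {d : Fin n → ℕ} {K : Finset (Fin n)} (f : SimpleGraph (Fin n) → ℝ)
    (M : Mat (Fin n) (Fin n)) (h : ∀ G : Omega d, Phi K G.1 ≠ M) : lift d K f M = 0 := by
  unfold lift
  exact Finset.sum_eq_zero fun G _ => if_neg (h G)

lemma move_omega {d : Fin n → ℕ} {K : Finset (Fin n)} (G : Omega d) {i j c c' : Fin n}
    (hok : SwOK (Phi K G.1) i j c c') :
    ∃ G' : Omega d, G'.1 = applyMove G.1 (mv i j c c').1 (mv i j c c').2 ∧
      Phi K G'.1 = sw (Phi K G.1) i j c c' := by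
  have hd := swData_of_ok hok
  exact ⟨⟨_, applyMove_degree d G (mv_mem hd)⟩, rfl, Phi_move hd⟩

lemma off_closed {d : Fin n → ℕ} {K : Finset (Fin n)} {M : Mat (Fin n) (Fin n)} {i j c c' : Fin n}
    (h : ∀ G : Omega d, Phi K G.1 ≠ M) (hok : SwOK M i j c c') :
    ∀ G : Omega d, Phi K G.1 ≠ sw M i j c c' := by
  intro G he
  have hr := swOK_rev hok
  rw [← he] at hr
  obtain ⟨G', -, h2⟩ := move_omega G hr.1
  exact h G' (h2.trans hr.2)

lemma dir2_lift {d : Fin n → ℕ} {K : Finset (Fin n)} (hs : ∀ G : Omega d, IsSplit K G.1)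
    (f : SimpleGraph (Fin n) → ℝ) (i j : Fin n) :
    dir2 i j (lift d K f) = ∑ G : Omega d, ∑ c, ∑ c',
      if SwOK (Phi K G.1) i j c c' then
        (f (applyMove G.1 (mv i j c c').1 (mv i j c c').2) - f G.1) ^ 2 else 0 := by
  unfold dir2
  rw [sum_of_inj (fun G : Omega d => Phi K G.1) (phi_injective hs)]
  · refine Finset.sum_congr rfl fun G _ => Finset.sum_congr rfl fun c _ =>
      Finset.sum_congr rfl fun c' _ => ?_
    split_ifs with hok
    · obtain ⟨G', h1, h2⟩ := move_omega G hok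
      rw [← h2, lift_Phi hs, lift_Phi hs, h1]
    · rfl
  · intro M hM
    refine Finset.sum_eq_zero fun c _ => Finset.sum_eq_zero fun c' _ => ?_
    split_ifs with hok
    · rw [lift_off f M hM, lift_off f _ (off_closed hM hok)]; simp
    · rfl

lemma mv_inj {K : Finset (Fin n)} {G : SimpleGraph (Fin n)} {i j c c' a b x y : Fin n}
    (h : SwData K G i j c c') (h' : SwData K G a b x y) (he : mv i j c c' = mv a b x y) :
    (i = a ∧ j = b ∧ c = x ∧ c' = y) ∨ (i = b ∧ j = a) := by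
  have e1 : (mv i j c c').1 = (mv a b x y).1 := by rw [he]
  have m1 : s(i, c) ∈ (mv a b x y).1 := by rw [← e1]; simp [mv]
  have m2 : s(j, c') ∈ (mv a b x y).1 := by rw [← e1]; simp [mv]
  simp only [mv, Finset.mem_insert, Finset.mem_singleton, sym2_KI h.hi h'.hc, sym2_KI h.hi h'.hc',
    sym2_KI h.hj h'.hc, sym2_KI h.hj h'.hc'] at m1 m2
  rcases m1 with ⟨p1, p2⟩ | ⟨p1, p2⟩
  · rcases m2 with ⟨q1, q2⟩ | ⟨q1, q2⟩
    · exact absurd (p1.trans q1.symm) h.hij
    · exact Or.inl ⟨p1, q1, p2, q2⟩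
  · rcases m2 with ⟨q1, q2⟩ | ⟨q1, q2⟩
    · exact Or.inr ⟨p1, q1⟩
    · exact absurd (p1.trans q1.symm) h.hij

end SP

namespace SP

lemma sum4 (F : Fin n → Fin n → Fin n → Fin n → ℝ) :
    ∑ i, ∑ j, ∑ c, ∑ c', F i j c c'
      = ∑ q : Fin n × Fin n × Fin n × Fin n, F q.1 q.2.1 q.2.2.1 q.2.2.2 := by
  rw [Fintype.sum_prod_type]
  refine Finset.sum_congr rfl fun i _ => ?_
  rw [Fintype.sum_prod_type]
  refine Finset.sum_congr rfl fun j _ => ?_
  rw [Fintype.sum_prod_type]

open Classical in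
lemma count_le {K : Finset (Fin n)} {G : SimpleGraph (Fin n)} (R : Fin n → Fin n → Prop)
    [DecidableRel R] (hR : ∀ a b, R a b → ¬ R b a)
    (h : Finset (Sym2 (Fin n)) × Finset (Sym2 (Fin n)) → ℝ) (h0 : ∀ p, 0 ≤ h p) :
    ∑ i, ∑ j, ∑ c, ∑ c', (if SwOK (Phi K G) i j c c' ∧ R i j then h (mv i j c c') else 0)
      ≤ ∑ S ∈ powersetCard 4 (univ : Finset (Fin n)), ∑ p ∈ pmPairs S, h p := by
  rw [sum4, ← Finset.sum_filter, Finset.sum_sigma']
  set Q := (univ : Finset (Fin n × Fin n × Fin n × Fin n)).filter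
    (fun q => SwOK (Phi K G) q.1 q.2.1 q.2.2.1 q.2.2.2 ∧ R q.1 q.2.1) with hQ
  set ψ : Fin n × Fin n × Fin n × Fin n →
      (Σ _ : Finset (Fin n), Finset (Sym2 (Fin n)) × Finset (Sym2 (Fin n))) :=
    fun q => ⟨mvS q.1 q.2.1 q.2.2.1 q.2.2.2, mv q.1 q.2.1 q.2.2.1 q.2.2.2⟩ with hψ
  have hinj : Set.InjOn ψ (Q : Set (Fin n × Fin n × Fin n × Fin n)) := by
    rintro ⟨i, j, c, c'⟩ hq ⟨a, b, x, y⟩ hq' he
    simp only [hQ, Finset.coe_filter, Finset.mem_univ, true_and, Set.mem_ofPred_eq] at hq hq'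
    have he2 : mv i j c c' = mv a b x y := by
      have := congrArg (fun t => t.2) he
      simpa [hψ] using this
    rcases mv_inj (swData_of_ok hq.1) (swData_of_ok hq'.1) he2 with ⟨r1, r2, r3, r4⟩ | ⟨r1, r2⟩
    · subst r1 r2 r3 r4; rfl
    · subst r1 r2; exact absurd hq'.2 (hR _ _ hq.2)
  have hsub : Q.image ψ ⊆ (powersetCard 4 (univ : Finset (Fin n))).sigma pmPairs := by
    intro t ht
    obtain ⟨⟨i, j, c, c'⟩, hq, rfl⟩ := Finset.mem_image.1 ht
    simp only [hQ, Finset.mem_filter, Finset.mem_univ, true_and] at hq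
    have hd := swData_of_ok hq.1
    rw [Finset.mem_sigma]
    exact ⟨Finset.mem_powersetCard.2 ⟨Finset.subset_univ _, mvS_card hd⟩, mv_mem hd⟩
  calc ∑ q ∈ Q, h (mv q.1 q.2.1 q.2.2.1 q.2.2.2) = ∑ t ∈ Q.image ψ, h t.2 :=
        (Finset.sum_image (f := fun t => h t.2) hinj).symm
    _ ≤ ∑ t ∈ (powersetCard 4 (univ : Finset (Fin n))).sigma pmPairs, h t.2 :=
        Finset.sum_le_sum_of_subset_of_nonneg hsub (fun _ _ _ => h0 _)

open Classical in
lemma count_le_two {K : Finset (Fin n)} {G : SimpleGraph (Fin n)}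
    (h : Finset (Sym2 (Fin n)) × Finset (Sym2 (Fin n)) → ℝ) (h0 : ∀ p, 0 ≤ h p) :
    ∑ i, ∑ j, ∑ c, ∑ c', (if SwOK (Phi K G) i j c c' then h (mv i j c c') else 0)
      ≤ 2 * ∑ S ∈ powersetCard 4 (univ : Finset (Fin n)), ∑ p ∈ pmPairs S, h p := by
  have h1 := count_le (K := K) (G := G) (fun a b => a < b) (fun a b hab => not_lt.2 hab.le) h h0
  have h2 := count_le (K := K) (G := G) (fun a b => b < a) (fun a b hab => not_lt.2 hab.le) h h0
  have h3 : ∑ i, ∑ j, ∑ c, ∑ c', (if SwOK (Phi K G) i j c c' then h (mv i j c c') else 0)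
      = ∑ i, ∑ j, ∑ c, ∑ c', (if SwOK (Phi K G) i j c c' ∧ i < j then h (mv i j c c') else 0)
      + ∑ i, ∑ j, ∑ c, ∑ c', (if SwOK (Phi K G) i j c c' ∧ j < i then h (mv i j c c') else 0) := by
    simp only [← Finset.sum_add_distrib]
    refine Finset.sum_congr rfl fun i _ => Finset.sum_congr rfl fun j _ =>
      Finset.sum_congr rfl fun c _ => Finset.sum_congr rfl fun c' _ => ?_
    by_cases hok : SwOK (Phi K G) i j c c'
    · rcases lt_or_gt_of_ne hok.1 with hlt | hlt
      · simp [hok, hlt, not_lt.2 hlt.le]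
      · simp [hok, hlt, not_lt.2 hlt.le]
    · simp [hok]
  rw [h3]; linarith

end SP

open SP in
open Classical in
theorem split_poincare (d : Fin n → ℕ) (hd : IsSplitSeq d) (f : SimpleGraph (Fin n) → ℝ)
    (hf : ∑ G : Omega d, f G.1 = 0) :
    ∑ G : Omega d, f G.1 ^ 2 ≤ (1 / 4) * ∑ G : Omega d, ∑ S ∈ powersetCard 4 (univ : Finset (Fin n)),
        ∑ p ∈ pmPairs S, (f (applyMove G.1 p.1 p.2) - f G.1) ^ 2 := by
  obtain ⟨G₀, K, hK, hI⟩ := hd
  have hs : ∀ G : Omega d, IsSplit K G.1 := fun G => split_all d G₀ K hK hI G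
  set F := lift d K f with hF
  have hb := bip_poincare F
  have hinj := phi_injective hs
  have havg : avg (Rel univ) F = 0 := by
    funext M
    unfold avg
    have hnum : ∑ y ∈ univ.filter (fun y => Rel univ M y), F y = 0 := by
      rw [Finset.sum_filter, sum_of_inj (fun G : Omega d => Phi K G.1) hinj]
      · by_cases hex : ∃ G1 : Omega d, Rel univ M (Phi K G1.1)
        · obtain ⟨G1, h1⟩ := hex
          have : ∀ G : Omega d, Rel univ M (Phi K G.1) := fun G =>
            (Rel.equiv univ).trans h1 (rel_Phi G1 G (hs G1) (hs G))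
          rw [← hf]
          refine Finset.sum_congr rfl fun G _ => ?_
          rw [if_pos (this G), hF, lift_Phi hs]
        · refine Finset.sum_eq_zero fun G _ => ?_
          rw [if_neg]
          intro hh; exact hex ⟨G, hh⟩
      · intro b hb'
        rw [hF, lift_off f b hb']; simp
    rw [hnum]; simp
  have hip : ip F F = ∑ G : Omega d, f G.1 ^ 2 := by
    unfold ip
    rw [sum_of_inj (fun G : Omega d => Phi K G.1) hinj]
    · refine Finset.sum_congr rfl fun G _ => ?_
      rw [hF, lift_Phi hs]; ring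
    · intro b hb'
      rw [hF, lift_off f b hb']; simp
  have hdir : dir F ≤ 2 * ∑ G : Omega d, ∑ S ∈ powersetCard 4 (univ : Finset (Fin n)),
        ∑ p ∈ pmPairs S, (f (applyMove G.1 p.1 p.2) - f G.1) ^ 2 := by
    unfold dir
    simp only [hF, dir2_lift hs]
    have e1 : ∀ X : Fin n → Fin n → Omega d → ℝ, ∑ i, ∑ j, ∑ G, X i j G = ∑ G, ∑ i, ∑ j, X i j G := by
      intro X
      rw [Finset.sum_congr rfl fun i _ => Finset.sum_comm, Finset.sum_comm]
    rw [e1, Finset.mul_sum]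
    exact Finset.sum_le_sum fun G _ => count_le_two (K := K) (G := G.1)
      (fun p => (f (applyMove G.1 p.1 p.2) - f G.1) ^ 2) (fun p => sq_nonneg _)
  rw [havg, sub_zero, hip] at hb
  linarith

/-- FINAL -/
theorem split_mixing (hn : 4 ≤ n) (d : Fin n → ℕ) (hd : IsSplitSeq d) (G : Omega d) :
    tvDist d (n ^ 6) G ≤ 1 / 4 := by
  have hn' : (4 : ℝ) ≤ n := by exact_mod_cast hn
  have h4pos : (1 : ℝ) ≤ (n.choose 4 : ℝ) := by
    have : 1 ≤ n.choose 4 := Nat.choose_pos hn
    exact_mod_cast this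
  have h4 : (n.choose 4 : ℝ) ≤ (n : ℝ) ^ 4 / 24 := by
    have := Nat.choose_le_pow_div (α := ℝ) 4 n
    simpa [Nat.factorial] using this
  have h2 : (n.choose 2 : ℝ) ≤ (n : ℝ) ^ 2 / 2 := by
    have := Nat.choose_le_pow_div (α := ℝ) 2 n
    simpa [Nat.factorial] using this
  refine mixing_of_moves_poincare hn d (1 / 4) (by linarith)
    (fun f hf => split_poincare d hd f hf) (n ^ 6) ?_ G
  have h2' : (n.choose 2 : ℝ) + 2 ≤ (n : ℝ) ^ 2 := by nlinarith
  have h0 : (0 : ℝ) ≤ (n.choose 2 : ℝ) + 2 := by positivity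
  have h40 : (0 : ℝ) ≤ (n.choose 4 : ℝ) := by positivity
  calc 24 * (1 / 4) * (n.choose 4 : ℝ) * ((n.choose 2 : ℝ) + 2)
      = 6 * ((n.choose 4 : ℝ) * ((n.choose 2 : ℝ) + 2)) := by ring
    _ ≤ 6 * (((n : ℝ) ^ 4 / 24) * (n : ℝ) ^ 2) := by
        have := mul_le_mul h4 h2' h0 (by positivity)
        linarith
    _ ≤ (n : ℝ) ^ 6 := by
        have : (0 : ℝ) ≤ (n : ℝ) ^ 6 := by positivity
        nlinarith
    _ = ((n ^ 6 : ℕ) : ℝ) := by push_cast; ring

end Split

end P335h14
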